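import Vale.Agent.P065.H268.TimeAvg

/-!
# P065, input `near` of the bookkeeping theorem, combinatorial part (helper279)

`Cov P th M` is the set of the digits with a thick scale among the next `M` scales. If every thick
and good scale `v` covers the digits `t` with `v ≤ t + sg ≤ v + M` (`sg` a constant shift), then
`Cov` is at most the number of the covered digits, plus a constant, plus `M + 1` times the number of
the scales which are thick and not good.
-/

set_option autoImplicit false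

namespace Vale.Agent.P065.H279

open Finset Vale.Agent.P065.Ent Vale.Agent.P065.H268

open Classical in
/-- **windows**: a union of windows against the union of the shifted windows -/
theorem card_window_le (T M : ℕ) (sg : ℤ) (th G C : ℕ → Prop)
    (h : ∀ v < T, th v → G v → ∀ t < T, (v : ℤ) ≤ t + sg → (t : ℤ) + sg ≤ v + M → C t) :
    #{z ∈ range T | ∃ v, v < T ∧ th v ∧ z ≤ v ∧ v ≤ z + M} ≤
      #{t ∈ range T | C t} + (M + sg.natAbs + (M + 1) * #{v ∈ range T | th v ∧ ¬ G v}) := by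
  set A : Finset ℕ := {z ∈ range T | ∃ v, v < T ∧ th v ∧ z ≤ v ∧ v ≤ z + M} with hA
  set A1 : Finset ℕ := {z ∈ range T | ∃ v, v < T ∧ (th v ∧ G v) ∧ z ≤ v ∧ v ≤ z + M} with hA1
  set B : Finset ℕ := {v ∈ range T | th v ∧ ¬ G v} with hB
  set A2 : Finset ℕ := B.biUnion fun v => Icc (v - M) v with hA2
  have h1 : A ⊆ A1 ∪ A2 := by
    intro z hz
    obtain ⟨hz1, v, hv, hth, h2, h3⟩ := mem_filter.1 hz
    rw [mem_union]
    by_cases hG : G v
    · exact Or.inl (mem_filter.2 ⟨hz1, v, hv, ⟨hth, hG⟩, h2, h3⟩)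
    · refine Or.inr (mem_biUnion.2 ⟨v, mem_filter.2 ⟨mem_range.2 hv, hth, hG⟩, ?_⟩)
      rw [mem_Icc]
      omega
  have h2 : #A2 ≤ (M + 1) * #B := by
    refine (card_biUnion_le).trans ?_
    have : ∀ v ∈ B, #(Icc (v - M) v) ≤ M + 1 := by
      intro v _
      rw [Nat.card_Icc]
      omega
    refine (sum_le_sum this).trans (le_of_eq ?_)
    rw [sum_const, smul_eq_mul, mul_comm]
  -- the good windows
  have h3 : #A1 ≤ #{t ∈ range T | C t} + (M + sg.natAbs) := by
    have e1 : #(A1.image fun z : ℕ => (z : ℤ) + (M - sg)) = #A1 := by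
      apply card_image_of_injective
      intro a b hab
      have : (a : ℤ) + (M - sg) = b + (M - sg) := hab
      omega
    rw [← e1]
    have e2 : A1.image (fun z : ℕ => (z : ℤ) + (M - sg)) ⊆
        ({t ∈ range T | C t}.image fun t : ℕ => (t : ℤ)) ∪
          (Ico ((M : ℤ) - sg) 0 ∪ Ico (T : ℤ) (T + (M - sg))) := by
      intro y hy
      obtain ⟨z, hz, rfl⟩ := mem_image.1 hy
      obtain ⟨hz1, v, hv, ⟨hth, hG⟩, h4, h5⟩ := mem_filter.1 hz
      have hzT := mem_range.1 hz1
      rw [mem_union, mem_union, mem_Ico, mem_Ico, mem_image]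
      by_cases c1 : (z : ℤ) + (M - sg) < 0
      · exact Or.inr (Or.inl ⟨by omega, c1⟩)
      by_cases c2 : (T : ℤ) ≤ (z : ℤ) + (M - sg)
      · exact Or.inr (Or.inr ⟨c2, by omega⟩)
      left
      push Not at c1 c2
      obtain ⟨t, ht⟩ : ∃ t : ℕ, (t : ℤ) = (z : ℤ) + (M - sg) :=
        ⟨((z : ℤ) + (M - sg)).toNat, Int.toNat_of_nonneg c1⟩
      refine ⟨t, mem_filter.2 ⟨mem_range.2 (by omega), ?_⟩, ht⟩
      exact h v hv hth hG t (by omega) (by omega) (by omega)
    refine (card_le_card e2).trans ((card_union_le _ _).trans ?_)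
    have e3 : #({t ∈ range T | C t}.image fun t : ℕ => (t : ℤ)) ≤ #{t ∈ range T | C t} :=
      card_image_le
    have e4 := card_union_le (Ico ((M : ℤ) - sg) 0) (Ico (T : ℤ) (T + (M - sg)))
    rw [Int.card_Ico, Int.card_Ico] at e4
    have e5 : (0 - ((M : ℤ) - sg)).toNat + ((T : ℤ) + (M - sg) - T).toNat ≤ M + sg.natAbs := by
      omega
    omega
  have h4 := (card_le_card h1).trans (card_union_le _ _)
  omega

section avg

variable {Ω : Type*} [Fintype Ω]

open Classical in
/-- **the covered digits in the average** -/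
theorem cov_avg (P : Pcs Ω) {q : Ω → ℝ} (hq : IsProb q) (M : ℕ) (sg : ℤ)
    (th G C : ℕ → Ω → Prop)
    (h : ∀ p, 0 < q p → ∀ v < P.T, th v p → G v p → ∀ t < P.T, (v : ℤ) ≤ t + sg →
      (t : ℤ) + sg ≤ v + M → C t p) {bd : ℝ}
    (hbd : ∑ p, q p * #{v ∈ range P.T | th v p ∧ ¬ G v p} ≤ bd) :
    ∑ p, q p * #(Cov P th M p) ≤
      ∑ p, q p * #{t ∈ range P.T | C t p} + (M + |(sg : ℝ)| + (M + 1) * bd) := by
  have h1 : ∀ p, q p * #(Cov P th M p) ≤ q p * #{t ∈ range P.T | C t p} +
      (q p * (M + |(sg : ℝ)|) + (M + 1) * (q p * #{v ∈ range P.T | th v p ∧ ¬ G v p})) := by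
    intro p
    rcases (hq.nonneg p).eq_or_lt with h0 | h0
    · rw [← h0]; simp
    · have h2 := card_window_le P.T M sg (fun v => th v p) (fun v => G v p) (fun t => C t p)
        (h p h0)
      have h3 : (#(Cov P th M p) : ℝ) ≤ #{t ∈ range P.T | C t p} +
          (M + |(sg : ℝ)| + (M + 1) * #{v ∈ range P.T | th v p ∧ ¬ G v p}) := by
        have h4 : (#(Cov P th M p) : ℝ) ≤ ((#{t ∈ range P.T | C t p} +
            (M + sg.natAbs + (M + 1) * #{v ∈ range P.T | th v p ∧ ¬ G v p}) : ℕ) : ℝ) := by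
          exact_mod_cast h2
        refine h4.trans (le_of_eq ?_)
        push_cast
        rw [Nat.cast_natAbs]
        push_cast
        rfl
      have h5 := mul_le_mul_of_nonneg_left h3 h0.le
      refine h5.trans (le_of_eq ?_)
      ring
  refine (sum_le_sum fun p _ => h1 p).trans ?_
  rw [sum_add_distrib, sum_add_distrib, ← sum_mul, ← mul_sum, hq.sum, one_mul]
  have hM : (0 : ℝ) ≤ M + 1 := by positivity
  have := mul_le_mul_of_nonneg_left hbd hM
  linarith

open Classical in
/-- the list of the reasons -/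
theorem sum_list {ι : Type*} (s : Finset ι) {q : Ω → ℝ} (hq : IsProb q) (T : ℕ)
    (A : ℕ → Ω → Prop) (N : ι → ℕ → Ω → Prop)
    (h : ∀ p, 0 < q p → ∀ v < T, A v p → ∃ i ∈ s, N i v p) :
    ∑ p, q p * #{v ∈ range T | A v p} ≤
      ∑ i ∈ s, ∑ p, q p * #{v ∈ range T | N i v p} := by
  rw [sum_comm]
  refine sum_le_sum fun p _ => ?_
  rw [← mul_sum]
  rcases (hq.nonneg p).eq_or_lt with h0 | h0
  · rw [← h0]; simp
  refine mul_le_mul_of_nonneg_left ?_ h0.le
  have h1 : {v ∈ range T | A v p} ⊆ s.biUnion fun i => {v ∈ range T | N i v p} := by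
    intro v hv
    obtain ⟨h2, h3⟩ := mem_filter.1 hv
    obtain ⟨i, hi, h4⟩ := h p h0 v (mem_range.1 h2) h3
    exact mem_biUnion.2 ⟨i, hi, mem_filter.2 ⟨h2, h4⟩⟩
  have h2 := (card_le_card h1).trans card_biUnion_le
  exact_mod_cast h2

end avg

end Vale.Agent.P065.H279
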