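import Vale.Agent.P065.H154.FrameGuard
import Vale.Agent.P065.H279.NearCov

/-!
# P065, input `near` of the bookkeeping theorem, rows (helper279)

On helper154's frame: boxes `Rt γ t` (small rows) and `Rt (γ + s) t` (big rows).

* `small_big_le` : the mass of the small box is smaller than `d` times the mass of the big box at
  few scales (telescoping, no average over the offset).
* `late_card` : a flag is late at few scales of a two-centre cell.
* `bm_per` : for a periodic law the shares of the flag events in a box with two centres depend on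
  the offset modulo the unit of the row only.
* `row_pos_le` : average over the position of the small row in the big row.
-/

set_option autoImplicit false

open Finset Real

noncomputable section

namespace Vale.Agent.P065.H279

open Vale.Agent.P065.UB Vale.Agent.P065.Ent Vale.Agent.P065.H268 Vale.Agent.P065.H154

section box

variable {Ω : Type*} {F : Fr Ω} {ln : Ω → Pt} {p : Prm}

/-- level and guard shifted together -/
lemma Nf_add (γ s t : ℕ) (c : p.Col) (ω : Ω) :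
    Nf F ln p (γ + s) (t + s) c ω = Nf F ln p γ t c ω := by
  unfold Nf
  have e : min (t + s) (F.T' ω + (γ + s)) = min t (F.T' ω + γ) + s := by omega
  rw [e, Prm.N_add]

/-- the big box `s` scales later is a part of the small box -/
lemma Rt_big_det (u : ℝ) (γ s t : ℕ) :
    Det (Rt F ln p u (γ + s) (t + s)) (Rt F ln p u γ t) := by
  rintro ⟨c, ω⟩ ⟨c', ω'⟩ h
  unfold Rt at h ⊢
  simp only [Prod.mk.injEq] at h ⊢
  obtain ⟨rfl, h2, h3, h4⟩ := h
  refine ⟨rfl, h2, F.D_det_le u (Nat.le_add_right t s) _ _ h3, ?_⟩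
  rwa [Nf_add, Nf_add] at h4

open Classical in
/-- **late scales**: a flag is late at few scales before the frozen scale -/
lemma late_card (T PB : ℕ) (ω : Ω) (A : ℕ → Prop) (hA : ∀ t, A t → t < F.T' ω) :
    #{t ∈ range T | A t ∧ F.T' ω < t + PB} ≤ PB := by
  have h : {t ∈ range T | A t ∧ F.T' ω < t + PB} ⊆ Ico (F.T' ω - PB) (F.T' ω) := by
    intro t ht
    obtain ⟨-, h1, h2⟩ := mem_filter.1 ht
    rw [mem_Ico]
    exact ⟨by omega, hA t h1⟩
  refine (card_le_card h).trans ?_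
  rw [Nat.card_Ico]
  omega

/-- rows before the frozen scale, two offsets which agree modulo the unit -/
lemma N_off {γ t : ℕ} (k : p.Kap) {i i' : Fin p.nT} (ht : t ≤ Prm.ex k + γ)
    (h : (i : ℕ) % (3 * 2 ^ (Prm.ex k + γ - t)) = i' % (3 * 2 ^ (Prm.ex k + γ - t))) :
    ∃ z : ℤ, ∀ (x : ℝ) (v : Pt), Prm.N γ t (k, i') x v = Prm.N γ t (k, i) x v + z := by
  have key : ∃ z : ℤ, ((i' : ℕ) : ℤ) = (i : ℕ) + z * (3 * 2 ^ (Prm.ex k + γ - t)) := by
    have h1 : ((i' : ℕ) : ℤ) ≡ ((i : ℕ) : ℤ) [ZMOD ((3 * 2 ^ (Prm.ex k + γ - t) : ℕ) : ℤ)] := by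
      rw [Int.natCast_modEq_iff]
      exact h.symm
    obtain ⟨z, hz⟩ := h1.symm.dvd
    refine ⟨z, ?_⟩
    push_cast at hz
    linarith
  obtain ⟨z, hz⟩ := key
  refine ⟨z, fun x v => ?_⟩
  rw [Prm.N_eq (k, i') ht, Prm.N_eq (k, i) ht]
  have e : ((i' : ℕ) : ℝ) = (i : ℕ) + z * (3 * 2 ^ (Prm.ex k + γ - t)) := by
    exact_mod_cast hz
  simp only
  rw [e, ← Int.floor_add_intCast]
  congr 1
  push_cast
  have : (0 : ℝ) < 2 ^ (Prm.ex k + γ - t) := by positivity
  field_simp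
  ring

variable [Fintype Ω]

open Classical in
/-- **small box and big box**: the scales at which the small box has less than `d` times the mass
of the big box -/
theorem small_big_le {Q : p.Col × Ω → ℝ} (hQ : IsProb Q) (u : ℝ) (γ s T : ℕ) {d : ℝ}
    (hd : 0 < d) :
    (∑ x, Q x * #{t ∈ range T | Pr Q (Rt F ln p u γ t) (Rt F ln p u γ t x) <
        d * Pr Q (Rt F ln p u (γ + s) t) (Rt F ln p u (γ + s) t x)}) * log (1 / d) ≤
      s * Hc Q (Rt F ln p u γ T) (Rt F ln p u (γ + s) 0) := by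
  set Fb : ℕ → p.Col × Ω → ℝ := fun t x =>
    log (Pr Q (Rt F ln p u (γ + s) t) (Rt F ln p u (γ + s) t x)) with hFb
  set G : ℕ → p.Col × Ω → ℝ := fun t x =>
    log (Pr Q (Rt F ln p u γ t) (Rt F ln p u γ t x)) with hG
  have key : ∀ x, 0 < Q x →
      (#{t ∈ range T | Pr Q (Rt F ln p u γ t) (Rt F ln p u γ t x) <
        d * Pr Q (Rt F ln p u (γ + s) t) (Rt F ln p u (γ + s) t x)} : ℝ) * log (1 / d) ≤
      s * (Fb 0 x - G T x) := by
    intro x hx
    have h1 := tele (fun t => Fb t x) (fun t => G t x) s T (G T x) ?_ ?_ ?_ ?_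
    · refine le_trans ?_ h1
      rw [card_eq_sum_ones, Nat.cast_sum, sum_mul, ← sum_filter_add_sum_filter_not (range T)
        (fun t => Pr Q (Rt F ln p u γ t) (Rt F ln p u γ t x) <
        d * Pr Q (Rt F ln p u (γ + s) t) (Rt F ln p u (γ + s) t x)) (fun t => Fb t x - G t x)]
      have h2 : 0 ≤ ∑ t ∈ (range T).filter (fun t => ¬ (Pr Q (Rt F ln p u γ t)
          (Rt F ln p u γ t x) <
          d * Pr Q (Rt F ln p u (γ + s) t) (Rt F ln p u (γ + s) t x))), (Fb t x - G t x) := by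
        refine sum_nonneg fun t _ => ?_
        have h3 := log_le_log (Pr_pos hQ (Rt F ln p u γ t) hx)
          (Pr_mono hQ (Rt_guard u (Nat.le_add_right γ s) t) x)
        exact sub_nonneg.2 h3
      have h3 : ∀ t ∈ (range T).filter (fun t => Pr Q (Rt F ln p u γ t)
          (Rt F ln p u γ t x) <
          d * Pr Q (Rt F ln p u (γ + s) t) (Rt F ln p u (γ + s) t x)),
          ((1 : ℕ) : ℝ) * log (1 / d) ≤ Fb t x - G t x := by
        intro t ht
        have h4 := (mem_filter.1 ht).2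
        have p1 := Pr_pos hQ (Rt F ln p u γ t) hx
        have p2 := Pr_pos hQ (Rt F ln p u (γ + s) t) hx
        have h5 := log_le_log p1 h4.le
        rw [log_mul hd.ne' p2.ne'] at h5
        rw [Nat.cast_one, one_mul, one_div, log_inv]
        simp only [hFb, hG]
        linarith
      have h4 := sum_le_sum h3
      linarith
    · intro t _
      exact log_le_log (Pr_pos hQ _ hx) (Pr_mono hQ (Rt_det u (γ + s) t) x)
    · intro t _
      exact log_le_log (Pr_pos hQ _ hx) (Pr_mono hQ (Rt_big_det u γ s t) x)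
    · exact log_le_log (Pr_pos hQ _ hx) (Pr_mono hQ (Rt_guard u (Nat.le_add_right γ s) T) x)
    · intro t ht
      exact log_le_log (Pr_pos hQ _ hx) (Pr_mono hQ (Rt_det_le u γ ht.le) x)
  have e1 : Hc Q (Rt F ln p u γ T) (Rt F ln p u (γ + s) 0) =
      H Q (Rt F ln p u γ T) - H Q (Rt F ln p u (γ + s) 0) :=
    Hc_eq (Det.refl _) ((Rt_det_le u γ (Nat.zero_le T)).trans
      (Rt_guard u (Nat.le_add_right γ s) 0)) (det_fst _ _)
  rw [e1, sum_mul]
  unfold H
  rw [← sum_sub_distrib, mul_sum]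
  refine sum_le_sum fun x _ => ?_
  rcases (hQ.nonneg x).eq_or_lt with h0 | h0
  · rw [← h0]; simp
  · have h1 := mul_le_mul_of_nonneg_left (key x h0) h0.le
    rw [mul_assoc]
    refine h1.trans (le_of_eq ?_)
    simp only [hFb, hG]
    ring

/-! ### Periodicity -/

open Classical in
/-- mass of the flags with `A` in the box -/
def bm (F : Fr Ω) (ln : Ω → Pt) (p : Prm) (Q : p.Col × Ω → ℝ) (u : ℝ) (γ t : ℕ) (A : Ω → Prop)
    (x : p.Col × Ω) : ℝ :=
  ∑ y, if Rt F ln p u γ t y = Rt F ln p u γ t x ∧ A y.2 then Q y else 0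

lemma bm_true {Q : p.Col × Ω → ℝ} (u : ℝ) (γ t : ℕ) (x : p.Col × Ω) :
    bm F ln p Q u γ t (fun _ => True) x = Pr Q (Rt F ln p u γ t) (Rt F ln p u γ t x) := by
  unfold bm Pr
  refine sum_congr rfl fun y _ => ?_
  by_cases h : Rt F ln p u γ t y = Rt F ln p u γ t x
  · rw [if_pos h, if_pos ⟨h, trivial⟩]
  · rw [if_neg h, if_neg fun h' => h h'.1]

/-- the mass is a sum over the flags -/
lemma bm_eq {Q : p.Col × Ω → ℝ} (u : ℝ) (γ t : ℕ) (A : Ω → Prop) [DecidablePred A]
    (c : p.Col) (ω : Ω) [∀ ω', Decidable (Rt F ln p u γ t (c, ω') = Rt F ln p u γ t (c, ω))] :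
    bm F ln p Q u γ t A (c, ω) =
      ∑ ω', if Rt F ln p u γ t (c, ω') = Rt F ln p u γ t (c, ω) ∧ A ω' then Q (c, ω') else 0 := by
  classical
  unfold bm
  rw [Fintype.sum_prod_type, sum_eq_single c]
  · refine sum_congr rfl fun ω' _ => ?_
    by_cases h : Rt F ln p u γ t (c, ω') = Rt F ln p u γ t (c, ω) ∧ A ω'
    · rw [if_pos h, if_pos h]
    · rw [if_neg h, if_neg h]
  · intro c' _ hc'
    refine sum_eq_zero fun ω' _ => if_neg fun h => hc' ?_
    exact Rt_col u γ t _ _ h.1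
  · intro h
    exact absurd (mem_univ c) h

/-- **the shares in a box before the frozen scale are periodic** -/
theorem bm_per {Q : p.Col × Ω → ℝ} (h : LPer F p Q) (hM : F.Tm ≤ p.M) (u : ℝ) {γ t : ℕ}
    (A : Ω → Prop) (k : p.Kap) {i i' : Fin p.nT} {ω : Ω} (ht : t < F.T' ω)
    (hi : (i : ℕ) % (3 * 2 ^ (Prm.ex k + γ - t)) = i' % (3 * 2 ^ (Prm.ex k + γ - t))) :
    bm F ln p Q u γ t A ((k, i), ω) = bm F ln p Q u γ t A ((k, i'), ω) := by
  classical
  have hex : ∀ ω, F.T' ω ≤ Prm.ex k := fun ω => by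
    have h1 := F.T'_le ω
    have h2 : Prm.ex k = p.K - Prm.js k + p.M := rfl
    omega
  have hex0 := hex ω
  obtain ⟨z, hz⟩ := N_off (γ := γ) (t := t) k (by omega) hi
  rw [bm_eq, bm_eq]
  refine sum_congr rfl fun ω' _ => ?_
  by_cases hD : F.D u t ω' = F.D u t ω
  · -- all frozen scales in the cell are larger than `t`
    have hT' : t < F.T' ω' := by
      rcases F.T'_cases hD with ⟨-, h2⟩ | ⟨h2, -⟩
      · omega
      · exact h2
    have e1 : ∀ j : Fin p.nT, ∀ ω₁, t < F.T' ω₁ →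
        Nf F ln p γ t (k, j) ω₁ = Prm.N γ t (k, j) (F.P.x ω₁) (ln ω₁) := by
      intro j ω₁ h1
      unfold Nf
      rw [min_eq_left (by omega)]
    have e2 : Rt F ln p u γ t ((k, i), ω') = Rt F ln p u γ t ((k, i), ω) ↔
        Rt F ln p u γ t ((k, i'), ω') = Rt F ln p u γ t ((k, i'), ω) := by
      unfold Rt
      simp only [Prod.mk.injEq, true_and]
      rw [e1 i ω' hT', e1 i ω ht, e1 i' ω' hT', e1 i' ω ht, hz, hz]
      constructor
      · rintro ⟨a1, a2, a3⟩
        exact ⟨a1, a2, by rw [a3]⟩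
      · rintro ⟨a1, a2, a3⟩
        exact ⟨a1, a2, by linarith⟩
    have e3 : Q ((k, i), ω') = Q ((k, i'), ω') := by
      apply h
      have hd : 3 * 2 ^ (Prm.ex k - F.T' ω') ∣ 3 * 2 ^ (Prm.ex k + γ - t) :=
        Nat.mul_dvd_mul_left 3 (pow_dvd_pow 2 (by omega))
      rw [← Nat.mod_mod_of_dvd (i : ℕ) hd, hi, Nat.mod_mod_of_dvd _ hd]
    by_cases h1 : Rt F ln p u γ t ((k, i), ω') = Rt F ln p u γ t ((k, i), ω) ∧ A ω'
    · rw [if_pos h1, if_pos ⟨e2.1 h1.1, h1.2⟩, e3]
    · rw [if_neg h1, if_neg fun h2 => h1 ⟨e2.2 h2.1, h2.2⟩]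
  · have e1 : ∀ j : Fin p.nT,
        Rt F ln p u γ t ((k, j), ω') ≠ Rt F ln p u γ t ((k, j), ω) := fun j hj =>
      hD (Rt_D u γ t _ _ hj)
    rw [if_neg fun h1 => e1 i h1.1, if_neg fun h1 => e1 i' h1.1]

/-! ### Position of the small row in the big row -/

open Classical in
/-- **the position of the small row in the big row**: `th` is any set of (column, flag), before the
frozen scales, which depends on the offset modulo the unit of the small row only -/
theorem row_pos_le {Q : p.Col × Ω → ℝ} (hQ : IsProb Q) (h : LPer F p Q) (hM : F.Tm ≤ p.M)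
    {γ s t m : ℕ} (hs : γ + s ≤ p.Γ) (th : p.Col × Ω → Prop)
    (hth : ∀ x, 0 < Q x → th x → t < F.T' x.2)
    (hper : ∀ (k : p.Kap) (i i' : Fin p.nT) (ω : Ω), t < F.T' ω →
      (i : ℕ) % (3 * 2 ^ (Prm.ex k + γ - t)) = i' % (3 * 2 ^ (Prm.ex k + γ - t)) →
      th ((k, i), ω) → th ((k, i'), ω)) :
    ∑ x, Q x * (if th x ∧ (Nf F ln p γ t x.1 x.2 % 2 ^ s < m ∨
        2 ^ s ≤ Nf F ln p γ t x.1 x.2 % 2 ^ s + m) then 1 else 0) ≤
      2 * m / 2 ^ s * ∑ x, Q x * (if th x then 1 else 0) := by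
  have hf : ∀ g : p.Col × Ω → ℝ, ∑ x, g x =
      ∑ k : p.Kap, ∑ ω : Ω, ∑ i : Fin p.nT, g ((k, i), ω) := by
    intro g
    rw [Fintype.sum_prod_type, Fintype.sum_prod_type]
    exact sum_congr rfl fun k _ => sum_comm
  rw [hf, hf (fun x => Q x * (if th x then 1 else 0)), mul_sum]
  refine sum_le_sum fun k _ => ?_
  rw [mul_sum]
  refine sum_le_sum fun ω _ => ?_
  have hex : F.T' ω ≤ Prm.ex k := by
    have h1 := F.T'_le ω
    have h2 : Prm.ex k = p.K - Prm.js k + p.M := rfl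
    omega
  have hR0 : 0 ≤ 2 * (m : ℝ) / 2 ^ s * ∑ i : Fin p.nT,
      Q ((k, i), ω) * (if th ((k, i), ω) then 1 else 0) := by
    refine mul_nonneg (by positivity) (sum_nonneg fun i _ => mul_nonneg (hQ.nonneg _) ?_)
    split_ifs <;> norm_num
  by_cases ht : t < F.T' ω
  swap
  · refine le_trans (le_of_eq (sum_eq_zero fun i _ => ?_)) hR0
    rcases (hQ.nonneg ((k, i), ω)).eq_or_lt with h0 | h0
    · rw [← h0, zero_mul]
    · rw [if_neg, mul_zero]
      intro h1
      exact ht (hth _ h0 h1.1)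
  -- the unit of the small row
  set w := 3 * 2 ^ (Prm.ex k + γ - t) with hw
  have hw0 : 0 < w := by positivity
  set G := 2 ^ s with hG
  have hG0 : 0 < G := by positivity
  set f : ℕ → ℝ := fun i => if hi : i < p.nT then
    Q ((k, ⟨i, hi⟩), ω) * (if th ((k, ⟨i, hi⟩), ω) then 1 else 0) else 0 with hfd
  have hfv : ∀ i : Fin p.nT, f i = Q ((k, i), ω) * (if th ((k, i), ω) then 1 else 0) := by
    intro i
    simp only [hfd, i.2, dif_pos]
  have hf0 : ∀ i, 0 ≤ f i := by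
    intro i
    simp only [hfd]
    split_ifs
    · simpa using hQ.nonneg _
    · simp
    · exact le_rfl
  have hfp : ∀ i j, i < p.nT → j < p.nT → i % w = j % w → f i = f j := by
    intro i j hi hj hij
    have e1 : Q ((k, ⟨i, hi⟩), ω) = Q ((k, ⟨j, hj⟩), ω) := by
      apply h
      have hd : 3 * 2 ^ (Prm.ex k - F.T' ω) ∣ w :=
        Nat.mul_dvd_mul_left 3 (pow_dvd_pow 2 (by omega))
      show i % _ = j % _
      rw [← Nat.mod_mod_of_dvd i hd, hij, Nat.mod_mod_of_dvd _ hd]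
    have e2 : th ((k, ⟨i, hi⟩), ω) ↔ th ((k, ⟨j, hj⟩), ω) :=
      ⟨fun h1 => hper k ⟨i, hi⟩ ⟨j, hj⟩ ω ht hij h1,
        fun h1 => hper k ⟨j, hj⟩ ⟨i, hi⟩ ω ht hij.symm h1⟩
    simp only [hfd, hi, hj, dif_pos, e1]
    by_cases h3 : th ((k, ⟨j, hj⟩), ω)
    · rw [if_pos h3, if_pos (e2.2 h3)]
    · rw [if_neg h3, if_neg fun h4 => h3 (e2.1 h4)]
  have hn : (2 ^ (Prm.js k + (p.Γ - (γ + s))) * 2 ^ t) * (w * G) = p.nT := by
    rw [← periods k hs, hw, hG]
    have e1 : 2 ^ (Prm.ex k + (γ + s)) = 2 ^ t * (2 ^ (Prm.ex k + γ - t) * 2 ^ s) := by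
      rw [← pow_add, ← pow_add]
      congr 1
      omega
    rw [e1]
    ring
  set B : ℤ := ⌊Prm.b k (F.P.x ω) (ln ω)⌋ with hB
  -- the row as an integer quotient
  have hrow : ∀ i : Fin p.nT, Nf F ln p γ t (k, i) ω = (B + ((i : ℕ) : ℤ)) / (w : ℤ) := by
    intro i
    have h1 : t ≤ Prm.ex (k, i).1 + γ := by
      show t ≤ Prm.ex k + γ
      omega
    unfold Nf
    rw [min_eq_left (by omega), Prm.N_eq (k, i) h1]
    have e1 : ((3 : ℕ) : ℝ) * 2 ^ (Prm.ex (k, i).1 + γ - t) = ((w : ℕ) : ℝ) := by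
      rw [hw]
      push_cast
      rfl
    rw [e1]
    exact floor_div _ _ _
  have hpos : ∀ r : ℤ, 0 ≤ r → r < G → ∑ i : Fin p.nT,
      (if Nf F ln p γ t (k, i) ω % 2 ^ s = r then f i else 0) =
      1 / (G : ℝ) * ∑ i : Fin p.nT, f i := by
    intro r h0 h1
    have h2 := sum_pos hw0 hG0 hn B r h0 h1 f hfp
    rw [← Finset.sum_range f, ← h2, Finset.sum_range]
    refine sum_congr rfl fun i _ => ?_
    rw [hrow i]
    have e1 : ((G : ℕ) : ℤ) = 2 ^ s := by rw [hG]; push_cast; rfl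
    rw [e1]
  -- the residues at the ends
  set Rs : Finset ℤ := (Ico (0 : ℤ) G).filter (fun r => r < m ∨ (G : ℤ) ≤ r + m) with hRs
  have hcard : (#Rs : ℝ) ≤ 2 * m := by
    have h1 : Rs ⊆ Ico (0 : ℤ) m ∪ Ico ((G : ℤ) - m) G := by
      intro r hr
      obtain ⟨h2, h3⟩ := mem_filter.1 hr
      rw [mem_Ico] at h2
      rw [mem_union, mem_Ico, mem_Ico]
      omega
    have h2 := (card_le_card h1).trans (card_union_le _ _)
    rw [Int.card_Ico, Int.card_Ico] at h2
    have h3 : #Rs ≤ 2 * m := by omega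
    exact_mod_cast h3
  have hGz : ((G : ℕ) : ℤ) = 2 ^ s := by rw [hG]; push_cast; rfl
  have step : ∑ i : Fin p.nT, Q ((k, i), ω) * (if th ((k, i), ω) ∧
      (Nf F ln p γ t (k, i) ω % 2 ^ s < m ∨ 2 ^ s ≤ Nf F ln p γ t (k, i) ω % 2 ^ s + m)
        then 1 else 0) ≤
      ∑ r ∈ Rs, ∑ i : Fin p.nT, (if Nf F ln p γ t (k, i) ω % 2 ^ s = r then f i else 0) := by
    rw [sum_comm]
    refine sum_le_sum fun i _ => ?_
    by_cases h1 : th ((k, i), ω) ∧
      (Nf F ln p γ t (k, i) ω % 2 ^ s < m ∨ 2 ^ s ≤ Nf F ln p γ t (k, i) ω % 2 ^ s + m)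
    · have h2 : Nf F ln p γ t (k, i) ω % 2 ^ s ∈ Rs := by
        rw [hRs, mem_filter, mem_Ico, hGz]
        exact ⟨⟨Int.emod_nonneg _ (by positivity), Int.emod_lt_of_pos _ (by positivity)⟩, h1.2⟩
      have h3 := single_le_sum (f := fun r => if Nf F ln p γ t (k, i) ω % 2 ^ s = r then f i else 0)
        (fun r _ => by
          show 0 ≤ if Nf F ln p γ t (k, i) ω % 2 ^ s = r then f i else 0
          split_ifs
          · exact hf0 _
          · exact le_rfl) h2
      simp only [if_true] at h3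
      refine le_trans (le_of_eq ?_) h3
      rw [if_pos h1, hfv, if_pos h1.1]
    · rw [if_neg h1, mul_zero]
      refine sum_nonneg fun r _ => ?_
      split_ifs
      · exact hf0 _
      · exact le_rfl
  refine step.trans ?_
  have h2 : ∀ r ∈ Rs, ∑ i : Fin p.nT,
      (if Nf F ln p γ t (k, i) ω % 2 ^ s = r then f i else 0) =
      1 / (G : ℝ) * ∑ i : Fin p.nT, f i := by
    intro r hr
    have h3 := mem_Ico.1 (mem_filter.1 hr).1
    exact hpos r h3.1 h3.2
  rw [sum_congr rfl h2, sum_const, nsmul_eq_mul]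
  have h3 : (0 : ℝ) ≤ 1 / (G : ℝ) * ∑ i : Fin p.nT, f i :=
    mul_nonneg (by positivity) (sum_nonneg fun i _ => hf0 _)
  refine (mul_le_mul_of_nonneg_right hcard h3).trans (le_of_eq ?_)
  rw [sum_congr rfl fun i _ => hfv i, hG]
  push_cast
  ring

end box

end Vale.Agent.P065.H279
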