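import Vale.Agent.P065.H154.FrameBook
import Vale.Agent.P065.H268.TimeNear
import Vale.Agent.P065.H279.NearRow

/-!
# P065, input `near` of the bookkeeping theorem on the frame (helper279)

A thick scale `v` is `okv` for a flag if the flag is not late, its small row has distance at least
`m` small rows from the ends of the big row (`2 ^ s` small rows), the small box has at least `dl`
times the mass of the big box and the flag is not near the midpoint of its cell of scale `v`.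
-/

set_option autoImplicit false

open Finset Real

noncomputable section

namespace Vale.Agent.P065.H279

open Vale.Agent.P065.UB Vale.Agent.P065.Ent Vale.Agent.P065.H268 Vale.Agent.P065.H154

variable {Ω : Type*} [Fintype Ω] (F : Fr Ω) (ln : Ω → Pt) (p : Prm)

/-- a scale which is good for the flag -/
def okv (Q : p.Col × Ω → ℝ) (u : ℝ) (γ s m PB g : ℕ) (dl : ℝ) (v : ℕ) (x : p.Col × Ω) : Prop :=
  v + PB ≤ F.T' x.2 ∧
    ((m : ℤ) ≤ Nf F ln p γ v x.1 x.2 % 2 ^ s ∧ Nf F ln p γ v x.1 x.2 % 2 ^ s + m < 2 ^ s) ∧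
    dl * Pr Q (Rt F ln p u (γ + s) v) (Rt F ln p u (γ + s) v x) ≤
      Pr Q (Rt F ln p u γ v) (Rt F ln p u γ v x) ∧
    ¬ nearU u g v (F.P.x x.2)

variable {F ln p}

open Classical in
/-- **the thick scales which are not good** -/
theorem not_ok_le {Q : p.Col × Ω → ℝ} (hQ : IsProb Q) (h : LPer F p Q) (hM : F.Tm ≤ p.M)
    (u : ℝ) {γ s m PB g T s₀ : ℕ} (hs : γ + s ≤ p.Γ) {dl : ℝ} (hdl : 0 < dl) (hdl1 : dl < 1)
    (th : ℕ → p.Col × Ω → Prop)
    (h0 : ∀ t < T, ∀ x, 0 < Q x → th t x → t < F.T' x.2)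
    (hper : ∀ t < T, ∀ (k : p.Kap) (i i' : Fin p.nT) (ω : Ω), t < F.T' ω →
      (i : ℕ) % (3 * 2 ^ (Prm.ex k + γ - t)) = i' % (3 * 2 ^ (Prm.ex k + γ - t)) →
      th t ((k, i), ω) → th t ((k, i'), ω))
    {ps : ℝ} (hps : 0 < ps)
    (hka : ∀ t < T, ∀ x, 0 < Q x → th t x →
      Avg.ka ((F.Q u s₀).pull (Prod.snd : p.Col × Ω → Ω)) Q (Rt F ln p u γ) t x ≤ 1 - ps)
    {thk ent tn : ℝ} (hthk : ∑ x, Q x * #{t ∈ range T | th t x} ≤ thk)
    (hent : Hc Q (Rt F ln p u γ T) (Rt F ln p u (γ + s) 0) ≤ ent)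
    (htn : ncut F ln p Q γ g T s₀ u ≤ tn) :
    ∑ x, Q x * #{v ∈ range T | th v x ∧ ¬ okv F ln p Q u γ s m PB g dl v x} ≤
      PB + 2 * m / 2 ^ s * thk + s * ent / log (1 / dl) + tn / ps := by
  have hlog : 0 < log (1 / dl) := log_pos (by rw [one_div]; exact (one_lt_inv₀ hdl).2 hdl1)
  -- the four lists
  obtain ⟨A1, hA1⟩ : ∃ A : ℕ → p.Col × Ω → Prop,
    ∀ t x, A t x ↔ th t x ∧ F.T' x.2 < t + PB := ⟨_, fun _ _ => Iff.rfl⟩
  obtain ⟨A2, hA2⟩ : ∃ A : ℕ → p.Col × Ω → Prop,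
    ∀ t x, A t x ↔ th t x ∧ (Nf F ln p γ t x.1 x.2 % 2 ^ s < m ∨
      2 ^ s ≤ Nf F ln p γ t x.1 x.2 % 2 ^ s + m) := ⟨_, fun _ _ => Iff.rfl⟩
  obtain ⟨A3, hA3⟩ : ∃ A : ℕ → p.Col × Ω → Prop,
    ∀ t x, A t x ↔ Pr Q (Rt F ln p u γ t) (Rt F ln p u γ t x) <
      dl * Pr Q (Rt F ln p u (γ + s) t) (Rt F ln p u (γ + s) t x) := ⟨_, fun _ _ => Iff.rfl⟩
  obtain ⟨A4, hA4⟩ : ∃ A : ℕ → p.Col × Ω → Prop,
    ∀ t x, A t x ↔ th t x ∧ nearU u g t (F.P.x x.2) := ⟨_, fun _ _ => Iff.rfl⟩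
  have hcard : ∀ x, (#{v ∈ range T | th v x ∧ ¬ okv F ln p Q u γ s m PB g dl v x} : ℝ) ≤
      #{t ∈ range T | A1 t x} + #{t ∈ range T | A2 t x} + #{t ∈ range T | A3 t x} +
        #{t ∈ range T | A4 t x} := by
    intro x
    have h1 : {v ∈ range T | th v x ∧ ¬ okv F ln p Q u γ s m PB g dl v x} ⊆
        (({t ∈ range T | A1 t x} ∪ {t ∈ range T | A2 t x}) ∪ {t ∈ range T | A3 t x}) ∪
          {t ∈ range T | A4 t x} := by
      intro v hv
      obtain ⟨h1, h2, h3⟩ := mem_filter.1 hv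
      simp only [mem_union, mem_filter]
      by_contra hc
      push Not at hc
      obtain ⟨⟨⟨c1, c2⟩, c3⟩, c4⟩ := hc
      refine h3 ⟨?_, ?_, ?_, ?_⟩
      · by_contra h4
        exact c1 h1 ((hA1 v x).2 ⟨h2, by omega⟩)
      · have h4 := c2 h1
        rw [hA2] at h4
        push Not at h4
        exact h4 h2
      · by_contra h4
        exact c3 h1 ((hA3 v x).2 (not_le.1 h4))
      · intro h4
        exact c4 h1 ((hA4 v x).2 ⟨h2, h4⟩)
    have h2 := (card_le_card h1).trans ((card_union_le _ _).trans (add_le_add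
      ((card_union_le _ _).trans (add_le_add (card_union_le _ _) le_rfl)) le_rfl))
    exact_mod_cast h2
  have hsum : ∑ x, Q x * #{v ∈ range T | th v x ∧ ¬ okv F ln p Q u γ s m PB g dl v x} ≤
      ∑ x, Q x * #{t ∈ range T | A1 t x} + ∑ x, Q x * #{t ∈ range T | A2 t x} +
        ∑ x, Q x * #{t ∈ range T | A3 t x} + ∑ x, Q x * #{t ∈ range T | A4 t x} := by
    rw [← sum_add_distrib, ← sum_add_distrib, ← sum_add_distrib]
    refine sum_le_sum fun x _ => ?_
    rw [← mul_add, ← mul_add, ← mul_add]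
    exact mul_le_mul_of_nonneg_left (hcard x) (hQ.nonneg x)
  -- late
  have b1 : ∑ x, Q x * #{t ∈ range T | A1 t x} ≤ PB := by
    have : ∀ x, Q x * #{t ∈ range T | A1 t x} ≤ Q x * PB := by
      intro x
      rcases (hQ.nonneg x).eq_or_lt with h2 | h2
      · rw [← h2]; simp
      · refine mul_le_mul_of_nonneg_left ?_ h2.le
        obtain ⟨A0, hA0⟩ : ∃ A : ℕ → Prop, ∀ t, A t ↔ t < T ∧ th t x := ⟨_, fun _ => Iff.rfl⟩
        have h3 : {t ∈ range T | A1 t x} ⊆ {t ∈ range T | A0 t ∧ F.T' x.2 < t + PB} := by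
          intro t ht
          obtain ⟨h4, h5⟩ := mem_filter.1 ht
          rw [hA1] at h5
          exact mem_filter.2 ⟨h4, (hA0 t).2 ⟨mem_range.1 h4, h5.1⟩, h5.2⟩
        have h4 := (card_le_card h3).trans (late_card (F := F) T PB x.2 A0
          fun t ht => h0 t ((hA0 t).1 ht).1 x h2 ((hA0 t).1 ht).2)
        exact_mod_cast h4
    refine (sum_le_sum fun x _ => this x).trans (le_of_eq ?_)
    rw [← sum_mul, hQ.sum, one_mul]
  -- rows
  have hswap : ∀ A : ℕ → p.Col × Ω → Prop, ∑ x, Q x * (#{t ∈ range T | A t x} : ℝ) =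
      ∑ t ∈ range T, ∑ x, Q x * (if A t x then 1 else 0) := by
    intro A
    rw [sum_comm]
    refine sum_congr rfl fun x _ => ?_
    rw [← mul_sum, card_filter]
    push_cast
    rfl
  have b2 : ∑ x, Q x * #{t ∈ range T | A2 t x} ≤ 2 * m / 2 ^ s * thk := by
    rw [hswap]
    have h1 : ∀ t ∈ range T, ∑ x, Q x * (if A2 t x then (1 : ℝ) else 0) ≤
        2 * m / 2 ^ s * ∑ x, Q x * (if th t x then 1 else 0) := by
      intro t ht
      have ht' := mem_range.1 ht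
      have h1 := row_pos_le (F := F) (ln := ln) (m := m) hQ h hM hs (th t) (fun x hx => h0 t ht' x hx)
        (hper t ht')
      refine le_trans (le_of_eq (sum_congr rfl fun x _ => ?_)) h1
      by_cases h2 : A2 t x
      · rw [if_pos h2, if_pos ((hA2 t x).1 h2)]
      · rw [if_neg h2, if_neg fun h3 => h2 ((hA2 t x).2 h3)]
    refine (sum_le_sum h1).trans ?_
    rw [← mul_sum, ← hswap]
    exact mul_le_mul_of_nonneg_left hthk (by positivity)
  -- small boxes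
  have b3 : ∑ x, Q x * #{t ∈ range T | A3 t x} ≤ s * ent / log (1 / dl) := by
    rw [le_div_iff₀ hlog]
    have h1 : ∀ x, (#{t ∈ range T | A3 t x} : ℝ) ≤
        #{t ∈ range T | Pr Q (Rt F ln p u γ t) (Rt F ln p u γ t x) <
          dl * Pr Q (Rt F ln p u (γ + s) t) (Rt F ln p u (γ + s) t x)} := fun x => by
      have : {t ∈ range T | A3 t x} ⊆
        {t ∈ range T | Pr Q (Rt F ln p u γ t) (Rt F ln p u γ t x) <
          dl * Pr Q (Rt F ln p u (γ + s) t) (Rt F ln p u (γ + s) t x)} := fun t ht =>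
        mem_filter.2 ⟨(mem_filter.1 ht).1, (hA3 t x).1 (mem_filter.1 ht).2⟩
      exact_mod_cast card_le_card this
    have h2 := sum_le_sum fun x (_ : x ∈ univ) => mul_le_mul_of_nonneg_left (h1 x) (hQ.nonneg x)
    have h3 := small_big_le (F := F) (ln := ln) hQ u γ s T hdl
    have h4 := mul_le_mul_of_nonneg_left hent (Nat.cast_nonneg (α := ℝ) s)
    exact (mul_le_mul_of_nonneg_right h2 hlog.le).trans (h3.trans h4)
  -- time
  have b4 : ∑ x, Q x * #{t ∈ range T | A4 t x} ≤ tn / ps := by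
    have h1 : ∀ x, (#{t ∈ range T | A4 t x} : ℝ) ≤
        #{t ∈ range T | th t x ∧ nearU u g t (F.P.x x.2)} := fun x => by
      have : {t ∈ range T | A4 t x} ⊆ {t ∈ range T | th t x ∧ nearU u g t (F.P.x x.2)} :=
        fun t ht => mem_filter.2 ⟨(mem_filter.1 ht).1, (hA4 t x).1 (mem_filter.1 ht).2⟩
      exact_mod_cast card_le_card this
    have h2 := sum_le_sum fun x (_ : x ∈ univ) => mul_le_mul_of_nonneg_left (h1 x) (hQ.nonneg x)
    have h3 := thick_near_le (F := F) (ln := ln) hQ th γ g T s₀ u hps hka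
    exact h2.trans (h3.trans (div_le_div_of_nonneg_right htn hps.le))
  linarith

open Classical in
/-- sums of functions of the fine box under the two laws -/
lemma sum_same {α β : Type*} [Fintype α] {q Q : α → ℝ} {r : α → β}
    (hsame : ∀ x, Pr q r x = Pr Q r x) {f : α → ℝ} (hf : ∀ x y, r x = r y → f x = f y) :
    ∑ x, q x * f x = ∑ x, Q x * f x := by
  rcases isEmpty_or_nonempty α with hα | ⟨⟨x₀⟩⟩
  · simp
  let g : β → ℝ := fun b => if hb : ∃ x, r x = b then f hb.choose else f x₀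
  have hg : ∀ x, f x = g (r x) := by
    intro x
    have hb : ∃ y, r y = r x := ⟨x, rfl⟩
    simp only [g]
    rw [dif_pos hb]
    exact hf _ _ hb.choose_spec.symm
  have e1 : ∑ x, q x * f x = ∑ x, q x * g (r x) := sum_congr rfl fun x _ => by rw [hg x]
  have e2 : ∑ x, Q x * f x = ∑ x, Q x * g (r x) := sum_congr rfl fun x _ => by rw [hg x]
  rw [e1, e2, sum_fiber q r g, sum_fiber Q r g]
  exact sum_congr rfl fun b _ => by rw [hsame]

open Classical in
/-- **input `hnear`** of the bookkeeping theorem, for any thick set `th` and any cover `C` -/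
theorem near_le {Lab : Type*} {lam : Ω → Lab} {Q q : p.Col × Ω → ℝ} (hQ : IsProb Q)
    (hq : IsProb q) (hsame : ∀ x, Pr q (rb F ln p lam) x = Pr Q (rb F ln p lam) x)
    (h : LPer F p Q) (u : ℝ) {γ s m PB g s₀ : ℕ} (hM : F.Tm ≤ p.M)
    (hs : γ + s ≤ p.Γ) {dl : ℝ} (hdl : 0 < dl) (hdl1 : dl < 1) (Mw : ℕ) (sg : ℤ)
    (th : ℕ → p.Col × Ω → Prop)
    (hthr : ∀ t x y, rb F ln p lam x = rb F ln p lam y → th t x → th t y)
    (h0 : ∀ t < F.P.T + s₀, ∀ x, 0 < Q x → th t x → t < F.T' x.2)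
    (hper : ∀ t < F.P.T + s₀, ∀ (k : p.Kap) (i i' : Fin p.nT) (ω : Ω), t < F.T' ω →
      (i : ℕ) % (3 * 2 ^ (Prm.ex k + γ - t)) = i' % (3 * 2 ^ (Prm.ex k + γ - t)) →
      th t ((k, i), ω) → th t ((k, i'), ω))
    {ps : ℝ} (hps : 0 < ps)
    (hka : ∀ t < F.P.T + s₀, ∀ x, 0 < Q x → th t x →
      Avg.ka (Pf F p u s₀) Q (Rt F ln p u γ) t x ≤ 1 - ps)
    {thk ent tn : ℝ} (hthk : ∑ x, q x * #{t ∈ range (F.P.T + s₀) | th t x} ≤ thk)
    (hent : Hc Q (Rt F ln p u γ (F.P.T + s₀)) (Rt F ln p u (γ + s) 0) ≤ ent)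
    (htn : ncut F ln p Q γ g (F.P.T + s₀) s₀ u ≤ tn)
    -- the covered digits
    (C : ℕ → p.Col × Ω → Prop)
    (hCr : ∀ t x y, rb F ln p lam x = rb F ln p lam y → C t x → C t y)
    (hC : ∀ x, 0 < Q x → ∀ v < F.P.T + s₀, th v x → okv F ln p Q u γ s m PB g dl v x →
      ∀ t < F.P.T + s₀, (v : ℤ) ≤ t + sg → (t : ℤ) + sg ≤ v + Mw → C t x) :
    ∑ x, q x * #(Cov (Pf F p u s₀) th Mw x) ≤
      ∑ x, q x * #{t ∈ range (F.P.T + s₀) | C t x} +
        (Mw + |(sg : ℝ)| + (Mw + 1) *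
          (PB + 2 * m / 2 ^ s * thk + s * ent / log (1 / dl) + tn / ps)) := by
  have e1 : ∑ x, q x * (#{t ∈ range (F.P.T + s₀) | th t x} : ℝ) =
      ∑ x, Q x * (#{t ∈ range (F.P.T + s₀) | th t x} : ℝ) := by
    refine sum_same hsame fun x y hxy => ?_
    have : {t ∈ range (F.P.T + s₀) | th t x} = {t ∈ range (F.P.T + s₀) | th t y} :=
      filter_congr fun t _ => ⟨hthr t x y hxy, hthr t y x hxy.symm⟩
    rw [this]
  have e2 : ∑ x, q x * (#{t ∈ range (F.P.T + s₀) | C t x} : ℝ) =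
      ∑ x, Q x * (#{t ∈ range (F.P.T + s₀) | C t x} : ℝ) := by
    refine sum_same hsame fun x y hxy => ?_
    have : {t ∈ range (F.P.T + s₀) | C t x} = {t ∈ range (F.P.T + s₀) | C t y} :=
      filter_congr fun t _ => ⟨hCr t x y hxy, hCr t y x hxy.symm⟩
    rw [this]
  have e3 : ∑ x, q x * (#(Cov (Pf F p u s₀) th Mw x) : ℝ) =
      ∑ x, Q x * (#(Cov (Pf F p u s₀) th Mw x) : ℝ) := by
    refine sum_same hsame fun x y hxy => ?_
    have : Cov (Pf F p u s₀) th Mw x = Cov (Pf F p u s₀) th Mw y := by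
      unfold Cov
      refine filter_congr fun z _ => ?_
      constructor
      · rintro ⟨v, h1, h2, h3⟩
        exact ⟨v, h1, hthr v x y hxy h2, h3⟩
      · rintro ⟨v, h1, h2, h3⟩
        exact ⟨v, h1, hthr v y x hxy.symm h2, h3⟩
    rw [this]
  rw [e1] at hthk
  rw [e2, e3]
  have hbd := not_ok_le (m := m) (PB := PB) hQ h hM u hs hdl hdl1 th h0 hper hps hka hthk hent htn
  exact cov_avg (Pf F p u s₀) hQ Mw sg th (fun v x => okv F ln p Q u γ s m PB g dl v x) C hC hbd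

end Vale.Agent.P065.H279
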