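import Vale.Agent.P065.H819.Thick
import Vale.Agent.P065.H279.Near

/-!
# P065, input `near` of the bookkeeping theorem for the thick boxes `Th` (helper279)

* `Th_per` : thickness depends on the offset modulo the unit of the small row only.
* `near_Th` : the input `hnear` for `Th`.
* `okv_height`, `good_of_Th` : if a thick scale is `okv` for a flag then the not late part of its
  big box is thick in the interior of the big row.
-/

set_option autoImplicit false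

open Finset Real

noncomputable section

namespace Vale.Agent.P065.H279

open Vale.Agent.P065.UB Vale.Agent.P065.Ent Vale.Agent.P065.H268 Vale.Agent.P065.H154
  Vale.Agent.P065.H819

variable {Ω : Type*} [Fintype Ω] {F : Fr Ω} {ln : Ω → Pt} {p : Prm}

/-- the mass of one half as a share of flag events -/
lemma PE_Hb (u : ℝ) (γ PB t : ℕ) (m : p.Col × Ω → ℝ) (x : p.Col × Ω) (b : Bool) :
    PE m (Hb F ln p u γ PB t x b) = bm F ln p m u γ t
      (fun ω => F.D u (t + 1) ω = 2 * F.D u t ω + (if b then 1 else 0) ∧ t + PB ≤ F.T' ω) x := by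
  classical
  rw [PE_def]
  unfold bm
  refine sum_congr rfl fun y _ => ?_
  by_cases h : Hb F ln p u γ PB t x b y
  · rw [if_pos h, if_pos ⟨h.1, h.2⟩]
  · rw [if_neg h, if_neg fun h' => h ⟨h'.1, h'.2⟩]

/-- **thickness is periodic in the offset** -/
theorem Th_per {m : p.Col × Ω → ℝ} (h : LPer F p m) (hM : F.Tm ≤ p.M) (u : ℝ) {γ PB t : ℕ}
    {ps : ℝ} (k : p.Kap) {i i' : Fin p.nT} {ω : Ω} (ht : t < F.T' ω)
    (hi : (i : ℕ) % (3 * 2 ^ (Prm.ex k + γ - t)) = i' % (3 * 2 ^ (Prm.ex k + γ - t)))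
    (hth : Th F ln p u γ PB m ps t ((k, i), ω)) : Th F ln p u γ PB m ps t ((k, i'), ω) := by
  intro b
  have h1 := hth b
  rw [PE_Hb, ← bm_true] at h1 ⊢
  rwa [bm_per h hM u _ k ht hi, bm_per h hM u _ k ht hi] at h1

open Classical in
/-- **input `hnear`** of the bookkeeping theorem for the thick boxes `Th` -/
theorem near_Th [Nonempty Ω] {Lab : Type*} {lam : Ω → Lab} {Q q : p.Col × Ω → ℝ}
    (hQ : IsProb Q) (hq : IsProb q)
    (hsame : ∀ x, Pr q (rb F ln p lam) x = Pr Q (rb F ln p lam) x)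
    (h : LPer F p Q) (u : ℝ) {γ s m PB g s₀ : ℕ} (hM : F.Tm ≤ p.M)
    (hs : γ + s ≤ p.Γ) {dl : ℝ} (hdl : 0 < dl) (hdl1 : dl < 1) (Mw : ℕ) (sg : ℤ)
    {ps : ℝ} (hps : 0 < ps) {thk ent tn : ℝ}
    (hthk : ∑ x, q x * #{t ∈ range (F.P.T + s₀) | Th F ln p u γ PB q ps t x} ≤ thk)
    (hent : Hc Q (Rt F ln p u γ (F.P.T + s₀)) (Rt F ln p u (γ + s) 0) ≤ ent)
    (htn : ncut F ln p Q γ g (F.P.T + s₀) s₀ u ≤ tn)
    -- the covered digits
    (C : ℕ → p.Col × Ω → Prop)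
    (hCr : ∀ t x y, rb F ln p lam x = rb F ln p lam y → C t x → C t y)
    (hC : ∀ x, 0 < Q x → ∀ v < F.P.T + s₀, Th F ln p u γ PB Q ps v x →
      okv F ln p Q u γ s m PB g dl v x →
      ∀ t < F.P.T + s₀, (v : ℤ) ≤ t + sg → (t : ℤ) + sg ≤ v + Mw → C t x) :
    ∑ x, q x * #(Cov (Pf F p u s₀) (fun t x => Th F ln p u γ PB q ps t x) Mw x) ≤
      ∑ x, q x * #{t ∈ range (F.P.T + s₀) | C t x} +
        (Mw + |(sg : ℝ)| + (Mw + 1) *
          (PB + 2 * m / 2 ^ s * thk + s * ent / log (1 / dl) + tn / ps)) := by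
  have key : ∀ t x, Th F ln p u γ PB q ps t x ↔ Th F ln p u γ PB Q ps t x :=
    fun t x => Th_same hsame t x
  refine near_le (m := m) (PB := PB) hQ hq hsame h u hM hs hdl hdl1 Mw sg
    (fun t x => Th F ln p u γ PB q ps t x) ?_ ?_ ?_ hps ?_ hthk hent htn C hCr ?_
  · intro t x y hxy hth
    exact Th_congr t x y (rb_Rt u γ t x y hxy) hth
  · intro t _ x hx hth
    exact Th_lt hQ hps t x hx ((key t x).1 hth)
  · intro t _ k i i' ω ht hi hth
    exact (key _ _).2 (Th_per h hM u k ht hi ((key _ _).1 hth))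
  · intro t _ x hx hth
    exact Th_ka hQ t x hx ((key t x).1 hth)
  · intro x hx v hv hth hok
    exact hC x hx v hv ((key v x).1 hth) hok

/-! ### Good boxes -/

omit [Fintype Ω] in
/-- heights of the flags of a small row which is in the interior of its big row -/
theorem height_of_row {γ s m v : ℕ} {c : p.Col} {ω : Ω} (hv : v ≤ F.T' ω + γ)
    (h1 : (m : ℤ) ≤ Nf F ln p γ v c ω % 2 ^ s) (h2 : Nf F ln p γ v c ω % 2 ^ s + m < 2 ^ s) :
    (Nf F ln p (γ + s) v c ω : ℝ) * 2 ^ (γ + s) + m * 2 ^ γ ≤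
        2 ^ v * Prm.h c (F.P.x ω) (ln ω) ∧
      2 ^ v * Prm.h c (F.P.x ω) (ln ω) <
        (Nf F ln p (γ + s) v c ω + 1 : ℝ) * 2 ^ (γ + s) - m * 2 ^ γ := by
  set y := (2 : ℝ) ^ v * Prm.h c (F.P.x ω) (ln ω) with hy
  have e1 : Nf F ln p γ v c ω = ⌊y / 2 ^ γ⌋ := by
    unfold Nf Prm.N
    rw [min_eq_left hv]
  have e2 : Nf F ln p (γ + s) v c ω = ⌊y / 2 ^ γ⌋ / 2 ^ s := by
    unfold Nf Prm.N
    rw [min_eq_left (by omega), ← hy, pow_add, ← div_div]
    have := Int.floor_div_natCast (y / 2 ^ γ) (2 ^ s)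
    push_cast at this
    exact this
  rw [e1] at h1 h2
  rw [e2]
  set n := ⌊y / 2 ^ γ⌋ with hn
  have hg : (0 : ℝ) < 2 ^ γ := by positivity
  have f1 := Int.floor_le (y / 2 ^ γ)
  have f2 := Int.lt_floor_add_one (y / 2 ^ γ)
  rw [← hn] at f1 f2
  rw [le_div_iff₀ hg] at f1
  rw [div_lt_iff₀ hg] at f2
  have e3 := Int.emod_add_mul_ediv n (2 ^ s)
  have h1' : (n / 2 ^ s) * 2 ^ s + m ≤ n := by linarith
  have h2' : n + 1 + m ≤ (n / 2 ^ s + 1) * 2 ^ s := by linarith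
  have g1 : (((n / 2 ^ s : ℤ) : ℝ)) * 2 ^ s + m ≤ n := by exact_mod_cast h1'
  have g2 : (n : ℝ) + 1 + m ≤ (((n / 2 ^ s : ℤ) : ℝ) + 1) * 2 ^ s := by exact_mod_cast h2'
  rw [pow_add]
  constructor
  · nlinarith
  · nlinarith

/-- the not late flags of the big box of `x`, in the half `b` of the time cell, in the interior of
the big row -/
def Hi (F : Fr Ω) (ln : Ω → Pt) (p : Prm) (u : ℝ) (γ s m PB v : ℕ) (x : p.Col × Ω) (b : Bool)
    (y : p.Col × Ω) : Prop :=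
  Rt F ln p u (γ + s) v y = Rt F ln p u (γ + s) v x ∧
    F.D u (v + 1) y.2 = 2 * F.D u v y.2 + (if b then 1 else 0) ∧ v + PB ≤ F.T' y.2 ∧
    (Nf F ln p (γ + s) v y.1 y.2 : ℝ) * 2 ^ (γ + s) + m * 2 ^ γ ≤
      2 ^ v * Prm.h y.1 (F.P.x y.2) (ln y.2) ∧
    2 ^ v * Prm.h y.1 (F.P.x y.2) (ln y.2) <
      (Nf F ln p (γ + s) v y.1 y.2 + 1 : ℝ) * 2 ^ (γ + s) - m * 2 ^ γ

/-- the own height of the flag -/
theorem okv_height {Q : p.Col × Ω → ℝ} {u : ℝ} {γ s m PB g v : ℕ} {dl : ℝ} {x : p.Col × Ω}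
    (hok : okv F ln p Q u γ s m PB g dl v x) :
    (Nf F ln p (γ + s) v x.1 x.2 : ℝ) * 2 ^ (γ + s) + m * 2 ^ γ ≤
        2 ^ v * Prm.h x.1 (F.P.x x.2) (ln x.2) ∧
      2 ^ v * Prm.h x.1 (F.P.x x.2) (ln x.2) <
        (Nf F ln p (γ + s) v x.1 x.2 + 1 : ℝ) * 2 ^ (γ + s) - m * 2 ^ γ := by
  obtain ⟨h1, ⟨h2, h3⟩, -, -⟩ := hok
  exact height_of_row (by omega) h2 h3

/-- **a thick box which is `okv` gives a good big box** -/
theorem good_of_Th {Q : p.Col × Ω → ℝ} (hQ : IsProb Q) {u : ℝ} {γ s m PB g v : ℕ} {ps dl : ℝ}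
    (hps : 0 ≤ ps) {x : p.Col × Ω} (hth : Th F ln p u γ PB Q ps v x)
    (hok : okv F ln p Q u γ s m PB g dl v x) (b : Bool) :
    ps * dl * PE Q (fun y => Rt F ln p u (γ + s) v y = Rt F ln p u (γ + s) v x ∧
      v + PB ≤ F.T' y.2) ≤ PE Q (Hi F ln p u γ s m PB v x b) := by
  obtain ⟨h1, ⟨h2, h3⟩, h4, -⟩ := hok
  have a1 : PE Q (fun y => Rt F ln p u (γ + s) v y = Rt F ln p u (γ + s) v x ∧
      v + PB ≤ F.T' y.2) ≤ Pr Q (Rt F ln p u (γ + s) v) (Rt F ln p u (γ + s) v x) := by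
    classical
    rw [PE_def]
    unfold Pr
    refine sum_le_sum fun y _ => ?_
    by_cases h : Rt F ln p u (γ + s) v y = Rt F ln p u (γ + s) v x
    · rw [if_pos h]
      split_ifs
      · exact le_rfl
      · exact hQ.nonneg y
    · rw [if_neg h, if_neg fun h' => h h'.1]
  have a2 := hth b
  have a3 : PE Q (Hb F ln p u γ PB v x b) ≤ PE Q (Hi F ln p u γ s m PB v x b) := by
    refine PE_mono hQ ?_
    rintro ⟨c', ω'⟩ ⟨b1, b2, b3⟩
    have e1 := Rt_guard u (Nat.le_add_right γ s) v _ _ b1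
    refine ⟨e1, b2, b3, ?_⟩
    have e2 : Nf F ln p γ v c' ω' = Nf F ln p γ v x.1 x.2 := by
      unfold Rt at b1
      simp only [Prod.mk.injEq] at b1
      exact b1.2.2.2
    exact height_of_row (by omega) (by rw [e2]; exact h2) (by rw [e2]; exact h3)
  have a4 : ps * dl * PE Q (fun y => Rt F ln p u (γ + s) v y = Rt F ln p u (γ + s) v x ∧
      v + PB ≤ F.T' y.2) ≤ ps * Pr Q (Rt F ln p u γ v) (Rt F ln p u γ v x) := by
    rw [mul_assoc]
    refine mul_le_mul_of_nonneg_left ?_ hps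
    rcases le_total 0 dl with hd | hd
    · exact (mul_le_mul_of_nonneg_left a1 hd).trans h4
    · have := PE_nonneg hQ (fun y => Rt F ln p u (γ + s) v y = Rt F ln p u (γ + s) v x ∧
        v + PB ≤ F.T' y.2)
      have h5 := Pr_nonneg hQ (Rt F ln p u γ v) (Rt F ln p u γ v x)
      nlinarith
  linarith

end Vale.Agent.P065.H279
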