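import Vale.Agent.P065.H806.SysFacts
import Vale.Agent.P065.H860.Mend
import Vale.Agent.P065.H279.NearTh

/-!
# P065, input `near` of the bookkeeping theorem, quantified form over `Sys` (helper279)
-/

set_option autoImplicit false

open Finset Real

noncomputable section

namespace Vale.Agent.P065.H279

open Vale.Agent.P065.UB Vale.Agent.P065.Ent Vale.Agent.P065.H268 Vale.Agent.P065.H154
  Vale.Agent.P065.H806 Vale.Agent.P065.H819

section facts

variable {B₀ K₁ PP Γ σ Λ kN : ℕ} {c₂ ρ ε₂ e : ℝ} {n g : ℕ}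
  (S : Sys B₀ K₁ PP Γ σ Λ kN c₂ ρ ε₂ e n g)

/-- entropy of the bottom pieces -/
lemma log_leaves_le (hB : 1 ≤ B₀) :
    log (#(univ.image (S.F.P.W S.F.n))) ≤ 2 * log B₀ * g := by
  have h1 : (0 : ℝ) < #(univ.image (S.F.P.W S.F.n)) := by
    exact_mod_cast card_pos.2 (univ_nonempty.image _)
  have h2 : (#(univ.image (S.F.P.W S.F.n)) : ℝ) ≤ (B₀ : ℝ) ^ (2 * g) := by
    exact_mod_cast S.leaves
  refine (log_le_log h1 h2).trans (le_of_eq ?_)
  rw [log_pow]
  push_cast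
  ring

/-- entropy of the fine boxes, given the column and the bottom piece -/
lemma Hc_rb_W (hg : 1 ≤ g) : Hc S.Q (rb S.F S.ln S.p S.lam)
    (fun a => (S.F.P.W S.F.n a.2, a.1)) ≤ 2 * e * g := by
  have h := H860.mend_box S.F S.ln S.p S.lam S.hμ S.hν (S.probQ hg) (a := exp (-(e * g)))
    (b := exp (-(e * g))) (exp_pos _) (exp_pos _) (fun c ω h => S.Q_pos' h)
    (fun c ω h => S.ν_pos (S.Q_pos' h)) (fun c ω h => S.big (c, ω) h)
    (fun c ω h => S.lab ω (S.Q_pos' h))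
  refine h.trans (le_of_eq ?_)
  rw [one_div, log_inv, log_exp]
  ring

/-- entropy of the fine boxes, given the column -/
lemma Hc_rb_le (hB : 1 ≤ B₀) (hg : 1 ≤ g) : Hc S.Q (rb S.F S.ln S.p S.lam) (fun a => a.1) ≤
    (2 * e + 2 * log B₀) * g := by
  have hQ := S.probQ hg
  have h1 := Hc_le_add hQ (rb S.F S.ln S.p S.lam) (fun a => S.F.P.W S.F.n a.2) (fun a => a.1)
  have h2 := Hc_rb_W S hg
  have h3 : Hc S.Q (fun a => S.F.P.W S.F.n a.2) (fun a => a.1) ≤
      log (#(univ.image (S.F.P.W S.F.n))) :=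
    (Hc_le_H hQ _ _).trans (H_le_log hQ (fun a : S.p.Col × S.Ω => S.F.P.W S.F.n a.2)
      (univ.image (S.F.P.W S.F.n)) (fun a => mem_image_of_mem _ (mem_univ _))
      (card_pos.2 (univ_nonempty.image _)))
  have h4 := log_leaves_le S hB
  linarith

/-- entropy of the last boxes, given the time and the column -/
lemma mend_S (hg : 1 ≤ g) (u : ℝ) (γ : ℕ) :
    Hc S.Q (Rt S.F S.ln S.p u γ (S.F.P.T + σ)) (fun a => (S.F.D u (S.F.P.T + σ) a.2, a.1)) ≤
      2 * e * g := by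
  have h := mend_le S.F S.ln S.p S.lam (S.probQ hg) S.hμ S.hν (fun a h => S.Q_pos' h)
    (fun a h => S.ν_pos (S.Q_pos' h)) S.big (fun a h => S.lab a.2 (S.Q_pos' h)) u σ γ
  refine h.trans (le_of_eq ?_)
  ring

open Classical in
/-- the number of thick scales -/
lemma thk_S (hB : 1 ≤ B₀) (hg : 1 ≤ g) (u : ℝ) (γ PB : ℕ) {ps : ℝ} (hps : 0 < ps) :
    ∑ x, S.q x * #{t ∈ range (S.F.P.T + σ) | Th S.F S.ln S.p u γ PB S.q ps t x} ≤
      (2 * e + 2 * log B₀) * g / ps := by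
  have hQ := S.probQ hg
  have e1 : ∑ x, S.q x * (#{t ∈ range (S.F.P.T + σ) | Th S.F S.ln S.p u γ PB S.q ps t x} : ℝ) =
      ∑ x, S.Q x * (#{t ∈ range (S.F.P.T + σ) | Th S.F S.ln S.p u γ PB S.Q ps t x} : ℝ) := by
    have e2 : ∀ x, ({t ∈ range (S.F.P.T + σ) | Th S.F S.ln S.p u γ PB S.q ps t x}) =
        {t ∈ range (S.F.P.T + σ) | Th S.F S.ln S.p u γ PB S.Q ps t x} := fun x =>
      filter_congr fun t _ => Th_same S.same t x
    rw [sum_congr rfl fun x _ => by rw [e2 x]]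
    refine sum_same S.same fun x y hxy => ?_
    have : {t ∈ range (S.F.P.T + σ) | Th S.F S.ln S.p u γ PB S.Q ps t x} =
        {t ∈ range (S.F.P.T + σ) | Th S.F S.ln S.p u γ PB S.Q ps t y} :=
      filter_congr fun t _ => ⟨Th_congr t x y (rb_Rt u γ t x y hxy),
        Th_congr t y x (rb_Rt u γ t x y hxy).symm⟩
    rw [this]
  rw [e1]
  have h1 := thkF u σ γ hQ hps (fun t a => Th S.F S.ln S.p u γ PB S.Q ps t a)
    (fun t a _ ha hth => Th_ka hQ t a ha hth) (mend_S S hg u γ)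
  refine h1.trans (div_le_div_of_nonneg_right ?_ hps.le)
  have h2 := log_leaves_le S hB
  linarith

lemma ent_S (hB : 1 ≤ B₀) (hg : 1 ≤ g) (u : ℝ) (γ s : ℕ) :
    Hc S.Q (Rt S.F S.ln S.p u γ (S.F.P.T + σ)) (Rt S.F S.ln S.p u (γ + s) 0) ≤
      (2 * e + 2 * log B₀) * g := by
  have hQ := S.probQ hg
  have h1 := Hc_anti hQ (Rt S.F S.ln S.p u γ (S.F.P.T + σ))
    (Rt_col (F := S.F) (ln := S.ln) (p := S.p) u (γ + s) 0)
  have h2 := Hc_mono_left (Y := fun a : S.p.Col × S.Ω => a.1) hQ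
    (rb_Rt (F := S.F) (ln := S.ln) (p := S.p) (lam := S.lam) u γ (S.F.P.T + σ))
  exact h1.trans (h2.trans (Hc_rb_le S hB hg))

end facts

/-- geometric decay -/
lemma exists_pow_small (c : ℝ) {d : ℝ} (hd : 0 < d) :
    ∃ s₀ : ℕ, ∀ s ≥ s₀, c * (s + 2) / 2 ^ s ≤ d := by
  have h1 : Filter.Tendsto (fun s : ℕ => c * ((s : ℝ) + 2) / 2 ^ s) Filter.atTop (nhds 0) := by
    have h2 := tendsto_pow_const_div_const_pow_of_one_lt 1 (show (1 : ℝ) < 2 by norm_num)
    have h3 := tendsto_pow_const_div_const_pow_of_one_lt 0 (show (1 : ℝ) < 2 by norm_num)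
    have h4 := (h2.const_mul c).add (h3.const_mul (2 * c))
    rw [mul_zero, mul_zero, add_zero] at h4
    refine h4.congr fun s => ?_
    rw [pow_one, pow_zero]
    ring
  have h2 := (h1.eventually (gt_mem_nhds hd))
  obtain ⟨s₀, h3⟩ := Filter.eventually_atTop.1 h2
  exact ⟨s₀, fun s hs => (h3 s hs).le⟩

open Classical in
/-- **input `hnear`, quantified**: `s` is the difference of the guards of big and small boxes, `m`
the number of small rows at each end of the big row which are not used, `dl` the smallest share of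
the small box in the big box, `gn` the margin at the midpoint of the time cells -/
theorem near_sys (B₀ K₁ γ Mw m : ℕ) (c₂ ρ ε₂ e δ ps : ℝ) (hB : 2 ≤ B₀) (he : 0 < e) (hδ : 0 < δ)
    (hps : 0 < ps) :
    ∃ s₀ gn₀ : ℕ, ∀ s ≥ s₀, ∃ dl₀ : ℝ, 0 < dl₀ ∧ dl₀ < 1 ∧ ∀ dl : ℝ, 0 < dl → dl ≤ dl₀ →
    ∀ gn ≥ gn₀, ∀ (PB : ℕ) (sg : ℤ) (PP Γ σ Λ kN : ℕ), γ + s ≤ Γ → ∃ g₁ : ℕ, ∀ n g : ℕ, g₁ ≤ g →
    ∀ S : Sys B₀ K₁ PP Γ σ Λ kN c₂ ρ ε₂ e n g,
    ∃ Fn : ℝ → ℝ, (∀ u, 0 ≤ Fn u) ∧ AvLe Fn (δ * g) ∧ ∀ u, ∀ C : ℕ → S.p.Col × S.Ω → Prop,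
      (∀ t x y, rb S.F S.ln S.p S.lam x = rb S.F S.ln S.p S.lam y → C t x → C t y) →
      (∀ x, 0 < S.Q x → ∀ v < S.F.P.T + σ, Th S.F S.ln S.p u γ PB S.Q ps v x →
        okv S.F S.ln S.p S.Q u γ s m PB gn dl v x → ∀ t < S.F.P.T + σ,
        (v : ℤ) ≤ t + sg → (t : ℤ) + sg ≤ v + Mw → C t x) →
      ∑ x, S.q x * #(Cov (Pf S.F S.p u σ) (fun t x => Th S.F S.ln S.p u γ PB S.q ps t x) Mw x) ≤
        ∑ x, S.q x * #{t ∈ range (S.F.P.T + σ) | C t x} + δ * g + Fn u := by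
  have hB1 : 1 ≤ B₀ := by omega
  have hlB : 0 ≤ log (B₀ : ℝ) := log_nonneg (by exact_mod_cast hB1)
  set cst : ℝ := 2 * e + 2 * log B₀ with hcst
  have hcst0 : 0 < cst := by rw [hcst]; linarith
  have hM0 : (0 : ℝ) < Mw + 1 := by positivity
  -- the choice of `s`
  obtain ⟨s₀, hs₀⟩ := exists_pow_small ((Mw + 1) * (2 * m) * (cst / ps)) (d := δ / 4)
    (by positivity)
  -- the choice of `gn`
  obtain ⟨gn₀, hgn₀⟩ := exists_pow_small ((Mw + 1) / ps * 2 * cst) (d := δ / 2) (by positivity)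
  refine ⟨s₀, max gn₀ 2, fun s hs => ?_⟩
  -- the choice of `dl`
  set A : ℝ := 4 * (Mw + 1) * s * cst / δ with hA
  have hA0 : 0 ≤ A := by positivity
  refine ⟨exp (-(A + 1)), exp_pos _, by rw [exp_lt_one_iff]; linarith, ?_⟩
  intro dl hdl hdl0 gn hgn PB sg PP Γ σ Λ kN hΓ
  have hdl1 : dl < 1 := hdl0.trans_lt (by rw [exp_lt_one_iff]; linarith)
  have hlog : A + 1 ≤ log (1 / dl) := by
    rw [one_div, log_inv]
    have := log_le_log hdl hdl0
    rw [log_exp] at this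
    linarith
  obtain ⟨g₁, hg₁⟩ := exists_nat_ge ((Mw + |(sg : ℝ)| + (Mw + 1) * PB) / (δ / 2))
  refine ⟨max g₁ 1, fun n g hg S => ?_⟩
  have hg1 : 1 ≤ g := (le_max_right _ _).trans hg
  have hg' : (1 : ℝ) ≤ g := by exact_mod_cast hg1
  have hQ := S.probQ hg1
  have hq := S.probq hg1
  have hgn2 : 2 ≤ gn := (le_max_right _ _).trans hgn
  refine ⟨fun u => (Mw + 1) / ps * ncut S.F S.ln S.p S.Q γ gn (S.F.P.T + σ) σ u, fun u => ?_,
    ?_, fun u C hCr hC => ?_⟩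
  · exact mul_nonneg (by positivity) (ncut_nonneg hQ _ _ _ _ _)
  · have hε : 0 < δ * g * ps / (2 * (Mw + 1)) := by positivity
    have h1 := (avLe_ncut (F := S.F) (ln := S.ln) hQ S.lam γ hgn2 (S.F.P.T + σ) σ hε).const_mul
      (c := (Mw + 1) / ps) (by positivity)
    refine h1.mono (fun u => le_rfl) ?_
    have h2 := Hc_rb_le S hB1 hg1
    rw [← hcst] at h2
    have h3 := hgn₀ gn ((le_max_left _ _).trans hgn)
    have h4 : (Mw + 1) / ps * (δ * g * ps / (2 * (Mw + 1))) = δ / 2 * g := by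
      field_simp
    have h5 : (Mw + 1) / ps * (2 / 2 ^ gn * (gn + 2) *
        Hc S.Q (rb S.F S.ln S.p S.lam) (fun a : S.p.Col × S.Ω => a.1)) ≤ δ / 2 * g := by
      calc (Mw + 1) / ps * (2 / 2 ^ gn * (gn + 2) *
            Hc S.Q (rb S.F S.ln S.p S.lam) (fun a : S.p.Col × S.Ω => a.1))
          ≤ (Mw + 1) / ps * (2 / 2 ^ gn * (gn + 2) * (cst * g)) := by
            refine mul_le_mul_of_nonneg_left ?_ (by positivity)
            exact mul_le_mul_of_nonneg_left h2 (by positivity)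
        _ = ((Mw + 1) / ps * 2 * cst * (gn + 2) / 2 ^ gn) * g := by ring
        _ ≤ δ / 2 * g := mul_le_mul_of_nonneg_right h3 (by positivity)
    rw [mul_add, h4]
    linarith
  · have h1 := near_Th (m := m) (PB := PB) (g := gn) (s₀ := σ) hQ hq S.same S.perQ u S.Tm_le_M
      (hΓ.trans S.Γ_le) hdl hdl1 Mw sg hps (thk_S S hB1 hg1 u γ PB hps) (ent_S S hB1 hg1 u γ s)
      le_rfl C hCr hC
    refine h1.trans ?_
    rw [← hcst]
    have k1 : (Mw + 1) * (2 * m / 2 ^ s * (cst * g / ps)) ≤ δ / 4 * g := by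
      have h3 := hs₀ s hs
      have h4 : (Mw + 1) * (2 * m) * (cst / ps) * 1 / 2 ^ s ≤
          (Mw + 1) * (2 * m) * (cst / ps) * (s + 2) / 2 ^ s := by
        refine div_le_div_of_nonneg_right ?_ (by positivity)
        refine mul_le_mul_of_nonneg_left ?_ (by positivity)
        have : (0 : ℝ) ≤ s := Nat.cast_nonneg s
        linarith
      calc (Mw + 1) * (2 * m / 2 ^ s * (cst * g / ps))
          = ((Mw + 1) * (2 * m) * (cst / ps) * 1 / 2 ^ s) * g := by ring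
        _ ≤ δ / 4 * g := mul_le_mul_of_nonneg_right (h4.trans h3) (by positivity)
    have k2 : (Mw + 1) * (s * (cst * g) / log (1 / dl)) ≤ δ / 4 * g := by
      have hl : 0 < log (1 / dl) := by linarith
      have h3 : (Mw + 1) * s * cst ≤ δ / 4 * log (1 / dl) := by
        have h4 : (Mw + 1) * s * cst = δ / 4 * A := by
          rw [hA]
          field_simp
        rw [h4]
        refine mul_le_mul_of_nonneg_left ?_ (by positivity)
        linarith
      rw [mul_div_assoc', div_le_iff₀ hl]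
      calc (Mw + 1) * (s * (cst * g)) = ((Mw + 1) * s * cst) * g := by ring
        _ ≤ (δ / 4 * log (1 / dl)) * g := mul_le_mul_of_nonneg_right h3 (by positivity)
        _ = δ / 4 * g * log (1 / dl) := by ring
    have k3 : (Mw : ℝ) + |(sg : ℝ)| + (Mw + 1) * PB ≤ δ / 2 * g := by
      have h3 : (g₁ : ℝ) ≤ g := by exact_mod_cast (le_max_left _ _).trans hg
      have h4 := hg₁.trans h3
      rw [div_le_iff₀ (by positivity)] at h4
      linarith
    have k4 : (Mw + 1) * (ncut S.F S.ln S.p S.Q γ gn (S.F.P.T + σ) σ u / ps) =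
        (Mw + 1) / ps * ncut S.F S.ln S.p S.Q γ gn (S.F.P.T + σ) σ u := by ring
    have k5 : (Mw : ℝ) + |(sg : ℝ)| + (Mw + 1) * (PB + 2 * m / 2 ^ s * (cst * g / ps) +
        s * (cst * g) / log (1 / dl) + ncut S.F S.ln S.p S.Q γ gn (S.F.P.T + σ) σ u / ps) =
        (Mw + |(sg : ℝ)| + (Mw + 1) * PB) + (Mw + 1) * (2 * m / 2 ^ s * (cst * g / ps)) +
        (Mw + 1) * (s * (cst * g) / log (1 / dl)) +
        (Mw + 1) * (ncut S.F S.ln S.p S.Q γ gn (S.F.P.T + σ) σ u / ps) := by ring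
    rw [k5, k4]
    linarith

end Vale.Agent.P065.H279
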