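import Vale.Agent.P065.H279.CovT
import Vale.Agent.P065.H819.RowFr1

/-!
# P065: the covered digits in the names of the package ROWS (helper279)

The box `Bxa` is the box `BF` of helper819, a good box `goodv` is good in the sense of the package
ROWS, the row of a covered digit is an interior row.
-/

set_option autoImplicit false

open Finset Real

noncomputable section

namespace Vale.Agent.P065.H279

open Vale.Agent.P065.UB Vale.Agent.P065.Ent Vale.Agent.P065.H268 Vale.Agent.P065.H154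
  Vale.Agent.P065.H806 Vale.Agent.P065.H819

variable {Ω : Type*} {F : Fr Ω} {ln : Ω → Pt} {p : Prm}

/-- the box of a flag: slope cell, time cell, row -/
def own (F : Fr Ω) (ln : Ω → Pt) (p : Prm) (u : ℝ) (a v : ℕ) (x : p.Col × Ω) : ℤ × ℤ × ℤ :=
  (Prm.S x.1.1 (ln x.2), F.D u v x.2, Nf F ln p a v x.1 x.2)

lemma Nf_alive {a v : ℕ} {c : p.Col} {ω : Ω} (h : v ≤ F.T' ω) :
    Nf F ln p a v c ω = Prm.N a v c (F.P.x ω) (ln ω) := by
  unfold Nf
  rw [min_eq_left (by omega)]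

lemma Bxa_iff {u : ℝ} {a PB v : ℕ} {x y : p.Col × Ω} :
    Bxa F ln p u a PB v x y ↔ y.1 = x.1 ∧ BF F ln p u PB a v x.1 (own F ln p u a v x) y.2 := by
  obtain ⟨c, ω⟩ := x
  obtain ⟨c', ω'⟩ := y
  unfold Bxa own Rt
  rw [BF_iff]
  simp only [Prod.mk.injEq]
  constructor
  · rintro ⟨⟨rfl, h2, h3, h4⟩, h5⟩
    refine ⟨rfl, ⟨h2, h5⟩, h3, ?_⟩
    rw [← h4, Nf_alive (by omega)]
  · rintro ⟨rfl, ⟨h2, h5⟩, h3, h4⟩
    refine ⟨⟨rfl, h2, h3, ?_⟩, h5⟩
    rw [← h4, Nf_alive (by omega)]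

/-- the height in units `2 ^ (-v)` -/
lemma yy_eq (u : ℝ) (v : ℕ) (c : p.Col) (ω : Ω) :
    yy (Tv (xs F u) v) (fF ln p c) (cv (xs F u) (htF F ln p c) (fF ln p c) v) ω =
      2 ^ v * Prm.h c (F.P.x ω) (ln ω) := by
  unfold yy cv htF
  ring

lemma inh_D {u : ℝ} {v : ℕ} {d : ℤ} {b : Bool} {ω : Ω} (h : F.D u v ω = d) :
    inh (Tv (xs F u) v) d b ω ↔ F.D u (v + 1) ω = 2 * F.D u v ω + (if b then 1 else 0) := by
  unfold inh
  rw [D_add, h]
  unfold dg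
  rw [pow_one]

/-- interior positions -/
lemma inn_of_Inr {u : ℝ} {a W lm v : ℕ} (hW : 4 * 2 ^ lm ≤ W) (hla : lm ≤ a) {y : p.Col × Ω}
    (h : Inr F ln p a W v y) :
    inn (Tv (xs F u) v) (fF ln p y.1) (cv (xs F u) (htF F ln p y.1) (fF ln p y.1) v) a lm
      (Nf F ln p a v y.1 y.2) y.2 := by
  obtain ⟨h1, h2⟩ := h
  unfold inn
  rw [yy_eq]
  set N := Nf F ln p a v y.1 y.2
  set z := (2 : ℝ) ^ v * Prm.h y.1 (F.P.x y.2) (ln y.2)
  have hW' : (4 : ℝ) * 2 ^ lm ≤ W := by exact_mod_cast hW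
  have hl : (0 : ℝ) < 2 ^ lm := by positivity
  have e1 : (2 : ℝ) ^ (a - lm) * 2 ^ lm = 2 ^ a := by rw [← pow_add]; congr 1; omega
  constructor
  · apply Int.le_floor.2
    rw [le_div_iff₀ hl]
    push_cast
    have : ((N : ℝ) * 2 ^ (a - lm) + 4) * 2 ^ lm = N * 2 ^ a + 4 * 2 ^ lm := by
      rw [← e1]; ring
    rw [this]
    linarith
  · apply Int.floor_lt.2
    rw [div_lt_iff₀ hl]
    push_cast
    have : (((N : ℝ) + 1) * 2 ^ (a - lm) - 4) * 2 ^ lm = (N + 1) * 2 ^ a - 4 * 2 ^ lm := by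
      rw [← e1]; ring
    rw [this]
    linarith

/-- the row of the digit is interior -/
lemma Nf_mem_In {a W lm v t γ : ℕ} (hW : 4 * 2 ^ lm ≤ W) (hla : lm + 1 ≤ a)
    (hv : v + γ = t + 1 + lm) {y : p.Col × Ω} (hT : v ≤ F.T' y.2) (h : Inr F ln p a W v y) :
    Nf F ln p γ t y.1 y.2 ∈ In a lm (Nf F ln p a v y.1 y.2) := by
  obtain ⟨h1, h2⟩ := h
  have e0 : Nf F ln p γ t y.1 y.2 = ⌊2 ^ v * Prm.h y.1 (F.P.x y.2) (ln y.2) / 2 ^ (lm + 1)⌋ := by
    unfold Nf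
    rw [min_eq_left (by omega)]
    unfold Prm.N
    congr 1
    rw [div_eq_div_iff (by positivity) (by positivity)]
    have : (2 : ℝ) ^ t * 2 ^ (lm + 1) = 2 ^ v * 2 ^ γ := by
      rw [← pow_add, ← pow_add]; congr 1; omega
    calc (2 : ℝ) ^ t * Prm.h y.1 (F.P.x y.2) (ln y.2) * 2 ^ (lm + 1)
        = (2 ^ t * 2 ^ (lm + 1)) * Prm.h y.1 (F.P.x y.2) (ln y.2) := by ring
      _ = 2 ^ v * Prm.h y.1 (F.P.x y.2) (ln y.2) * 2 ^ γ := by rw [this]; ring
  rw [e0]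
  set N := Nf F ln p a v y.1 y.2
  set z := (2 : ℝ) ^ v * Prm.h y.1 (F.P.x y.2) (ln y.2)
  have hW' : (4 : ℝ) * 2 ^ lm ≤ W := by exact_mod_cast hW
  have hl : (0 : ℝ) < 2 ^ (lm + 1) := by positivity
  have e1 : (2 : ℝ) ^ (a - lm - 1) * 2 ^ (lm + 1) = 2 ^ a := by rw [← pow_add]; congr 1; omega
  have e2 : (2 : ℝ) ^ (lm + 1) = 2 * 2 ^ lm := by rw [pow_succ]; ring
  unfold In
  rw [Finset.mem_Ico]
  constructor
  · apply Int.le_floor.2
    rw [le_div_iff₀ hl]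
    push_cast
    have : ((N : ℝ) * 2 ^ (a - lm - 1) + 2) * 2 ^ (lm + 1) = N * 2 ^ a + 4 * 2 ^ lm := by
      rw [← e1, e2]; ring
    rw [this]
    linarith
  · apply Int.floor_lt.2
    rw [div_lt_iff₀ hl]
    push_cast
    have : (((N : ℝ) + 1) * 2 ^ (a - lm - 1) - 2) * 2 ^ (lm + 1) = (N + 1) * 2 ^ a - 4 * 2 ^ lm := by
      rw [← e1, e2]; ring
    rw [this]
    linarith

variable [Fintype Ω]

/-- an event of one column -/
lemma PE_col {Q : p.Col × Ω → ℝ} (c : p.Col) (P : p.Col × Ω → Prop) (P' : Ω → Prop)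
    (h : ∀ c' ω, P (c', ω) ↔ c' = c ∧ P' ω) : PE Q P = PE (QC Q c) P' := by
  classical
  rw [PE_def, PE_def, Fintype.sum_prod_type, sum_eq_single c]
  · refine sum_congr rfl fun ω _ => ?_
    by_cases hp : P' ω
    · rw [if_pos hp, if_pos ((h c ω).2 ⟨rfl, hp⟩)]
      rfl
    · rw [if_neg hp, if_neg fun hh => hp ((h c ω).1 hh).2]
  · intro c' _ hc
    exact sum_eq_zero fun ω _ => if_neg fun hh => hc ((h c' ω).1 hh).1
  · intro hc
    exact absurd (mem_univ c) hc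

/-- the mass of the box -/
lemma PE_Bxa (Q : p.Col × Ω → ℝ) (u : ℝ) (a PB v : ℕ) (x : p.Col × Ω) :
    PE Q (Bxa F ln p u a PB v x) = MF F ln p Q u PB a v x.1 (own F ln p u a v x) :=
  PE_col x.1 _ _ fun _ _ => Bxa_iff

/-- **good boxes are good in the sense of the package ROWS** -/
theorem good_half {Q : p.Col × Ω → ℝ} (hQ : IsProb Q) {ps u : ℝ} {a PB W lm v : ℕ}
    (hW : 4 * 2 ^ lm ≤ W) (hla : lm ≤ a) {x : p.Col × Ω}
    (h : goodv F ln p Q ps u a PB W v x) (b : Bool) :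
    ps * MF F ln p Q u PB a v x.1 (own F ln p u a v x) ≤
      PE (QC Q x.1) (fun ω => BF F ln p u PB a v x.1 (own F ln p u a v x) ω ∧
        inh (Tv (xs F u) v) (own F ln p u a v x).2.1 b ω ∧
        inn (Tv (xs F u) v) (fF ln p x.1) (cv (xs F u) (htF F ln p x.1) (fF ln p x.1) v) a lm
          (own F ln p u a v x).2.2 ω) := by
  rw [← PE_Bxa]
  refine (h b).trans ?_
  rw [← PE_col (Q := Q) x.1 (fun y => y.1 = x.1 ∧
    (BF F ln p u PB a v x.1 (own F ln p u a v x) y.2 ∧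
        inh (Tv (xs F u) v) (own F ln p u a v x).2.1 b y.2 ∧
        inn (Tv (xs F u) v) (fF ln p x.1) (cv (xs F u) (htF F ln p x.1) (fF ln p x.1) v) a lm
          (own F ln p u a v x).2.2 y.2)) _ (fun _ _ => Iff.rfl)]
  refine PE_mono hQ ?_
  rintro y ⟨h1, h2, h3⟩
  obtain ⟨e1, e2⟩ := Bxa_iff.1 h1
  obtain ⟨⟨f1, f2⟩, f3, f4⟩ := BF_iff.1 e2
  have f5 : Nf F ln p a v y.1 y.2 = (own F ln p u a v x).2.2 := by
    rw [Nf_alive (by omega), e1]
    exact f4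
  have h4 := inn_of_Inr (u := u) hW hla h3
  rw [f5, e1] at h4
  exact ⟨e1, e2, (inh_D f3).2 h2, h4⟩

/-- the own box of a flag with positive mass has positive mass -/
lemma MF_pos {Q : p.Col × Ω → ℝ} (hQ : IsProb Q) {u : ℝ} {a PB v : ℕ} {x : p.Col × Ω}
    (hx : 0 < Q x) (hT : v + PB ≤ F.T' x.2) :
    0 < MF F ln p Q u PB a v x.1 (own F ln p u a v x) := by
  classical
  rw [← PE_Bxa, PE_def]
  refine lt_of_lt_of_le hx ?_
  have h := single_le_sum (f := fun y => if Bxa F ln p u a PB v x y then Q y else 0)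
    (fun y _ => by
      show 0 ≤ if Bxa F ln p u a PB v x y then Q y else 0
      split_ifs
      · exact hQ.nonneg y
      · exact le_rfl) (mem_univ x)
  have h2 : Bxa F ln p u a PB v x x := ⟨rfl, hT⟩
  simpa [h2] using h

end Vale.Agent.P065.H279
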