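import Vale.Agent.P065.H279.NearSys

/-!
# P065: the covered digits (helper279, definitions of helper819)

`covt t x` : the digit `t` of the rows with guard `γ` is covered by a good box of a level
`v = t + 1 + lam - γ`, `lam0 ≤ lam ≤ lam1`, of big rows of `2 ^ a` units `2 ^ (-v)`.
-/

set_option autoImplicit false

open Finset Real

noncomputable section

namespace Vale.Agent.P065.H279

open Vale.Agent.P065.UB Vale.Agent.P065.Ent Vale.Agent.P065.H268 Vale.Agent.P065.H154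
  Vale.Agent.P065.H806 Vale.Agent.P065.H819

section defs

variable {Ω : Type*} [Fintype Ω] (F : Fr Ω) (ln : Ω → Pt) (p : Prm)

/-- the not late flags of the box of `x` -/
def Bxa (u : ℝ) (a PB v : ℕ) (x y : p.Col × Ω) : Prop :=
  Rt F ln p u a v y = Rt F ln p u a v x ∧ v + PB ≤ F.T' y.2

/-- the height of the flag has distance at least `W` units from the ends of its row -/
def Inr (a W v : ℕ) (y : p.Col × Ω) : Prop :=
  (Nf F ln p a v y.1 y.2 : ℝ) * 2 ^ a + W ≤ 2 ^ v * Prm.h y.1 (F.P.x y.2) (ln y.2) ∧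
    2 ^ v * Prm.h y.1 (F.P.x y.2) (ln y.2) < (Nf F ln p a v y.1 y.2 + 1 : ℝ) * 2 ^ a - W

/-- good boxes -/
def goodv (Q : p.Col × Ω → ℝ) (ps u : ℝ) (a PB W v : ℕ) (x : p.Col × Ω) : Prop :=
  ∀ b : Bool, ps * PE Q (Bxa F ln p u a PB v x) ≤
    PE Q (fun y => Bxa F ln p u a PB v x y ∧
      F.D u (v + 1) y.2 = 2 * F.D u v y.2 + (if b then 1 else 0) ∧ Inr F ln p a W v y)

/-- covered digits -/
def covt (Q : p.Col × Ω → ℝ) (ps u : ℝ) (a γ PB W gn lam0 lam1 t : ℕ) (x : p.Col × Ω) : Prop :=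
  ∃ lam v : ℕ, lam0 ≤ lam ∧ lam ≤ lam1 ∧ v + γ = t + 1 + lam ∧ v + PB ≤ F.T' x.2 ∧
    goodv F ln p Q ps u a PB W v x ∧ Inr F ln p a W v x ∧ ¬ nearU u gn v (F.P.x x.2)

end defs

section lemmas

variable {Ω : Type*} {F : Fr Ω} {ln : Ω → Pt} {p : Prm} {Lab : Type*} {lam : Ω → Lab}

lemma Bxa_congr {u : ℝ} {a PB v : ℕ} {x y : p.Col × Ω}
    (h : Rt F ln p u a v x = Rt F ln p u a v y) : Bxa F ln p u a PB v x = Bxa F ln p u a PB v y := by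
  funext z
  unfold Bxa
  rw [h]

lemma rb_T' {x y : p.Col × Ω} (h : rb F ln p lam x = rb F ln p lam y) :
    F.P.x x.2 = F.P.x y.2 ∧ F.T' x.2 = F.T' y.2 := by
  have h1 := F.xW _ _ (rb_W (F := F) (ln := ln) (p := p) (lam := lam) F.n le_rfl x y h)
  exact ⟨h1, F.T'x _ _ h1⟩

/-- before the frozen scale the floors of the heights are functions of the fine box -/
lemma rb_floor {x y : p.Col × Ω} (h : rb F ln p lam x = rb F ln p lam y) {v : ℕ}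
    (hv : v ≤ F.T' x.2) :
    ⌊(2 : ℝ) ^ v * Prm.h x.1 (F.P.x x.2) (ln x.2)⌋ =
      ⌊(2 : ℝ) ^ v * Prm.h y.1 (F.P.x y.2) (ln y.2)⌋ := by
  obtain ⟨hx, hT⟩ := rb_T' h
  obtain ⟨c, ω⟩ := x
  obtain ⟨c', ω'⟩ := y
  unfold rb rho at h
  simp only [Prod.mk.injEq] at h hx hT hv ⊢
  obtain ⟨rfl, -, -, h4⟩ := h
  unfold Nr at h4
  rw [← hT] at h4
  have h5 := Prm.N_nest (γ := 0) hv h4
  unfold Prm.N at h5
  simpa using h5

/-- an interior position is a function of the fine box -/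
lemma Inr_rb {x y : p.Col × Ω} (h : rb F ln p lam x = rb F ln p lam y) {a W v : ℕ}
    (hv : v ≤ F.T' x.2) (hI : Inr F ln p a W v x) : Inr F ln p a W v y := by
  have h1 := rb_floor h hv
  have h2 : Nf F ln p a v y.1 y.2 = Nf F ln p a v x.1 x.2 := by
    have h3 := rb_Rt (F := F) (ln := ln) (p := p) (lam := lam) 0 a v x y h
    unfold Rt at h3
    simp only [Prod.mk.injEq] at h3
    exact h3.2.2.2.symm
  unfold Inr at hI ⊢
  rw [h2]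
  obtain ⟨a1, a2⟩ := hI
  set N := Nf F ln p a v x.1 x.2 with hN
  have e1 : ((N * 2 ^ a + W : ℤ) : ℝ) = (N : ℝ) * 2 ^ a + W := by push_cast; ring
  have e2 : (((N + 1) * 2 ^ a - W : ℤ) : ℝ) = ((N : ℝ) + 1) * 2 ^ a - W := by push_cast; ring
  rw [← e1, ← Int.le_floor] at a1
  rw [← e2, ← Int.floor_lt] at a2
  rw [h1] at a1 a2
  rw [← e1, ← e2]
  exact ⟨Int.le_floor.1 a1, Int.floor_lt.1 a2⟩

variable [Fintype Ω]

lemma goodv_congr {Q : p.Col × Ω → ℝ} {ps u : ℝ} {a PB W v : ℕ} {x y : p.Col × Ω}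
    (h : Rt F ln p u a v x = Rt F ln p u a v y) (hg : goodv F ln p Q ps u a PB W v x) :
    goodv F ln p Q ps u a PB W v y := by
  intro b
  have := hg b
  rwa [Bxa_congr h] at this

/-- covered digits are functions of the fine box -/
theorem covt_rb {Q : p.Col × Ω → ℝ} {ps u : ℝ} {a γ PB W gn lam0 lam1 t : ℕ} {x y : p.Col × Ω}
    (h : rb F ln p lam x = rb F ln p lam y)
    (hc : covt F ln p Q ps u a γ PB W gn lam0 lam1 t x) :
    covt F ln p Q ps u a γ PB W gn lam0 lam1 t y := by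
  obtain ⟨lm, v, h1, h2, h3, h4, h5, h6, h7⟩ := hc
  obtain ⟨hx, hT⟩ := rb_T' h
  refine ⟨lm, v, h1, h2, h3, by rw [← hT]; exact h4,
    goodv_congr (rb_Rt (F := F) (ln := ln) (p := p) (lam := lam) u a v x y h) h5,
    Inr_rb h (by omega) h6, by rw [← hx]; exact h7⟩

/-- **thick scales which are `okv` cover their window** -/
theorem covt_of {Q : p.Col × Ω → ℝ} (hQ : IsProb Q) {ps dl u : ℝ} (hps : 0 ≤ ps)
    {γ' s m γ PB gn lam0 M v t : ℕ} {x : p.Col × Ω} (hth : Th F ln p u γ' PB Q ps v x)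
    (hok : okv F ln p Q u γ' s m PB gn dl v x)
    (h1 : (v : ℤ) ≤ t + ((lam0 + M : ℕ) + 1 - γ : ℤ))
    (h2 : (t : ℤ) + ((lam0 + M : ℕ) + 1 - γ : ℤ) ≤ v + M) :
    covt F ln p Q (ps * dl) u (γ' + s) γ PB (m * 2 ^ γ') gn lam0 (lam0 + M) t x := by
  have hI := okv_height hok
  have hG := good_of_Th hQ hps hth hok
  obtain ⟨k1, k2, k3, k4⟩ := hok
  have eW : ((m * 2 ^ γ' : ℕ) : ℝ) = m * 2 ^ γ' := by push_cast; ring
  refine ⟨v + γ - (t + 1), v, by omega, by omega, by omega, k1, ?_, ?_, k4⟩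
  · intro b
    refine (hG b).trans (PE_mono hQ ?_)
    rintro y ⟨b1, b2, b3, b4, b5⟩
    refine ⟨⟨b1, b3⟩, b2, ?_⟩
    unfold Inr
    rw [eW]
    exact ⟨b4, b5⟩
  · unfold Inr
    rw [eW]
    exact hI

end lemmas

open Classical in
/-- **input `hnear` for the covered digits `covt`, quantified**: `lam1 = lam0 + M`, big rows of
`2 ^ (γ' + s)` units, margins of `m * 2 ^ γ'` units, good boxes with the share `ps * dl` -/
theorem near_covt (B₀ K₁ γ' M m : ℕ) (c₂ ρ ε₂ e δ ps : ℝ) (hB : 2 ≤ B₀) (he : 0 < e)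
    (hδ : 0 < δ) (hps : 0 < ps) :
    ∃ s₀ gn₀ : ℕ, ∀ s ≥ s₀, ∃ dl₀ : ℝ, 0 < dl₀ ∧ dl₀ < 1 ∧ ∀ dl : ℝ, 0 < dl → dl ≤ dl₀ →
    ∀ gn ≥ gn₀, ∀ (PB γ lam0 PP Γ σ Λ kN : ℕ), γ' + s ≤ Γ → ∃ g₁ : ℕ, ∀ n g : ℕ, g₁ ≤ g →
    ∀ S : Sys B₀ K₁ PP Γ σ Λ kN c₂ ρ ε₂ e n g,
    ∃ Fn : ℝ → ℝ, (∀ u, 0 ≤ Fn u) ∧ AvLe Fn (δ * g) ∧ ∀ u,
      Det (rb S.F S.ln S.p S.lam) (fun x => (#{t ∈ range (S.F.P.T + σ) |
        covt S.F S.ln S.p S.Q (ps * dl) u (γ' + s) γ PB (m * 2 ^ γ') gn lam0 (lam0 + M) t x} : ℝ)) ∧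
      ∑ x, S.q x * #(Cov (Pf S.F S.p u σ) (fun t x => Th S.F S.ln S.p u γ' PB S.q ps t x) M x) ≤
        ∑ x, S.q x * #{t ∈ range (S.F.P.T + σ) |
          covt S.F S.ln S.p S.Q (ps * dl) u (γ' + s) γ PB (m * 2 ^ γ') gn lam0 (lam0 + M) t x} +
          δ * g + Fn u := by
  obtain ⟨s₀, gn₀, h⟩ := near_sys B₀ K₁ γ' M m c₂ ρ ε₂ e δ ps hB he hδ hps
  refine ⟨s₀, gn₀, fun s hs => ?_⟩
  obtain ⟨dl₀, hd0, hd1, h⟩ := h s hs
  refine ⟨dl₀, hd0, hd1, fun dl hdl hdl0 gn hgn PB γ lam0 PP Γ σ Λ kN hΓ => ?_⟩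
  obtain ⟨g₁, h⟩ := h dl hdl hdl0 gn hgn PB (((lam0 + M : ℕ) : ℤ) + 1 - γ) PP Γ σ Λ kN hΓ
  refine ⟨max g₁ 1, fun n g hg S => ?_⟩
  obtain ⟨Fn, hF0, hFA, h⟩ := h n g ((le_max_left _ _).trans hg) S
  have hQ := S.probQ ((le_max_right _ _).trans hg)
  refine ⟨Fn, hF0, hFA, fun u => ⟨fun x y hxy => ?_, ?_⟩⟩
  · have : {t ∈ range (S.F.P.T + σ) | covt S.F S.ln S.p S.Q (ps * dl) u (γ' + s) γ PB
        (m * 2 ^ γ') gn lam0 (lam0 + M) t x} = {t ∈ range (S.F.P.T + σ) |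
        covt S.F S.ln S.p S.Q (ps * dl) u (γ' + s) γ PB (m * 2 ^ γ') gn lam0 (lam0 + M) t y} :=
      filter_congr fun t _ => ⟨covt_rb hxy, covt_rb hxy.symm⟩
    simp only [this]
  · refine h u (fun t x => covt S.F S.ln S.p S.Q (ps * dl) u (γ' + s) γ PB (m * 2 ^ γ') gn lam0
      (lam0 + M) t x) (fun t x y hxy hc => covt_rb hxy hc) ?_
    intro x _ v _ hth hok t _ h1 h2
    exact covt_of hQ hps.le hth hok h1 h2

end Vale.Agent.P065.H279
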