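import Vale.Agent.P065.H279.CovF
import Vale.Agent.P065.H987.RowInfo2

/-!
# P065: the total mass of the good boxes of ROWS (helper279)
-/

set_option autoImplicit false

open Finset Real

noncomputable section

namespace Vale.Agent.P065.H279

open Vale.Agent.P065.UB Vale.Agent.P065.Ent Vale.Agent.P065.H268 Vale.Agent.P065.H154
  Vale.Agent.P065.H806 Vale.Agent.P065.H819 Vale.Agent.P065.H700

section gen

variable {Ω : Type*} [Fintype Ω] {F : Fr Ω} {ln : Ω → Pt} {p : Prm} {Lab : Type*} {lam : Ω → Lab}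

/-- the two halves of a box exhaust it -/
lemma MF_halves (Q : p.Col × Ω → ℝ) (u : ℝ) (PB a v : ℕ) (c : p.Col)
    (r : ℤ × ℤ × ℤ) :
    PE (QC Q c) (fun ω => BF F ln p u PB a v c r ω ∧ inh (Tv (xs F u) v) r.2.1 false ω) +
      PE (QC Q c) (fun ω => BF F ln p u PB a v c r ω ∧ inh (Tv (xs F u) v) r.2.1 true ω) =
      MF F ln p Q u PB a v c r := by
  classical
  unfold MF
  rw [PE_def, PE_def, PE_def, ← sum_add_distrib]
  refine sum_congr rfl fun ω _ => ?_
  by_cases hB : BF F ln p u PB a v c r ω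
  · have hD : F.D u v ω = r.2.1 := (BF_iff.1 hB).2.1
    have h2 := D_two F u v ω
    by_cases h : inh (Tv (xs F u) v) r.2.1 false ω
    · have h' : ¬ inh (Tv (xs F u) v) r.2.1 true ω := by
        rw [inh_D hD] at h ⊢
        simp only [Bool.false_eq_true, if_false, if_true] at h ⊢
        omega
      rw [if_pos ⟨hB, h⟩, if_neg fun hh => h' hh.2, if_pos hB, add_zero]
    · have h' : inh (Tv (xs F u) v) r.2.1 true ω := by
        rw [inh_D hD] at h ⊢
        simp only [Bool.false_eq_true, if_false, if_true] at h ⊢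
        omega
      rw [if_neg fun hh => h hh.2, if_pos ⟨hB, h'⟩, if_pos hB, zero_add]
  · rw [if_neg fun hh => hB hh.1, if_neg fun hh => hB hh.1, if_neg hB, add_zero]

lemma MF_Pr (Q : p.Col × Ω → ℝ) (u : ℝ) (PB a v : ℕ) (c : p.Col) (r : ℤ × ℤ × ℤ) :
    MF F ln p Q u PB a v c r =
      Pr (QC Q c) (H987.NF F ln p u PB a v c) (H987.xv PB v r) := by
  classical
  unfold MF
  rw [PE_def]
  unfold Pr
  refine sum_congr rfl fun ω _ => ?_
  by_cases h : BF F ln p u PB a v c r ω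
  · rw [if_pos h, if_pos (H987.BF_iff_NF.1 h)]
  · rw [if_neg h, if_neg fun hh => h (H987.BF_iff_NF.2 hh)]

/-- every child of a good box has share at most `1 - ps` -/
lemma child_le {Q : p.Col × Ω → ℝ} (hQ : IsProb Q) {u ps : ℝ} {PB a v : ℕ} {c : p.Col}
    {r : ℤ × ℤ × ℤ}
    (hg : ∀ b : Bool, ps * MF F ln p Q u PB a v c r ≤
      PE (QC Q c) (fun ω => BF F ln p u PB a v c r ω ∧ inh (Tv (xs F u) v) r.2.1 b ω)) (y : ℤ) :
    Pr (QC Q c) (fun ω => (F.D u (v + 1) ω, H987.NF F ln p u PB a v c ω)) (y, H987.xv PB v r) ≤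
      (1 - ps) * MF F ln p Q u PB a v c r := by
  classical
  have hn : ∀ ω, 0 ≤ QC Q c ω := fun ω => hQ.nonneg _
  have h0 : ∀ P : Ω → Prop, 0 ≤ PE (QC Q c) P := by
    intro P
    rw [PE_def]
    refine sum_nonneg fun ω _ => ?_
    split_ifs
    · exact hn ω
    · exact le_rfl
  have hm : ∀ P P' : Ω → Prop, (∀ ω, P ω → P' ω) → PE (QC Q c) P ≤ PE (QC Q c) P' := by
    intro P P' h
    rw [PE_def, PE_def]
    refine sum_le_sum fun ω _ => ?_
    by_cases hP : P ω
    · rw [if_pos hP, if_pos (h ω hP)]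
    · rw [if_neg hP]
      split_ifs
      · exact hn ω
      · exact le_rfl
  have hsum := MF_halves (F := F) (ln := ln) Q u PB a v c r
  have e1 : Pr (QC Q c) (fun ω => (F.D u (v + 1) ω, H987.NF F ln p u PB a v c ω))
      (y, H987.xv PB v r) = PE (QC Q c) (fun ω => F.D u (v + 1) ω = y ∧
        BF F ln p u PB a v c r ω) := by
    rw [PE_def]
    unfold Pr
    refine sum_congr rfl fun ω _ => ?_
    by_cases h : F.D u (v + 1) ω = y ∧ BF F ln p u PB a v c r ω
    · rw [if_pos h, if_pos]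
      rw [Prod.mk.injEq]
      exact ⟨h.1, H987.BF_iff_NF.1 h.2⟩
    · rw [if_neg h, if_neg]
      intro hh
      rw [Prod.mk.injEq] at hh
      exact h ⟨hh.1, H987.BF_iff_NF.2 hh.2⟩
  rw [e1]
  by_cases hy0 : y = 2 * r.2.1
  · have h1 : PE (QC Q c) (fun ω => F.D u (v + 1) ω = y ∧ BF F ln p u PB a v c r ω) ≤
        PE (QC Q c) (fun ω => BF F ln p u PB a v c r ω ∧ inh (Tv (xs F u) v) r.2.1 false ω) := by
      refine hm _ _ ?_
      rintro ω ⟨h1, h2⟩
      have hD : F.D u v ω = r.2.1 := (BF_iff.1 h2).2.1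
      refine ⟨h2, ?_⟩
      rw [inh_D hD, h1, hD, hy0]
      simp
    have h2 := hg true
    linarith
  · by_cases hy1 : y = 2 * r.2.1 + 1
    · have h1 : PE (QC Q c) (fun ω => F.D u (v + 1) ω = y ∧ BF F ln p u PB a v c r ω) ≤
          PE (QC Q c) (fun ω => BF F ln p u PB a v c r ω ∧ inh (Tv (xs F u) v) r.2.1 true ω) := by
        refine hm _ _ ?_
        rintro ω ⟨h1, h2⟩
        have hD : F.D u v ω = r.2.1 := (BF_iff.1 h2).2.1
        refine ⟨h2, ?_⟩
        rw [inh_D hD, h1, hD, hy1]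
        simp
      have h2 := hg false
      linarith
    · have h1 : PE (QC Q c) (fun ω => F.D u (v + 1) ω = y ∧ BF F ln p u PB a v c r ω) ≤ 0 := by
        rw [PE_def]
        refine sum_nonpos fun ω _ => ?_
        rw [if_neg]
        rintro ⟨h1, h2⟩
        have hD : F.D u v ω = r.2.1 := (BF_iff.1 h2).2.1
        rcases D_two F u v ω with h3 | h3 <;> rw [hD, h1] at h3
        · exact hy0 h3
        · exact hy1 h3
      have h2 := hg true
      have h3 := h0 (fun ω => BF F ln p u PB a v c r ω ∧ inh (Tv (xs F u) v) r.2.1 false ω)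
      linarith

variable {f : p.Col → (ℕ × Lab) × ℤ × ℤ → ℝ} {f0 : ∀ k r, 0 ≤ f k r} {f1 : ∀ k r, f k r ≤ 1}
  {μ : Ω → ℝ}

/-- **the total mass of the good boxes**: `Hr` bounds the entropy of the fine boxes -/
theorem good_count (hμ : IsProb μ) (hJ : 0 < (cols F ln p lam f f0 f1).J μ) (u : ℝ) (PB a n : ℕ)
    {ps : ℝ} (B : ℕ → p.Col → Finset (ℤ × ℤ × ℤ))
    (hB : ∀ v < n, ∀ c, ∀ r ∈ B v c, ∀ b : Bool,
      ps * MF F ln p ((cols F ln p lam f f0 f1).Q μ) u PB a v c r ≤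
      PE (QC ((cols F ln p lam f f0 f1).Q μ) c)
        (fun ω => BF F ln p u PB a v c r ω ∧ inh (Tv (xs F u) v) r.2.1 b ω)) :
    ps * ∑ v ∈ range n, ∑ c, ∑ r ∈ B v c,
      MF F ln p ((cols F ln p lam f f0 f1).Q μ) u PB a v c r ≤
      Hc ((cols F ln p lam f f0 f1).Q μ) (rb F ln p lam) (fun x => x.1) := by
  classical
  set Q := (cols F ln p lam f f0 f1).Q μ with hQd
  have hQ : IsProb Q := Cols.isProb_Q hμ hJ
  set Z : ℕ → p.Col × Ω → p.Col × ℤ × ℕ × ℤ × ℤ :=
    fun v x => (x.1, H987.NF F ln p u PB a v x.1 x.2) with hZ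
  have hP := H987.P3 (C := cols F ln p lam f f0 f1) hμ hJ
    (fun v c => H987.NF F ln p u PB a v c) (fun v _ ω => F.D u (v + 1) ω) n
    (fun v c => (B v c).image (H987.xv PB v)) (ps := ps) (by
      intro v hv c x hx y
      obtain ⟨r, hr, rfl⟩ := mem_image.1 hx
      have h1 := child_le hQ (hB v hv c r hr) y
      refine h1.trans (le_of_eq ?_)
      rw [MF_Pr]
      rfl)
  have e1 : ∀ v ∈ range n, ∑ c, ∑ x ∈ (B v c).image (H987.xv PB v),
      H987.MQ (cols F ln p lam f f0 f1) μ (fun c => H987.NF F ln p u PB a v c) c x =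
      ∑ c, ∑ r ∈ B v c, MF F ln p Q u PB a v c r := by
    intro v _
    refine sum_congr rfl fun c _ => ?_
    rw [sum_image fun r _ r' _ h => H987.xv_inj h]
    refine sum_congr rfl fun r _ => ?_
    rw [MF_Pr]
    rfl
  rw [sum_congr rfl e1] at hP
  refine hP.trans ?_
  have h2 : ∀ v, Det (Z (v + 1)) (Z v) := by
    intro v x y h
    simp only [hZ, Prod.mk.injEq] at h ⊢
    obtain ⟨h1, h2⟩ := h
    refine ⟨h1, ?_⟩
    rw [h1] at h2 ⊢
    exact H987.NF_det u PB a v y.1 _ _ h2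
  have h3 : ∑ v ∈ range n, Hc Q (fun t : p.Col × Ω => F.D u (v + 1) t.2)
      (fun t : p.Col × Ω => (t.1, H987.NF F ln p u PB a v t.1 t.2)) ≤
      ∑ v ∈ range n, Hc Q (Z (v + 1)) (Z v) := by
    refine sum_le_sum fun v _ => Hc_mono_left hQ ?_
    intro x y h
    simp only [hZ, Prod.mk.injEq, H987.NF] at h
    exact h.2.1
  refine h3.trans ((H60.sum_Hc_levels hQ Z h2 1 n).trans ?_)
  rw [Nat.cast_one, one_mul]
  refine (Hc_mono_left hQ (X := rb F ln p lam) ?_).trans (Hc_anti hQ _ ?_)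
  · intro x y h
    have h4 := rb_Rt (F := F) (ln := ln) (p := p) (lam := lam) 0 0 0 x y h
    have h5 : x.1 = y.1 := by
      unfold Rt at h4
      simp only [Prod.mk.injEq] at h4
      exact h4.1
    simp only [hZ, Prod.mk.injEq]
    refine ⟨h5, ?_⟩
    rw [h5]
    refine H987.NF_rho lam u PB a (n + 1) y.1 ?_
    unfold rb at h
    simp only [Prod.mk.injEq] at h
    rw [← h5]
    rw [h.2, h5]
  · intro x y h
    exact (Prod.mk.inj h).1

end gen

end Vale.Agent.P065.H279
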