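import Vale.Agent.P065.H279.CovF
import Vale.Agent.P065.H279.GoodCnt
import Vale.Agent.P065.H422.NearNN

/-!
# P065: assembly of ROWS (helper279), the covered digits of helper819 and the final arithmetic
-/

set_option autoImplicit false

open Finset Real

noncomputable section

namespace Vale.Agent.P065.H279

open Vale.Agent.P065.UB Vale.Agent.P065.Ent Vale.Agent.P065.H268 Vale.Agent.P065.H154
  Vale.Agent.P065.H806 Vale.Agent.P065.H819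

section defs

variable {Ω : Type*} [Fintype Ω] (F : Fr Ω) (ln : Ω → Pt) (p : Prm)

/-- good boxes (helper819) -/
def GoodA (Q : p.Col × Ω → ℝ) (u : ℝ) (PB a v lm1 : ℕ) (ps : ℝ) (c : p.Col)
    (r : ℤ × ℤ × ℤ) : Prop :=
  0 < MF F ln p Q u PB a v c r ∧ ∀ b : Bool, ps * MF F ln p Q u PB a v c r ≤
    PE (QC Q c) (fun ω => BF F ln p u PB a v c r ω ∧ inh (Tv (xs F u) v) r.2.1 b ω ∧
      inn (Tv (xs F u) v) (fF ln p c) (cv (xs F u) (htF F ln p c) (fF ln p c) v) a lm1 r.2.2 ω)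

/-- covered digits (helper819) -/
def covA (Q : p.Col × Ω → ℝ) (u : ℝ) (PB a γ gn lm0 lm1 : ℕ) (ps : ℝ) (t : ℕ)
    (x : p.Col × Ω) : Prop :=
  ∃ lm v : ℕ, lm0 ≤ lm ∧ lm ≤ lm1 ∧ v + γ = t + 1 + lm ∧ v + PB ≤ F.T' x.2 ∧
    GoodA F ln p Q u PB a v lm1 ps x.1 (own F ln p u a v x) ∧
    nn (γ - lm) gn (F.D u v x.2) (F.D u (t + 1) x.2) ∧
    Nf F ln p γ t x.1 x.2 ∈ In a lm (Nf F ln p a v x.1 x.2)

end defs

variable {Ω : Type*} [Fintype Ω] {F : Fr Ω} {ln : Ω → Pt} {p : Prm}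

/-- **covered digits are covered digits** -/
theorem covA_of_covt {Q : p.Col × Ω → ℝ} (hQ : IsProb Q) {ps u : ℝ} {a γ PB W gn lm0 lm1 t : ℕ}
    (hW : 4 * 2 ^ lm1 ≤ W) (hla : lm1 + 1 ≤ a) (hgn : 1 ≤ gn) (hγ : lm1 + gn ≤ γ)
    {x : p.Col × Ω} (hx : 0 < Q x) (h : covt F ln p Q ps u a γ PB W gn lm0 lm1 t x) :
    covA F ln p Q u PB a γ gn lm0 lm1 ps t x := by
  obtain ⟨lm, v, h1, h2, h3, h4, h5, h6, h7⟩ := h
  have hW' : 4 * 2 ^ lm ≤ W := le_trans (Nat.mul_le_mul_left 4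
    (Nat.pow_le_pow_right (by norm_num) h2)) hW
  refine ⟨lm, v, h1, h2, h3, h4, ⟨MF_pos hQ hx h4, fun b => ?_⟩, ?_, ?_⟩
  · exact good_half hQ hW (by omega) h5 b
  · have h8 := H422.nn_of_not_nearU' F (dX := γ - lm) hgn (by omega) h7
    rwa [show v + (γ - lm) = t + 1 by omega] at h8
  · exact Nf_mem_In hW' (by omega) h3 (by omega) h6

/-- final arithmetic: the relative error is paid by the a priori bound of the row sum -/
lemma close_num {A R err θ H δ g : ℝ} (hA : 0 ≤ A) (h0 : 0 ≤ θ) (hθ : θ ≤ 1 / 2)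
    (h : log 2 * ((1 - θ) * A) - err ≤ R) (herr : err ≤ δ / 4 * g) (hR : R ≤ H * g)
    (hδ : 0 < δ) (hg : 0 ≤ g) (hH : θ * (2 * (H + δ)) ≤ δ / 2) : log 2 * A - δ * g ≤ R := by
  have hl : 0 < log 2 := log_pos (by norm_num)
  have hA' : 0 ≤ log 2 * A := mul_nonneg hl.le hA
  set L := log 2 * A with hL
  have e1 : log 2 * ((1 - θ) * A) = (1 - θ) * L := by rw [hL]; ring
  rw [e1] at h
  have h1 : L ≤ 2 * ((H + δ) * g) := by
    have : (1 / 2) * L ≤ (1 - θ) * L := mul_le_mul_of_nonneg_right (by linarith) hA'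
    have h3 : δ / 4 * g ≤ δ * g := by nlinarith
    nlinarith
  have h2 : θ * L ≤ δ / 2 * g := by
    have : θ * L ≤ θ * (2 * ((H + δ) * g)) := mul_le_mul_of_nonneg_left h1 h0
    nlinarith
  nlinarith

/-- the choice of `lam0` -/
lemma exists_lam0 (C : ℝ) {d : ℝ} (hd : 0 < d) (k : ℕ) :
    ∃ l ≥ k, (128 : ℝ) / 2 ^ l ≤ 1 / 2 ∧ 128 / 2 ^ l * C ≤ d := by
  obtain ⟨s₀, h⟩ := exists_pow_small (128 * |C|) hd
  refine ⟨max s₀ (max k 8), le_trans (le_max_left _ _) (le_max_right _ _), ?_, ?_⟩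
  · rw [div_le_div_iff₀ (by positivity) (by norm_num)]
    have : (2 : ℝ) ^ 8 ≤ 2 ^ (max s₀ (max k 8)) :=
      pow_le_pow_right₀ (by norm_num) (le_trans (le_max_right _ _) (le_max_right _ _))
    norm_num at this
    linarith
  · have h1 := h (max s₀ (max k 8)) (le_max_left _ _)
    set l := max s₀ (max k 8)
    refine le_trans ?_ h1
    rw [div_mul_eq_mul_div]
    refine div_le_div_of_nonneg_right ?_ (by positivity)
    have h2 : C ≤ |C| := le_abs_self C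
    have h3 : (0 : ℝ) ≤ l := by positivity
    have h4 : 0 ≤ |C| := abs_nonneg C
    nlinarith

open Classical in
/-- **the rows inequality** (one digit, sum over the digits, error terms paid): helper819 and
helper987 -/
def RowsIneq : Prop := ∀ (B₀ K₁ lm0 lm1 a gn : ℕ) (c₂ ρ ε₂ e δ ps : ℝ), 2 ≤ B₀ → 1 ≤ K₁ → 0 < e →
  0 < δ → 0 < ps → ps ≤ 1 → 6 ≤ lm0 → lm0 ≤ lm1 → lm1 + 5 ≤ a → 1 ≤ gn →
  ∃ PB₀ γ₀ PP₀ : ℕ, ∀ PB ≥ PB₀, ∀ γ ≥ γ₀, ∀ PP ≥ PP₀, ∀ Γ σ : ℕ, γ ≤ Γ → a ≤ Γ → γ ≤ σ →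
  ∀ Λ kN : ℕ, ∃ g₁ : ℕ, ∀ n g : ℕ, g₁ ≤ g →
    ∀ S : Sys B₀ K₁ PP Γ σ Λ kN c₂ ρ ε₂ e n g, ∀ u : ℝ,
      log 2 * ((1 - 128 / 2 ^ lm0) * ∑ x, S.Q x * (#{t ∈ range (S.F.P.T + σ) |
        covA S.F S.ln S.p S.Q u PB a γ gn lm0 lm1 ps t x} : ℝ)) - δ * g ≤
      ∑ t ∈ range (S.F.P.T + σ), Hc S.Q (Rt S.F S.ln S.p u γ (t + 1))
        (fun x => (S.F.D u (t + 1) x.2, Rt S.F S.ln S.p u γ t x))

/-- the row sum is at most the entropy of the fine boxes -/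
lemma rowsum_le {B₀ K₁ PP Γ σ Λ kN : ℕ} {c₂ ρ ε₂ e : ℝ} {n g : ℕ}
    (S : Sys B₀ K₁ PP Γ σ Λ kN c₂ ρ ε₂ e n g) (hB : 1 ≤ B₀) (hg : 1 ≤ g) (u : ℝ) (γ : ℕ) :
    ∑ t ∈ range (S.F.P.T + σ), Hc S.Q (Rt S.F S.ln S.p u γ (t + 1))
        (fun x => (S.F.D u (t + 1) x.2, Rt S.F S.ln S.p u γ t x)) ≤
      (2 * e + 2 * log B₀) * g := by
  have hQ := S.probQ hg
  have h1 : ∀ t ∈ range (S.F.P.T + σ), Hc S.Q (Rt S.F S.ln S.p u γ (t + 1))
      (fun x => (S.F.D u (t + 1) x.2, Rt S.F S.ln S.p u γ t x)) ≤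
      Hc S.Q (Rt S.F S.ln S.p u γ (t + 1)) (Rt S.F S.ln S.p u γ t) := fun t _ =>
    Hc_anti hQ _ (det_snd _ _)
  refine (sum_le_sum h1).trans ?_
  have h2 := H60.sum_Hc_levels hQ (fun t => Rt S.F S.ln S.p u γ t)
    (fun t => Rt_det (F := S.F) (ln := S.ln) (p := S.p) u γ t) 1 (S.F.P.T + σ)
  refine h2.trans ?_
  rw [Nat.cast_one, one_mul]
  refine (Hc_mono_left hQ (rb_Rt (F := S.F) (ln := S.ln) (p := S.p) (lam := S.lam) u γ
    (S.F.P.T + σ + 1))).trans ?_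
  exact (Hc_anti hQ _ (Rt_col (F := S.F) (ln := S.ln) (p := S.p) u γ 0)).trans
    (Hc_rb_le S hB hg)

open Classical in
/-- **`HRows` from the rows inequality** -/
theorem hrows_of (hR : RowsIneq) : HRows := by
  intro B₀ K₁ γ' PBT M c₂ ρ ε₂ e δ ps hB hK he hδ hps hps4
  have hlB : 0 ≤ log (B₀ : ℝ) := log_nonneg (by exact_mod_cast (by omega : 1 ≤ B₀))
  set H : ℝ := 2 * e + 2 * log B₀ with hH
  have hH0 : 0 < H := by positivity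
  obtain ⟨lm0, hlm, hθ, hθH⟩ := exists_lam0 (2 * (H + δ)) (half_pos hδ) (max γ' 6)
  have hl1 : γ' ≤ lm0 := le_trans (le_max_left _ _) hlm
  have hl2 : 6 ≤ lm0 := le_trans (le_max_right _ _) hlm
  set m : ℕ := 2 ^ (lm0 + M + 2 - γ') with hm
  have hW : 4 * 2 ^ (lm0 + M) = m * 2 ^ γ' := by
    rw [hm, ← pow_add, show lm0 + M + 2 - γ' + γ' = lm0 + M + 2 by omega, pow_add]
    ring
  obtain ⟨s₀, gn₀, hN⟩ := near_covt B₀ K₁ γ' M m c₂ ρ ε₂ e δ ps hB he hδ hps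
  set s : ℕ := max s₀ (lm0 + M + 5) with hs
  obtain ⟨dl, hdl0, hdl1, hN⟩ := hN s (le_max_left _ _)
  set gn : ℕ := max gn₀ 1 with hgn
  have hN' := hN dl hdl0 le_rfl gn (le_max_left _ _)
  have ha : lm0 + M + 5 ≤ γ' + s := by
    have := le_max_right s₀ (lm0 + M + 5)
    omega
  have hpd : ps * dl ≤ 1 := by nlinarith
  obtain ⟨PB₀, γ₀, PP₀, hR'⟩ := hR B₀ K₁ lm0 (lm0 + M) (γ' + s) gn c₂ ρ ε₂ e (δ / 4) (ps * dl) hB
    hK he (by linarith) (mul_pos hps hdl0) hpd hl2 (by omega) (by omega) (le_max_right _ _)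
  set γ : ℕ := max γ₀ (max γ' (lm0 + M + gn)) with hγ
  have hγ0 : γ₀ ≤ γ := le_max_left _ _
  have hγ1 : γ' ≤ γ := le_trans (le_max_left _ _) (le_max_right _ _)
  have hγ2 : lm0 + M + gn ≤ γ := le_trans (le_max_right _ _) (le_max_right _ _)
  refine ⟨max PB₀ PBT, le_max_right _ _, γ, hγ1, PP₀, max γ (γ' + s), γ, le_max_left _ _, le_rfl,
    fun PP hPP Γ hΓ σ hσ Λ kN => ?_⟩
  have hΓ1 : γ ≤ Γ := le_trans (le_max_left _ _) hΓ
  have hΓ2 : γ' + s ≤ Γ := le_trans (le_max_right _ _) hΓ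
  obtain ⟨g₁, hN2⟩ := hN' (max PB₀ PBT) γ lm0 PP Γ σ Λ kN hΓ2
  obtain ⟨g₂, hR2⟩ := hR' (max PB₀ PBT) (le_max_left _ _) γ hγ0 PP hPP Γ σ hΓ1 hΓ2 hσ Λ kN
  refine ⟨max (max g₁ g₂) 1, fun n g hg S => ?_⟩
  have hg1 : g₁ ≤ g := le_trans (le_trans (le_max_left _ _) (le_max_left _ _)) hg
  have hg2 : g₂ ≤ g := le_trans (le_trans (le_max_right _ _) (le_max_left _ _)) hg
  have hg3 : 1 ≤ g := le_trans (le_max_right _ _) hg
  obtain ⟨Fn, hF0, hFA, hN3⟩ := hN2 n g hg1 S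
  refine ⟨Fn, hF0, hFA, fun u => ?_⟩
  obtain ⟨hdet, hnear⟩ := hN3 u
  refine ⟨fun x => (#{t ∈ range (S.F.P.T + σ) | covt S.F S.ln S.p S.Q (ps * dl) u (γ' + s) γ
    (max PB₀ PBT) (m * 2 ^ γ') gn lm0 (lm0 + M) t x} : ℝ), hdet, ?_, hnear⟩
  have hQ := S.probQ hg3
  have hle : ∑ x, S.Q x * (#{t ∈ range (S.F.P.T + σ) | covt S.F S.ln S.p S.Q (ps * dl) u (γ' + s) γ
      (max PB₀ PBT) (m * 2 ^ γ') gn lm0 (lm0 + M) t x} : ℝ) ≤
      ∑ x, S.Q x * (#{t ∈ range (S.F.P.T + σ) | covA S.F S.ln S.p S.Q u (max PB₀ PBT) (γ' + s) γ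
        gn lm0 (lm0 + M) (ps * dl) t x} : ℝ) := by
    refine sum_le_sum fun x _ => ?_
    rcases (hQ.nonneg x).eq_or_lt with h0 | h0
    · rw [← h0, zero_mul, zero_mul]
    · refine mul_le_mul_of_nonneg_left ?_ h0.le
      exact_mod_cast card_le_card fun t ht => by
        rw [mem_filter] at ht ⊢
        exact ⟨ht.1, covA_of_covt hQ hW.le (by omega) (le_max_right _ _) hγ2 h0 ht.2⟩
  have hA0 : 0 ≤ ∑ x, S.Q x * (#{t ∈ range (S.F.P.T + σ) | covA S.F S.ln S.p S.Q u (max PB₀ PBT)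
      (γ' + s) γ gn lm0 (lm0 + M) (ps * dl) t x} : ℝ) :=
    sum_nonneg fun x _ => mul_nonneg (hQ.nonneg x) (Nat.cast_nonneg _)
  have h1 := close_num hA0 (by positivity) hθ (hR2 n g hg2 S u) le_rfl
    (rowsum_le S (by omega) hg3 u γ) hδ (Nat.cast_nonneg g) hθH
  refine le_trans ?_ h1
  have hl : 0 < log 2 := log_pos (by norm_num)
  have := mul_le_mul_of_nonneg_left hle hl.le
  linarith

end Vale.Agent.P065.H279
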