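import Vale.Agent.P065.H279.HRowsA
import Vale.Agent.P065.H819.RowFr5

/-!
# P065: the rows inequality from helper819's `rows_le` and the bound of the error terms (helper279)
-/

set_option autoImplicit false

open Finset Real

noncomputable section

namespace Vale.Agent.P065.H279

open Vale.Agent.P065.UB Vale.Agent.P065.Ent Vale.Agent.P065.H268 Vale.Agent.P065.H154
  Vale.Agent.P065.H806 Vale.Agent.P065.H819

section cov

variable {Ω : Type*} [Fintype Ω] {F : Fr Ω} {ln : Ω → Pt} {p : Prm}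

omit [Fintype Ω] in
lemma own_eq_bxF {u : ℝ} {a v : ℕ} {x : p.Col × Ω} (h : v ≤ F.T' x.2) :
    own F ln p u a v x = bxF F ln p u a v x := by
  unfold own bxF
  rw [Nf_alive h]

/-- the covered digits of `HRowsA` are the covered digits of the package ROWS -/
theorem covF_of_covA {Q : p.Col × Ω → ℝ} {ps u : ℝ} {a γ PB gn lm0 lm1 t : ℕ} {x : p.Col × Ω}
    (h : covA F ln p Q u PB a γ gn lm0 lm1 ps t x) :
    covF F ln p Q u PB γ 0 a gn lm0 lm1 ps t x := by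
  obtain ⟨lm, v, h1, h2, h3, h4, h5, h6, h7⟩ := h
  have hv : t + 1 + lm - γ = v := by omega
  have hT : v ≤ F.T' x.2 := by omega
  rw [own_eq_bxF hT] at h5
  rw [Nf_alive hT] at h7
  refine ⟨lm, mem_Icc.2 ⟨h1, h2⟩, ⟨by omega, ?_, ?_, ?_⟩, ?_⟩
  · rw [hv]
    exact h4
  · rw [hv, zero_add, add_zero]
    exact h6
  · rw [hv]
    exact h7
  · rw [hv]
    exact ⟨h5.1, h5.2⟩

end cov

/-- **the error terms of ROWS are paid** (helper987) -/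
def RowsErr : Prop := ∀ (B₀ K₁ lm0 lm1 a gn : ℕ) (c₂ ρ ε₂ e δ ps : ℝ), 2 ≤ B₀ → 1 ≤ K₁ → 0 < e →
  0 < δ → 0 < ps → ps ≤ 1 → 6 ≤ lm0 → lm0 ≤ lm1 → lm1 + 5 ≤ a → 1 ≤ gn →
  ∃ κ e' : ℝ, 0 < κ ∧ κ < 1 ∧ 0 < e' ∧ ∀ PC PY PB γ PP Γ σ Λ kN : ℕ, PY ≤ PB → ∃ g₁ : ℕ,
    ∀ n g : ℕ, g₁ ≤ g → ∀ S : Sys B₀ K₁ PP Γ σ Λ kN c₂ ρ ε₂ e n g, ∀ u : ℝ,
      log 2 * errT S.F S.ln S.p S.μ S.Q u PB PC PY γ 0 a gn 9 lm0 lm1 κ e' ps (S.F.P.T + σ) ≤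
        δ * g

open Classical in
/-- **the rows inequality** -/
theorem rowsIneq_of
    (hQH : ∀ {B₀ K₁ PP Γ σ Λ kN : ℕ} {c₂ ρ ε₂ e : ℝ} {n g : ℕ}
      (S : Sys B₀ K₁ PP Γ σ Λ kN c₂ ρ ε₂ e n g), 1 ≤ g → QH S.F S.ln S.p S.μ S.Q 9)
    (hErr : RowsErr) : RowsIneq := by
  intro B₀ K₁ lm0 lm1 a gn c₂ ρ ε₂ e δ ps hB hK he hδ hps hps1 hl0 hl1 ha hgn
  obtain ⟨κ, e', hκ, hκ1, he', h⟩ := hErr B₀ K₁ lm0 lm1 a gn c₂ ρ ε₂ e δ ps hB hK he hδ hps hps1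
    hl0 hl1 ha hgn
  set N : ℕ := a + 2 * 9 + 2 * gn + 10 with hN
  refine ⟨N, lm1 + N, N, fun PB hPB γ hγ PP hPP Γ σ _ _ _ Λ kN => ?_⟩
  obtain ⟨g₁, h⟩ := h N N PB γ PP Γ σ Λ kN hPB
  refine ⟨max g₁ 1, fun n g hg S u => ?_⟩
  have hg1 : g₁ ≤ g := (le_max_left _ _).trans hg
  have hg2 : 1 ≤ g := (le_max_right _ _).trans hg
  have h1 := h n g hg1 S u
  have hR : RH S.p PB γ 0 a gn lm0 lm1 9 N N :=
    { h0 := hl0
      h1 := by omega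
      hPP := by rw [S.PP_eq]; exact hPP
      hPC := le_rfl
      hPY := le_rfl
      hPB := hPB
      hdd := by omega }
  have h2 := rows_le hR (hQH S hg2) u hps hps1 hκ hκ1 he' (S.F.P.T + σ)
  have hQ := S.probQ hg2
  have hle : ∑ x, S.Q x * (#{t ∈ range (S.F.P.T + σ) | covA S.F S.ln S.p S.Q u PB a γ gn lm0 lm1
      ps t x} : ℝ) ≤ ∑ x, S.Q x * (#{t ∈ range (S.F.P.T + σ) | covF S.F S.ln S.p S.Q u PB γ 0 a gn
        lm0 lm1 ps t x} : ℝ) := by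
    refine sum_le_sum fun x _ => mul_le_mul_of_nonneg_left ?_ (hQ.nonneg x)
    exact_mod_cast card_le_card fun t ht => by
      rw [mem_filter] at ht ⊢
      exact ⟨ht.1, covF_of_covA ht.2⟩
  have hθ : (0 : ℝ) ≤ 1 - 128 / 2 ^ lm0 ∨ (1 : ℝ) - 128 / 2 ^ lm0 ≤ 0 := le_total _ _
  have hl : 0 < log 2 := log_pos (by norm_num)
  rcases hθ with hθ | hθ
  · have h3 := mul_le_mul_of_nonneg_left hle hθ
    nlinarith
  · -- then the left side is at most zero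
    have hA0 : 0 ≤ ∑ x, S.Q x * (#{t ∈ range (S.F.P.T + σ) | covA S.F S.ln S.p S.Q u PB a γ gn
        lm0 lm1 ps t x} : ℝ) := sum_nonneg fun x _ => mul_nonneg (hQ.nonneg x) (Nat.cast_nonneg _)
    have h4 : 0 ≤ ∑ t ∈ range (S.F.P.T + σ), Hc S.Q (Rt S.F S.ln S.p u γ (t + 1))
        (fun x => (S.F.D u (t + 1) x.2, Rt S.F S.ln S.p u γ t x)) :=
      sum_nonneg fun t _ => Hc_nonneg hQ _ _
    have h5 : (1 - 128 / 2 ^ lm0) * ∑ x, S.Q x * (#{t ∈ range (S.F.P.T + σ) | covA S.F S.ln S.p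
        S.Q u PB a γ gn lm0 lm1 ps t x} : ℝ) ≤ 0 := mul_nonpos_of_nonpos_of_nonneg hθ hA0
    have h6 : log 2 * ((1 - 128 / 2 ^ lm0) * ∑ x, S.Q x * (#{t ∈ range (S.F.P.T + σ) |
        covA S.F S.ln S.p S.Q u PB a γ gn lm0 lm1 ps t x} : ℝ)) ≤ 0 :=
      mul_nonpos_of_nonneg_of_nonpos hl.le h5
    have h7 : (0 : ℝ) ≤ δ * g := by positivity
    linarith

end Vale.Agent.P065.H279
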