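import Vale.Agent.P065.H279.HRowsB
import Vale.Agent.P065.H987.RowsSys

/-!
# P065: the input `HRows` of case (II) (helper279): `rows_sys` (helper819, helper987) and
`near_covt`
-/

set_option autoImplicit false

open Finset Real

noncomputable section

namespace Vale.Agent.P065.H279

open Vale.Agent.P065.UB Vale.Agent.P065.Ent Vale.Agent.P065.H268 Vale.Agent.P065.H154
  Vale.Agent.P065.H806 Vale.Agent.P065.H819

open Classical in
/-- **inputs `hrows` and `hnear`** -/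
theorem hrowsP : HRows := by
  intro B₀ K₁ γ' PBT M c₂ ρ ε₂ e δ ps hB hK he hδ hps hps4
  obtain ⟨L0, hR⟩ := H987.rows_sys B₀ e δ (by omega) he.le hδ
  set lm0 : ℕ := max L0 (max γ' 6) with hlm0
  have hl0 : L0 ≤ lm0 := le_max_left _ _
  have hl1 : γ' ≤ lm0 := le_trans (le_max_left _ _) (le_max_right _ _)
  have hl2 : 6 ≤ lm0 := le_trans (le_max_right _ _) (le_max_right _ _)
  set m : ℕ := 2 ^ (lm0 + M + 2 - γ') with hm
  have hW : 4 * 2 ^ (lm0 + M) = m * 2 ^ γ' := by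
    rw [hm, ← pow_add, show lm0 + M + 2 - γ' + γ' = lm0 + M + 2 by omega, pow_add]
    ring
  obtain ⟨s₀, gn₀, hN⟩ := near_covt B₀ K₁ γ' M m c₂ ρ ε₂ e δ ps hB he hδ hps
  set s : ℕ := max s₀ (lm0 + M + 5) with hs
  obtain ⟨dl, hdl0, hdl1, hN⟩ := hN s (le_max_left _ _)
  set gn : ℕ := max gn₀ 1 with hgn
  have hgn1 : 1 ≤ gn := le_max_right _ _
  have hN' := hN dl hdl0 le_rfl gn (le_max_left _ _)
  have ha : lm0 + M + 5 ≤ γ' + s := by
    have := le_max_right s₀ (lm0 + M + 5)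
    omega
  have hpd : ps * dl ≤ 1 := by nlinarith
  set N : ℕ := γ' + s + 18 + 2 * gn + 10 with hNd
  have hR' := hR lm0 hl0 (lm0 + M) (γ' + s) gn (ps * dl) (by omega) (mul_pos hps hdl0) hpd
  set PB : ℕ := max N PBT with hPB
  set γ : ℕ := lm0 + M + N with hγ
  have hγ1 : γ' ≤ γ := by omega
  refine ⟨PB, le_max_right _ _, γ, hγ1, N, γ, γ, le_rfl, le_rfl,
    fun PP hPP Γ hΓ σ hσ Λ kN => ?_⟩
  obtain ⟨g₁, hN2⟩ := hN' PB γ lm0 PP Γ σ Λ kN (by omega)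
  obtain ⟨g₂, hR2⟩ := hR' PB γ 0 (le_max_left _ _) (by omega) K₁ PP Γ σ Λ kN c₂ ρ ε₂ hPP
  refine ⟨max (max g₁ g₂) 1, fun n g hg S => ?_⟩
  have hg1 : g₁ ≤ g := le_trans (le_trans (le_max_left _ _) (le_max_left _ _)) hg
  have hg2 : g₂ ≤ g := le_trans (le_trans (le_max_right _ _) (le_max_left _ _)) hg
  have hg3 : 1 ≤ g := le_trans (le_max_right _ _) hg
  obtain ⟨Fn, hF0, hFA, hN3⟩ := hN2 n g hg1 S
  refine ⟨Fn, hF0, hFA, fun u => ?_⟩
  obtain ⟨hdet, hnear⟩ := hN3 u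
  refine ⟨fun x => (#{t ∈ range (S.F.P.T + σ) | covt S.F S.ln S.p S.Q (ps * dl) u (γ' + s) γ
    PB (m * 2 ^ γ') gn lm0 (lm0 + M) t x} : ℝ), hdet, ?_, hnear⟩
  have hQ := S.probQ hg3
  have hle : ∑ x, S.Q x * (#{t ∈ range (S.F.P.T + σ) | covt S.F S.ln S.p S.Q (ps * dl) u (γ' + s) γ
      PB (m * 2 ^ γ') gn lm0 (lm0 + M) t x} : ℝ) ≤
      ∑ x, S.Q x * (#{t ∈ range (S.F.P.T + σ) | covF S.F S.ln S.p S.Q u PB γ 0 (γ' + s)
        gn lm0 (lm0 + M) (ps * dl) t x} : ℝ) := by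
    refine sum_le_sum fun x _ => ?_
    rcases (hQ.nonneg x).eq_or_lt with h0 | h0
    · rw [← h0, zero_mul, zero_mul]
    · refine mul_le_mul_of_nonneg_left ?_ h0.le
      exact_mod_cast card_le_card fun t ht => by
        rw [mem_filter] at ht ⊢
        exact ⟨ht.1, covF_of_covA (covA_of_covt hQ hW.le (by omega) hgn1 (by omega) h0 ht.2)⟩
  have h1 := hR2 n g hg2 S u
  refine le_trans ?_ h1
  have hl : 0 < log 2 := log_pos (by norm_num)
  have := mul_le_mul_of_nonneg_left hle hl.le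
  linarith

end Vale.Agent.P065.H279
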