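import Vale.Agent.P065.H587.Ent

/-!
# P065, row offset lemmas (helper279)

`cl b e i w = floor ((b w + i) / 2^e)` : index of the row cell of height `2^e` (in finest units)
with the offset `i`, `i < 2^M` uniform.  The rows of height `2^(e+g)` are groups of `2^g` cells.
For a fixed flag `y` the event that the cell of `y` has position `q` in its row only depends on the
digits of the offset above `2^e`; the masses of the windows around `y` only depend on the digits
below.  Windows `[-q,+p]` around the cell of `y` are nested in the level, so the log ratios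
telescope.  No independence of thickness and no maximal inequality is needed.
-/

set_option autoImplicit false

open Finset Real

noncomputable section

namespace Vale.Agent.P065.H279

open Vale.Agent.P065.Ent

/-! ### Digits -/

lemma sum_range_shift (g : ℕ → ℝ) (P : ℕ) (hg : ∀ i, g (i + P) = g i) (k : ℕ) :
    ∑ i ∈ range P, g (i + k) = ∑ i ∈ range P, g i := by
  induction k with
  | zero => simp
  | succ k ih =>
    have h1 : ∑ i ∈ range (P + 1), g (i + k) = ∑ i ∈ range P, g (i + k) + g (P + k) :=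
      sum_range_succ _ _
    have h2 : ∑ i ∈ range (P + 1), g (i + k) = ∑ i ∈ range P, g (i + 1 + k) + g (0 + k) :=
      sum_range_succ' _ _
    have h3 : g (P + k) = g (0 + k) := by
      rw [show P + k = k + P by omega, hg]; simp
    have h4 : ∑ i ∈ range P, g (i + (k + 1)) = ∑ i ∈ range P, g (i + 1 + k) :=
      sum_congr rfl fun i _ => by rw [show i + (k + 1) = i + 1 + k by omega]
    rw [h4, ← ih]
    linarith

/-- the number of `k < n` with `(B + k) % n = r` is one -/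
lemma sum_mod_one (n : ℕ) (hn : 0 < n) (B r : ℤ) (h0 : 0 ≤ r) (h1 : r < n) :
    ∑ k ∈ range n, (if (B + (k : ℤ)) % (n : ℤ) = r then (1 : ℝ) else 0) = 1 := by
  have hn' : (0 : ℤ) < n := by exact_mod_cast hn
  have hk : (((r - B) % (n : ℤ)).toNat : ℤ) = (r - B) % n :=
    Int.toNat_of_nonneg (Int.emod_nonneg _ hn'.ne')
  rw [sum_eq_single ((r - B) % (n : ℤ)).toNat]
  · rw [if_pos]
    rw [hk]
    have h : B + (r - B) % (n : ℤ) ≡ r [ZMOD n] := by
      have := (Int.mod_modEq (r - B) n).add_left B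
      rwa [show B + (r - B) = r by ring] at this
    rw [h.eq]
    exact Int.emod_eq_of_lt h0 h1
  · intro k hk' hne
    rw [if_neg]
    intro h
    apply hne
    have hkn : (k : ℤ) < n := by exact_mod_cast mem_range.1 hk'
    have h2 : (r - B) % (n : ℤ) = k := by
      have h3 : B + (k : ℤ) ≡ r [ZMOD n] := by
        unfold Int.ModEq
        rw [h, Int.emod_eq_of_lt h0 h1]
      have h4 : (k : ℤ) ≡ r - B [ZMOD n] := by
        have := h3.sub_right B
        rwa [show B + (k : ℤ) - B = k by ring] at this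
      rw [← h4.eq]
      exact Int.emod_eq_of_lt (by positivity) hkn
    rw [h2]
    simp
  · intro h
    exfalso
    apply h
    rw [mem_range]
    have h3 : (r - B) % (n : ℤ) < n := Int.emod_lt_of_pos _ hn'
    omega

/-- averaging over the high digits: `f` depends on `i mod 2^a`, the digits `a .. a+c-1` of `b + i`
have one given value out of `2^c` -/
theorem sum_digits (a c M : ℕ) (hM : a + c ≤ M) (f : ℕ → ℝ)
    (hf : ∀ i j, i < 2 ^ M → j < 2 ^ M → i % 2 ^ a = j % 2 ^ a → f i = f j) (b r : ℤ)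
    (h0 : 0 ≤ r) (h1 : r < 2 ^ c) :
    ∑ i ∈ range (2 ^ M), (if ((b + (i : ℤ)) / 2 ^ a) % 2 ^ c = r then f i else 0)
      = (2 ^ c : ℝ)⁻¹ * ∑ i ∈ range (2 ^ M), f i := by
  set f' : ℕ → ℝ := fun i => f (i % 2 ^ M) with hf'
  have hp : 0 < 2 ^ M := by positivity
  have hdvd : 2 ^ a ∣ 2 ^ M := pow_dvd_pow 2 (by omega)
  have hff : ∀ i, f' (i + 2 ^ a) = f' i := by
    intro i
    apply hf _ _ (Nat.mod_lt _ hp) (Nat.mod_lt _ hp)
    rw [Nat.mod_mod_of_dvd _ hdvd, Nat.mod_mod_of_dvd _ hdvd, Nat.add_mod_right]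
  have hfM : ∀ i, f' (i + 2 ^ M) = f' i := fun i => by simp [hf']
  have hfr : ∀ i ∈ range (2 ^ M), f i = f' i := fun i hi => by
    simp only [hf', Nat.mod_eq_of_lt (mem_range.1 hi)]
  have e1 : ∑ i ∈ range (2 ^ M), (if ((b + (i : ℤ)) / 2 ^ a) % 2 ^ c = r then f i else 0)
      = ∑ i ∈ range (2 ^ M), (if ((b + (i : ℤ)) / 2 ^ a) % 2 ^ c = r then f' i else 0) :=
    sum_congr rfl fun i hi => by rw [hfr i hi]
  rw [e1, sum_congr rfl hfr]
  have hper : ∀ i : ℕ, (if ((b + ((i + 2 ^ M : ℕ) : ℤ)) / 2 ^ a) % 2 ^ c = r then f' (i + 2 ^ M)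
      else 0) = (if ((b + (i : ℤ)) / 2 ^ a) % 2 ^ c = r then f' i else 0) := by
    intro i
    rw [hfM]
    obtain ⟨d, rfl⟩ : ∃ d, M = a + c + d := ⟨M - (a + c), by omega⟩
    have : (b + ((i + 2 ^ (a + c + d) : ℕ) : ℤ)) / 2 ^ a = (b + (i : ℤ)) / 2 ^ a + 2 ^ c * 2 ^ d := by
      push_cast
      rw [show b + ((i : ℤ) + 2 ^ (a + c + d)) = (b + i) + 2 ^ a * (2 ^ c * 2 ^ d) by ring]
      rw [Int.add_mul_ediv_left _ _ (by positivity)]
    rw [this, Int.add_mul_emod_self_left]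
  have key : ∀ k : ℕ, ∑ i ∈ range (2 ^ M), (if ((b + (i : ℤ)) / 2 ^ a) % 2 ^ c = r then f' i else 0)
      = ∑ i ∈ range (2 ^ M), (if ((b + (i : ℤ)) / 2 ^ a + k) % 2 ^ c = r then f' i else 0) := by
    intro k
    rw [← sum_range_shift (fun i => if ((b + (i : ℤ)) / 2 ^ a) % 2 ^ c = r then f' i else 0)
      (2 ^ M) hper (k * 2 ^ a)]
    apply sum_congr rfl
    intro i _
    have h2 : f' (i + k * 2 ^ a) = f' i := by
      clear e1
      induction k with
      | zero => simp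
      | succ k ih => rw [show i + (k + 1) * 2 ^ a = (i + k * 2 ^ a) + 2 ^ a by ring, hff, ih]
    have h3 : (b + ((i + k * 2 ^ a : ℕ) : ℤ)) / 2 ^ a = (b + (i : ℤ)) / 2 ^ a + k := by
      push_cast
      rw [show b + ((i : ℤ) + k * 2 ^ a) = (b + i) + 2 ^ a * k by ring,
        Int.add_mul_ediv_left _ _ (by positivity)]
    simp only [h2, h3]
  have h5 : (2 ^ c : ℝ) * ∑ i ∈ range (2 ^ M),
      (if ((b + (i : ℤ)) / 2 ^ a) % 2 ^ c = r then f' i else 0) = ∑ i ∈ range (2 ^ M), f' i := by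
    have : (2 ^ c : ℝ) * ∑ i ∈ range (2 ^ M),
      (if ((b + (i : ℤ)) / 2 ^ a) % 2 ^ c = r then f' i else 0)
      = ∑ k ∈ range (2 ^ c), ∑ i ∈ range (2 ^ M),
        (if ((b + (i : ℤ)) / 2 ^ a + (k : ℤ)) % 2 ^ c = r then f' i else 0) := by
      rw [← sum_congr rfl fun k _ => key k, sum_const, card_range, nsmul_eq_mul]
      push_cast
      rfl
    rw [this, sum_comm]
    apply sum_congr rfl
    intro i _
    have h6 := sum_mod_one (2 ^ c) (by positivity) ((b + (i : ℤ)) / 2 ^ a) r h0 (by exact_mod_cast h1)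
    push_cast at h6
    calc ∑ k ∈ range (2 ^ c), (if ((b + (i : ℤ)) / 2 ^ a + (k : ℤ)) % 2 ^ c = r then f' i else 0)
        = ∑ k ∈ range (2 ^ c), f' i *
          (if ((b + (i : ℤ)) / 2 ^ a + (k : ℤ)) % 2 ^ c = r then (1 : ℝ) else 0) := by
          apply sum_congr rfl; intro k _; split_ifs <;> simp
      _ = f' i := by rw [← mul_sum, h6, mul_one]
  rw [← h5]
  field_simp

/-! ### Telescoping -/

/-- telescoping with multiplicity `s` -/
lemma tele (F G : ℕ → ℝ) (s τ : ℕ) (E : ℝ) (hF : ∀ t, t < τ → F (t + 1) ≤ F t)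
    (hG : ∀ t, t + s ≤ τ → F (t + s) ≤ G t) (hE : E ≤ F τ) (hGE : ∀ t, t < τ → E ≤ G t) :
    ∑ t ∈ range τ, (F t - G t) ≤ s * (F 0 - E) := by
  have hFanti : ∀ d t, t + d ≤ τ → F (t + d) ≤ F t := by
    intro d
    induction d with
    | zero => intro t _; simp
    | succ d ih =>
      intro t ht
      calc F (t + (d + 1)) = F ((t + d) + 1) := by rw [add_assoc]
        _ ≤ F (t + d) := hF _ (by omega)
        _ ≤ F t := ih t (by omega)
  have hEF : ∀ t, t ≤ τ → E ≤ F t := fun t ht => by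
    have := hFanti (τ - t) t (by omega)
    rw [show t + (τ - t) = τ by omega] at this
    linarith
  set F' : ℕ → ℝ := fun u => if u ≤ τ then F u else E with hF'
  have hF'E : ∀ u, E ≤ F' u := fun u => by
    simp only [hF']; split_ifs with h
    · exact hEF u h
    · exact le_refl _
  have hF'anti : ∀ u, F' (u + 1) ≤ F' u := fun u => by
    by_cases h : u + 1 ≤ τ
    · simp only [hF', if_pos h, if_pos (show u ≤ τ by omega)]
      exact hF u (by omega)
    · have : F' (u + 1) = E := by simp only [hF', if_neg h]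
      rw [this]; exact hF'E u
  have hanti : Antitone F' := antitone_nat_of_succ_le hF'anti
  have h1 : ∑ t ∈ range τ, (F t - G t) ≤ ∑ t ∈ range τ, (F' t - F' (t + s)) := by
    apply sum_le_sum
    intro t ht
    have ht' := mem_range.1 ht
    have e1 : F' t = F t := by simp only [hF', if_pos (show t ≤ τ by omega)]
    have e2 : F' (t + s) ≤ G t := by
      simp only [hF']
      split_ifs with h
      · exact hG t h
      · exact hGE t ht'
    rw [e1]; linarith
  refine h1.trans ?_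
  have h2 : ∀ s : ℕ, ∑ t ∈ range τ, (F' t - F' (t + s)) ≤ s * (F' 0 - E) := by
    intro s
    induction s with
    | zero => simp
    | succ s ih =>
      have e : ∑ t ∈ range τ, (F' t - F' (t + (s + 1))) = ∑ t ∈ range τ, (F' t - F' (t + s))
          + ∑ t ∈ range τ, (F' (t + s) - F' (t + s + 1)) := by
        rw [← sum_add_distrib]
        apply sum_congr rfl; intro t _
        rw [show t + (s + 1) = t + s + 1 by omega]; ring
      have e2 : ∑ t ∈ range τ, (F' (t + s) - F' (t + s + 1)) = F' s - F' (τ + s) := by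
        have := sum_range_sub' (fun t => F' (t + s)) τ
        simp only [zero_add] at this
        rw [← this]
        apply sum_congr rfl; intro t _
        rw [show t + s + 1 = t + 1 + s by omega]
      rw [e, e2]
      have := hF'E (τ + s)
      have h3 : F' s ≤ F' 0 := hanti (Nat.zero_le _)
      push_cast
      linarith
  have h0 : F' 0 = F 0 := by simp [hF']
  rw [← h0]
  exact h2 s

/-! ### Masses, cells, windows -/

section win

variable {Ω : Type*} [Fintype Ω] {δ δ' : Type*}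

open Classical in
/-- mass of a set -/
def ms (μ : Ω → ℝ) (A : Ω → Prop) : ℝ := ∑ ω, if A ω then μ ω else 0

lemma Pr_eq_ms (μ : Ω → ℝ) (X : Ω → δ) (x : δ) : Pr μ X x = ms μ (fun ω => X ω = x) := rfl

lemma ms_mono {μ : Ω → ℝ} (h0 : ∀ ω, 0 ≤ μ ω) {A B : Ω → Prop} (h : ∀ ω, A ω → B ω) :
    ms μ A ≤ ms μ B := by
  unfold ms
  apply sum_le_sum
  intro ω _
  split_ifs with h1 h2
  · exact le_refl _
  · exact absurd (h ω h1) h2
  · exact h0 ω
  · exact le_refl _

lemma ms_congr {μ : Ω → ℝ} {A B : Ω → Prop} (h : ∀ ω, A ω ↔ B ω) : ms μ A = ms μ B := by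
  have : A = B := funext fun ω => propext (h ω)
  rw [this]

lemma ms_nonneg {μ : Ω → ℝ} (h0 : ∀ ω, 0 ≤ μ ω) (A : Ω → Prop) : 0 ≤ ms μ A :=
  sum_nonneg fun ω _ => by split_ifs; exacts [h0 ω, le_refl _]

lemma ms_pos {μ : Ω → ℝ} (h0 : ∀ ω, 0 ≤ μ ω) {A : Ω → Prop} {y : Ω} (hy : 0 < μ y) (hA : A y) :
    0 < ms μ A := by
  refine lt_of_lt_of_le hy ?_
  unfold ms
  have := single_le_sum (f := fun ω => @ite _ (A ω) (Classical.propDecidable _) (μ ω) 0)
    (fun ω _ => by split_ifs; exacts [h0 ω, le_refl _]) (mem_univ y)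
  simpa only [if_pos hA] using this

lemma ms_add (μ : Ω → ℝ) {A B C : Ω → Prop} (h : ∀ ω, C ω ↔ A ω ∨ B ω)
    (hd : ∀ ω, A ω → ¬ B ω) : ms μ C = ms μ A + ms μ B := by
  unfold ms
  rw [← sum_add_distrib]
  apply sum_congr rfl
  intro ω _
  by_cases hA : A ω
  · rw [if_pos hA, if_neg (hd ω hA), if_pos ((h ω).2 (Or.inl hA)), add_zero]
  · by_cases hB : B ω
    · rw [if_neg hA, if_pos hB, if_pos ((h ω).2 (Or.inr hB)), zero_add]
    · rw [if_neg hA, if_neg hB, if_neg, add_zero]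
      intro hC; exact ((h ω).1 hC).elim hA hB

/-- index of the cell of height `2^e` with the offset `i` -/
def cl (b : Ω → ℤ) (e i : ℕ) (ω : Ω) : ℤ := (b ω + (i : ℤ)) / 2 ^ e

omit [Fintype Ω] in
lemma cl_add (b : Ω → ℤ) (e g i : ℕ) (ω : Ω) : cl b (e + g) i ω = cl b e i ω / 2 ^ g := by
  unfold cl
  rw [pow_add, ← Int.ediv_ediv_of_nonneg (by positivity)]

/-- window `[-q, +p]` around the cell of `y`, inside the class of `y` for `X` -/
def wn (X : Ω → δ) (b : Ω → ℤ) (e : ℕ) (y : Ω) (q p i : ℕ) (ω : Ω) : Prop :=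
  X ω = X y ∧ cl b e i y - q ≤ cl b e i ω ∧ cl b e i ω ≤ cl b e i y + p

omit [Fintype Ω] in
lemma wn_self (X : Ω → δ) (b : Ω → ℤ) (e : ℕ) (y : Ω) (q p i : ℕ) : wn X b e y q p i y :=
  ⟨rfl, by omega, by omega⟩

omit [Fintype Ω] in
lemma wn_wide {X : Ω → δ} {b : Ω → ℤ} {e : ℕ} {y ω : Ω} {q p q' p' i : ℕ} (hq : q ≤ q')
    (hp : p ≤ p') (h : wn X b e y q p i ω) : wn X b e y q' p' i ω :=
  ⟨h.1, by have := h.2.1; omega, by have := h.2.2; omega⟩

omit [Fintype Ω] in
/-- windows are nested in the level -/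
lemma wn_nest {X : Ω → δ} {X' : Ω → δ'} {b : Ω → ℤ} {e e' : ℕ} {y ω : Ω} {q p i : ℕ}
    (hX : X' ω = X' y → X ω = X y) (he : e' ≤ e) (h : wn X' b e' y q p i ω) :
    wn X b e y q p i ω := by
  obtain ⟨d, rfl⟩ : ∃ d, e = e' + d := ⟨e - e', by omega⟩
  have hd : (0 : ℤ) < 2 ^ d := by positivity
  have hd1 : (1 : ℤ) ≤ 2 ^ d := by omega
  refine ⟨hX h.1, ?_, ?_⟩
  · rw [cl_add, cl_add]
    have h1 : (cl b e' i y - q * 2 ^ d) / 2 ^ d ≤ cl b e' i ω / 2 ^ d := by
      apply Int.ediv_le_ediv hd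
      have := h.2.1
      nlinarith
    have h2 : (cl b e' i y - q * 2 ^ d) / 2 ^ d = cl b e' i y / 2 ^ d - q := by
      rw [sub_eq_add_neg, ← neg_mul, Int.add_mul_ediv_right _ _ hd.ne']
      ring
    omega
  · rw [cl_add, cl_add]
    have h1 : cl b e' i ω / 2 ^ d ≤ (cl b e' i y + p * 2 ^ d) / 2 ^ d := by
      apply Int.ediv_le_ediv hd
      have := h.2.2
      nlinarith
    have h2 : (cl b e' i y + p * 2 ^ d) / 2 ^ d = cl b e' i y / 2 ^ d + p :=
      Int.add_mul_ediv_right _ _ hd.ne'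
    omega

omit [Fintype Ω] in
/-- `g` levels deeper the wide windows are inside the window `[-0,+1]` resp. `[-1,+0]` -/
lemma wn_deep {X : Ω → δ} {X' : Ω → δ'} {b : Ω → ℤ} {e e' g : ℕ} {y ω : Ω} {q p i : ℕ}
    (hX : X' ω = X' y → X ω = X y) (he : e' + g ≤ e) (hq : q ≤ 2 ^ g) (hp : p ≤ 2 ^ g)
    (h : wn X' b e' y q p i ω) :
    wn X b e y (min q 1) (min p 1) i ω := by
  obtain ⟨d, rfl⟩ : ∃ d, e = e' + (g + d) := ⟨e - e' - g, by omega⟩
  have hd : (0 : ℤ) < 2 ^ (g + d) := by positivity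
  have hgd : (2 : ℤ) ^ g ≤ 2 ^ (g + d) := by
    rw [pow_add]
    have h1 : (1 : ℤ) ≤ 2 ^ d := by have : (0 : ℤ) < 2 ^ d := by positivity
                                    omega
    have h2 : (0 : ℤ) < 2 ^ g := by positivity
    nlinarith
  have hq' : (q : ℤ) ≤ 2 ^ g := by exact_mod_cast hq
  have hp' : (p : ℤ) ≤ 2 ^ g := by exact_mod_cast hp
  refine ⟨hX h.1, ?_, ?_⟩
  · rw [cl_add, cl_add]
    have h1 : (cl b e' i y + (-((min q 1 : ℕ) : ℤ)) * 2 ^ (g + d)) / 2 ^ (g + d)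
        ≤ cl b e' i ω / 2 ^ (g + d) := by
      apply Int.ediv_le_ediv hd
      have := h.2.1
      rcases Nat.eq_zero_or_pos q with h0 | h0
      · subst h0; simpa using this
      · rw [min_eq_right (by omega)]; push_cast; linarith
    rw [Int.add_mul_ediv_right _ _ hd.ne'] at h1
    omega
  · rw [cl_add, cl_add]
    have h1 : cl b e' i ω / 2 ^ (g + d)
        ≤ (cl b e' i y + ((min p 1 : ℕ) : ℤ) * 2 ^ (g + d)) / 2 ^ (g + d) := by
      apply Int.ediv_le_ediv hd
      have := h.2.2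
      rcases Nat.eq_zero_or_pos p with h0 | h0
      · subst h0; simpa using this
      · rw [min_eq_right (by omega)]; push_cast; linarith
    rw [Int.add_mul_ediv_right _ _ hd.ne'] at h1
    omega

omit [Fintype Ω] in
/-- the row of `y` is the window of `2^g` cells determined by the position of `y` -/
lemma wn_row {X : Ω → δ} {b : Ω → ℤ} {e g : ℕ} {y ω : Ω} {q i : ℕ} (hq : cl b e i y % 2 ^ g = q)
    (hq' : q < 2 ^ g) :
    wn X b e y q (2 ^ g - 1 - q) i ω ↔ X ω = X y ∧ cl b (e + g) i ω = cl b (e + g) i y := by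
  have hg : (0 : ℤ) < 2 ^ g := by positivity
  have hc : ((2 ^ g - 1 - q : ℕ) : ℤ) = 2 ^ g - 1 - q := by
    have h1 : 1 ≤ 2 ^ g := Nat.one_le_two_pow
    have h2 : q ≤ 2 ^ g - 1 := by omega
    rw [Nat.cast_sub h2, Nat.cast_sub h1]
    push_cast; ring
  unfold wn
  rw [cl_add, cl_add, hc]
  have e1 := Int.emod_add_mul_ediv (cl b e i y) (2 ^ g)
  have e2 := Int.emod_add_mul_ediv (cl b e i ω) (2 ^ g)
  have e3 := Int.emod_nonneg (cl b e i ω) hg.ne'
  have e4 := Int.emod_lt_of_pos (cl b e i ω) hg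
  rw [hq] at e1
  have hq2 : (q : ℤ) < 2 ^ g := by exact_mod_cast hq'
  constructor
  · rintro ⟨h, h1, h2⟩
    refine ⟨h, ?_⟩
    have h3 : cl b e i ω / 2 ^ g < cl b e i y / 2 ^ g + 1 := by
      by_contra hcon
      push Not at hcon
      have : (2 : ℤ) ^ g * (cl b e i y / 2 ^ g + 1) ≤ 2 ^ g * (cl b e i ω / 2 ^ g) :=
        mul_le_mul_of_nonneg_left hcon hg.le
      nlinarith
    have h4 : cl b e i y / 2 ^ g < cl b e i ω / 2 ^ g + 1 := by
      by_contra hcon
      push Not at hcon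
      have : (2 : ℤ) ^ g * (cl b e i ω / 2 ^ g + 1) ≤ 2 ^ g * (cl b e i y / 2 ^ g) :=
        mul_le_mul_of_nonneg_left hcon hg.le
      nlinarith
    omega
  · rintro ⟨h, h1⟩
    rw [h1] at e2
    refine ⟨h, ?_, ?_⟩ <;> omega

omit [Fintype Ω] in
lemma cl_shift {b : Ω → ℤ} {e i j : ℕ} (h : i % 2 ^ e = j % 2 ^ e) (ω y : Ω) :
    cl b e i ω - cl b e i y = cl b e j ω - cl b e j y := by
  have hpos : (2 : ℤ) ^ e ≠ 0 := by positivity
  have h1 : (i : ℤ) = (j : ℤ) + 2 ^ e * ((i / 2 ^ e : ℕ) - (j / 2 ^ e : ℕ) : ℤ) := by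
    have a1 := Nat.mod_add_div i (2 ^ e)
    have a2 := Nat.mod_add_div j (2 ^ e)
    have a3 : ((i % 2 ^ e + 2 ^ e * (i / 2 ^ e) : ℕ) : ℤ) = i := by rw [a1]
    have a4 : ((j % 2 ^ e + 2 ^ e * (j / 2 ^ e) : ℕ) : ℤ) = j := by rw [a2]
    rw [h] at a3
    push_cast at a3 a4 ⊢
    linarith
  have h2 : ∀ ω, cl b e i ω = cl b e j ω + ((i / 2 ^ e : ℕ) - (j / 2 ^ e : ℕ) : ℤ) := by
    intro ω
    unfold cl
    rw [h1, ← add_assoc, Int.add_mul_ediv_left _ _ hpos]
  rw [h2 ω, h2 y]; ring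

omit [Fintype Ω] in
lemma wn_per {X : Ω → δ} {b : Ω → ℤ} {e : ℕ} {y ω : Ω} {q p i j : ℕ}
    (h : i % 2 ^ e = j % 2 ^ e) : wn X b e y q p i ω ↔ wn X b e y q p j ω := by
  have := cl_shift (b := b) h ω y
  unfold wn
  constructor
  · rintro ⟨h1, h2, h3⟩; exact ⟨h1, by omega, by omega⟩
  · rintro ⟨h1, h2, h3⟩; exact ⟨h1, by omega, by omega⟩

/-! ### Own side: near content -/

lemma log_div_nonneg' {x y : ℝ} (hx : 0 < x) (h : x ≤ y) : 0 ≤ log (y / x) :=
  log_nonneg ((one_le_div hx).2 h)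

/-- for one offset: the surprises of the halves in the nested windows telescope -/
lemma sum_log_window {μ : Ω → ℝ} (h0 : ∀ ω, 0 ≤ μ ω) (D : ℕ → Ω → δ) (b : Ω → ℤ) (e : ℕ → ℕ)
    (y : Ω) (hy : 0 < μ y) (τ : ℕ) (hD : ∀ t, t < τ → ∀ ω, D (t + 1) ω = D (t + 1) y → D t ω = D t y)
    (he : ∀ t, t < τ → e (t + 1) ≤ e t) (q p i : ℕ) :
    ∑ t ∈ range τ, log (ms μ (wn (D t) b (e t) y q p i) /
        ms μ (fun ω => D (t + 1) ω = D (t + 1) y ∧ wn (D t) b (e t) y q p i ω))
      ≤ log (ms μ (wn (D 0) b (e 0) y q p i) / ms μ (wn (D τ) b (e τ) y q p i)) := by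
  induction τ with
  | zero =>
    have h1 : 0 < ms μ (wn (D 0) b (e 0) y q p i) := ms_pos h0 hy (wn_self _ _ _ _ _ _ _)
    simp [div_self h1.ne']
  | succ τ ih =>
    rw [sum_range_succ]
    have ih' := ih (fun t ht => hD t (by omega)) (fun t ht => he t (by omega))
    have p0 : 0 < ms μ (wn (D 0) b (e 0) y q p i) := ms_pos h0 hy (wn_self _ _ _ _ _ _ _)
    have p1 : 0 < ms μ (wn (D τ) b (e τ) y q p i) := ms_pos h0 hy (wn_self _ _ _ _ _ _ _)
    have p2 : 0 < ms μ (wn (D (τ + 1)) b (e (τ + 1)) y q p i) :=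
      ms_pos h0 hy (wn_self _ _ _ _ _ _ _)
    have p3 : 0 < ms μ (fun ω => D (τ + 1) ω = D (τ + 1) y ∧ wn (D τ) b (e τ) y q p i ω) :=
      ms_pos h0 hy ⟨rfl, wn_self _ _ _ _ _ _ _⟩
    have h1 : ms μ (wn (D (τ + 1)) b (e (τ + 1)) y q p i)
        ≤ ms μ (fun ω => D (τ + 1) ω = D (τ + 1) y ∧ wn (D τ) b (e τ) y q p i ω) :=
      ms_mono h0 fun ω h => ⟨h.1, wn_nest (hD τ (by omega) ω) (he τ (by omega)) h⟩
    have h2 : log (ms μ (wn (D (τ + 1)) b (e (τ + 1)) y q p i))
        ≤ log (ms μ (fun ω => D (τ + 1) ω = D (τ + 1) y ∧ wn (D τ) b (e τ) y q p i ω)) :=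
      log_le_log p2 h1
    rw [log_div p0.ne' p1.ne'] at ih'
    rw [log_div p1.ne' p3.ne', log_div p0.ne' p2.ne']
    linarith

/-- the surprise of the last cell of `y`, for one offset -/
def Lend (m : ℕ → Ω → ℝ) (D : ℕ → Ω → δ) (b : Ω → ℤ) (e : ℕ → ℕ) (τ : ℕ) (y : Ω) (i : ℕ) : ℝ :=
  log (Pr (m i) (D 0) (D 0 y) /
    Pr (m i) (fun ω => (D τ ω, cl b (e τ) i ω)) (D τ y, cl b (e τ) i y))

lemma Pr_pair_eq (μ : Ω → ℝ) (X : Ω → δ) (Y : Ω → δ') (y : Ω) :
    Pr μ (fun ω => (X ω, Y ω)) (X y, Y y) = ms μ (fun ω => X ω = X y ∧ Y ω = Y y) := by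
  rw [Pr_eq_ms]
  exact ms_congr fun ω => by rw [Prod.mk.injEq]

/-- the law inside the class of `y` at every splitting level only depends on the digits of the
offset below `e t` -/
def Per (M : ℕ) (m : ℕ → Ω → ℝ) (X : Ω → δ) (e : ℕ) (y : Ω) : Prop :=
  ∀ i j, i < 2 ^ M → j < 2 ^ M → i % 2 ^ e = j % 2 ^ e → ∀ ω, X ω = X y → m i ω = m j ω

lemma Per.ms {M : ℕ} {m : ℕ → Ω → ℝ} {X : Ω → δ} {e : ℕ} {y : Ω} (h : Per M m X e y)
    {i j : ℕ} (hi : i < 2 ^ M) (hj : j < 2 ^ M) (hij : i % 2 ^ e = j % 2 ^ e)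
    {A B : Ω → Prop} (hA : ∀ ω, A ω → X ω = X y) (hAB : ∀ ω, A ω ↔ B ω) :
    ms (m i) A = ms (m j) B := by
  rw [ms_congr (μ := m j) (fun ω => (hAB ω).symm)]
  unfold H279.ms
  apply sum_congr rfl
  intro ω _
  by_cases h1 : A ω
  · rw [if_pos h1, if_pos h1, h i j hi hj hij ω (hA ω h1)]
  · rw [if_neg h1, if_neg h1]

/-- **Near content, one position.** The own side surprise of the half of the time cell, on the
event that the cell of `y` has position `q` in its row, costs the factor `2^-g`. -/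
theorem near_pos (M g τ : ℕ) (m : ℕ → Ω → ℝ) (h0 : ∀ i ω, 0 ≤ m i ω) (D : ℕ → Ω → δ) (b : Ω → ℤ)
    (e : ℕ → ℕ) (y : Ω)
    (hD : ∀ t, t < τ → ∀ ω, D (t + 1) ω = D (t + 1) y → D t ω = D t y)
    (he : ∀ t, t < τ → e (t + 1) ≤ e t) (heM : ∀ t, t < τ → e t + g ≤ M)
    (hper : ∀ t, t < τ → (∀ ω, D t ω = D t y → D (t + 1) ω = D (t + 1) y) ∨
      Per M m (D t) (e t) y) (q : ℕ) (hq : q < 2 ^ g) :
    ∑ i ∈ range (2 ^ M), m i y * ∑ t ∈ range τ,
      (if cl b (e t) i y % 2 ^ g = (q : ℤ) then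
        log (Pr (m i) (fun ω => (D t ω, cl b (e t + g) i ω)) (D t y, cl b (e t + g) i y) /
          Pr (m i) (fun ω => (D (t + 1) ω, cl b (e t + g) i ω))
            (D (t + 1) y, cl b (e t + g) i y)) else 0)
      ≤ (2 ^ g : ℝ)⁻¹ * ∑ i ∈ range (2 ^ M), m i y * Lend m D b e τ y i := by
  set p := 2 ^ g - 1 - q with hp
  set Λ : ℕ → ℕ → ℝ := fun t i => log (ms (m i) (wn (D t) b (e t) y q p i) /
        ms (m i) (fun ω => D (t + 1) ω = D (t + 1) y ∧ wn (D t) b (e t) y q p i ω)) with hΛ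
  -- replace the row by the window
  have hrow : ∀ i t, t < τ → cl b (e t) i y % 2 ^ g = (q : ℤ) →
      log (Pr (m i) (fun ω => (D t ω, cl b (e t + g) i ω)) (D t y, cl b (e t + g) i y) /
          Pr (m i) (fun ω => (D (t + 1) ω, cl b (e t + g) i ω))
            (D (t + 1) y, cl b (e t + g) i y)) = Λ t i := by
    intro i t ht hc
    rw [Pr_pair_eq, Pr_pair_eq]
    simp only [hΛ]
    have r1 : ms (m i) (fun ω => D t ω = D t y ∧ cl b (e t + g) i ω = cl b (e t + g) i y)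
        = ms (m i) (wn (D t) b (e t) y q p i) :=
      ms_congr fun ω => (wn_row (X := D t) (ω := ω) hc hq).symm
    have r2 : ms (m i) (fun ω => D (t + 1) ω = D (t + 1) y ∧
          cl b (e t + g) i ω = cl b (e t + g) i y)
        = ms (m i) (fun ω => D (t + 1) ω = D (t + 1) y ∧ wn (D t) b (e t) y q p i ω) := by
      apply ms_congr
      intro ω
      constructor
      · rintro ⟨h1, h2⟩
        exact ⟨h1, (wn_row (X := D t) hc hq).2 ⟨hD t ht ω h1, h2⟩⟩
      · rintro ⟨h1, h2⟩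
        exact ⟨h1, ((wn_row (X := D t) hc hq).1 h2).2⟩
    rw [r1, r2]
  have e1 : ∑ i ∈ range (2 ^ M), m i y * ∑ t ∈ range τ,
      (if cl b (e t) i y % 2 ^ g = (q : ℤ) then
        log (Pr (m i) (fun ω => (D t ω, cl b (e t + g) i ω)) (D t y, cl b (e t + g) i y) /
          Pr (m i) (fun ω => (D (t + 1) ω, cl b (e t + g) i ω))
            (D (t + 1) y, cl b (e t + g) i y)) else 0)
      = ∑ t ∈ range τ, ∑ i ∈ range (2 ^ M),
        (if ((b y + (i : ℤ)) / 2 ^ e t) % 2 ^ g = (q : ℤ) then m i y * Λ t i else 0) := by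
    rw [sum_comm]
    apply sum_congr rfl
    intro i _
    rw [mul_sum]
    apply sum_congr rfl
    intro t ht
    by_cases hc : cl b (e t) i y % 2 ^ g = (q : ℤ)
    · rw [if_pos hc, if_pos (by exact hc), hrow i t (mem_range.1 ht) hc]
    · rw [if_neg hc, if_neg (by exact hc), mul_zero]
  have hΛ0 : ∀ i t, t < τ → 0 < m i y → 0 ≤ Λ t i := by
    intro i t ht hy
    simp only [hΛ]
    exact log_div_nonneg' (ms_pos (h0 i) hy ⟨rfl, wn_self _ _ _ _ _ _ _⟩)
      (ms_mono (h0 i) fun ω h => h.2)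
  -- average over the high digits, level by level
  have e2 : ∀ t ∈ range τ, ∑ i ∈ range (2 ^ M),
        (if ((b y + (i : ℤ)) / 2 ^ e t) % 2 ^ g = (q : ℤ) then m i y * Λ t i else 0)
        ≤ (2 ^ g : ℝ)⁻¹ * ∑ i ∈ range (2 ^ M), m i y * Λ t i := by
    intro t ht
    have ht' := mem_range.1 ht
    rcases hper t ht' with htriv | hp'
    · have hz : ∀ i, m i y * Λ t i = 0 := by
        intro i
        have : Λ t i = 0 := by
          simp only [hΛ]
          rw [ms_congr (μ := m i) (A := fun ω => D (t + 1) ω = D (t + 1) y ∧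
            wn (D t) b (e t) y q p i ω) (B := wn (D t) b (e t) y q p i)
            (fun ω => ⟨fun h => h.2, fun h => ⟨htriv ω h.1, h⟩⟩)]
          rcases eq_or_ne (ms (m i) (wn (D t) b (e t) y q p i)) 0 with h | h
          · rw [h]; simp
          · rw [div_self h, log_one]
        rw [this, mul_zero]
      simp [hz]
    · refine le_of_eq ?_
      apply sum_digits (e t) g M (heM t ht') (fun i => m i y * Λ t i) ?_ (b y) q (by positivity)
        (by exact_mod_cast hq)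
      intro i j hi hj hij
      have h1 := hp'.ms hi hj hij (A := wn (D t) b (e t) y q p i)
        (B := wn (D t) b (e t) y q p j) (fun ω h => h.1) (fun ω => wn_per hij)
      have h2 := hp'.ms hi hj hij
        (A := fun ω => D (t + 1) ω = D (t + 1) y ∧ wn (D t) b (e t) y q p i ω)
        (B := fun ω => D (t + 1) ω = D (t + 1) y ∧ wn (D t) b (e t) y q p j ω)
        (fun ω h => h.2.1) (fun ω => and_congr_right fun _ => wn_per hij)
      simp only [hΛ, h1, h2, hp' i j hi hj hij y rfl]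
  rw [e1]
  refine (sum_le_sum e2).trans ?_
  rw [← mul_sum, sum_comm]
  apply mul_le_mul_of_nonneg_left _ (by positivity)
  apply sum_le_sum
  intro i _
  rw [← mul_sum]
  rcases (h0 i y).eq_or_lt with hz | hy
  · rw [← hz]; simp
  apply mul_le_mul_of_nonneg_left _ hy.le
  refine (sum_log_window (h0 i) D b e y hy τ hD he q p i).trans ?_
  unfold Lend
  have p0 : 0 < ms (m i) (wn (D 0) b (e 0) y q p i) := ms_pos (h0 i) hy (wn_self _ _ _ _ _ _ _)
  have p2 : 0 < ms (m i) (wn (D τ) b (e τ) y q p i) :=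
    ms_pos (h0 i) hy (wn_self _ _ _ _ _ _ _)
  have p3 : 0 < Pr (m i) (fun ω => (D τ ω, cl b (e τ) i ω)) (D τ y, cl b (e τ) i y) := by
    rw [Pr_pair_eq]; exact ms_pos (h0 i) hy ⟨rfl, rfl⟩
  apply log_le_log (div_pos p0 p2)
  apply div_le_div₀
  · exact ms_nonneg (h0 i) _
  · exact ms_mono (h0 i) fun ω h => h.1
  · exact p3
  · rw [Pr_pair_eq]
    apply ms_mono (h0 i)
    rintro ω ⟨h1, h2⟩
    exact ⟨h1, by omega, by omega⟩

/-! ### The middle part of the row -/

omit [Fintype Ω] in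
lemma wn_mid {X : Ω → δ} {b : Ω → ℤ} {e g : ℕ} {y ω : Ω} {q i : ℕ} (hq : cl b e i y % 2 ^ g = q)
    (hq1 : 1 ≤ q) (hq' : q + 2 ≤ 2 ^ g) :
    wn X b e y (q - 1) (2 ^ g - 1 - q - 1) i ω ↔ X ω = X y ∧
      cl b (e + g) i ω = cl b (e + g) i y ∧ 1 ≤ cl b e i ω % 2 ^ g ∧
      cl b e i ω % 2 ^ g + 2 ≤ 2 ^ g := by
  have hg : (0 : ℤ) < 2 ^ g := by positivity
  have hc : ((2 ^ g - 1 - q - 1 : ℕ) : ℤ) = 2 ^ g - 2 - q := by
    have h2 : 2 + q ≤ 2 ^ g := by omega
    rw [show 2 ^ g - 1 - q - 1 = 2 ^ g - (2 + q) by omega, Nat.cast_sub h2]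
    push_cast; ring
  have hc' : ((q - 1 : ℕ) : ℤ) = q - 1 := by rw [Nat.cast_sub hq1]; simp
  unfold wn
  rw [cl_add, cl_add, hc, hc']
  have e1 := Int.emod_add_mul_ediv (cl b e i y) (2 ^ g)
  have e2 := Int.emod_add_mul_ediv (cl b e i ω) (2 ^ g)
  have e3 := Int.emod_nonneg (cl b e i ω) hg.ne'
  have e4 := Int.emod_lt_of_pos (cl b e i ω) hg
  rw [hq] at e1
  have hq2 : (q : ℤ) + 2 ≤ 2 ^ g := by exact_mod_cast hq'
  have hq3 : (1 : ℤ) ≤ q := by exact_mod_cast hq1
  constructor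
  · rintro ⟨h, h1, h2⟩
    have h3 : cl b e i ω / 2 ^ g < cl b e i y / 2 ^ g + 1 := by
      by_contra hcon
      push Not at hcon
      have : (2 : ℤ) ^ g * (cl b e i y / 2 ^ g + 1) ≤ 2 ^ g * (cl b e i ω / 2 ^ g) :=
        mul_le_mul_of_nonneg_left hcon hg.le
      nlinarith
    have h4 : cl b e i y / 2 ^ g < cl b e i ω / 2 ^ g + 1 := by
      by_contra hcon
      push Not at hcon
      have : (2 : ℤ) ^ g * (cl b e i ω / 2 ^ g + 1) ≤ 2 ^ g * (cl b e i y / 2 ^ g) :=
        mul_le_mul_of_nonneg_left hcon hg.le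
      nlinarith
    have h5 : cl b e i ω / 2 ^ g = cl b e i y / 2 ^ g := by omega
    rw [h5] at e2
    refine ⟨h, h5, ?_, ?_⟩ <;> omega
  · rintro ⟨h, h1, h2, h3⟩
    rw [h1] at e2
    refine ⟨h, ?_, ?_⟩ <;> omega

/-- adding one cell on the right -/
lemma ms_right (μ : Ω → ℝ) (X : Ω → δ) (b : Ω → ℤ) (e : ℕ) (y : Ω) (q p i : ℕ) (hp : 1 ≤ p) :
    ms μ (wn X b e y q p i) = ms μ (wn X b e y q (p - 1) i) +
      ms μ (fun ω => X ω = X y ∧ cl b e i ω = cl b e i y + p) := by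
  apply ms_add
  · intro ω
    unfold wn
    constructor
    · rintro ⟨h1, h2, h3⟩
      by_cases h : cl b e i ω = cl b e i y + p
      · exact Or.inr ⟨h1, h⟩
      · exact Or.inl ⟨h1, h2, by omega⟩
    · rintro (⟨h1, h2, h3⟩ | ⟨h1, h2⟩)
      · exact ⟨h1, h2, by omega⟩
      · exact ⟨h1, by omega, by omega⟩
  · rintro ω ⟨_, _, h3⟩ ⟨_, h4⟩
    omega

/-- adding one cell on the left -/
lemma ms_left (μ : Ω → ℝ) (X : Ω → δ) (b : Ω → ℤ) (e : ℕ) (y : Ω) (q p i : ℕ) (hq : 1 ≤ q) :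
    ms μ (wn X b e y q p i) = ms μ (wn X b e y (q - 1) p i) +
      ms μ (fun ω => X ω = X y ∧ cl b e i ω = cl b e i y - q) := by
  apply ms_add
  · intro ω
    unfold wn
    constructor
    · rintro ⟨h1, h2, h3⟩
      by_cases h : cl b e i ω = cl b e i y - q
      · exact Or.inr ⟨h1, h⟩
      · exact Or.inl ⟨h1, by omega, h3⟩
    · rintro (⟨h1, h2, h3⟩ | ⟨h1, h2⟩)
      · exact ⟨h1, by omega, h3⟩
      · exact ⟨h1, by omega, by omega⟩
  · rintro ω ⟨_, h3, _⟩ ⟨_, h4⟩
    omega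

lemma log_ratio_le {x x' c : ℝ} (hx : 0 < x) (hxx : x ≤ x') (hc : 0 ≤ c) :
    log ((x' + c) / x') ≤ log ((x + c) / x) := by
  have hx' : 0 < x' := hx.trans_le hxx
  apply log_le_log (div_pos (by linarith) hx')
  rw [add_div, add_div, div_self hx.ne', div_self hx'.ne']
  have : c / x' ≤ c / x := div_le_div_of_nonneg_left hc hx hxx
  linarith

/-- one box: row against its middle -/
lemma log_mid_le {μ : Ω → ℝ} (h0 : ∀ ω, 0 ≤ μ ω) (X : Ω → δ) (b : Ω → ℤ) (e : ℕ) (y : Ω)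
    (hy : 0 < μ y) (q p i : ℕ) (hq : 1 ≤ q) (hp : 1 ≤ p) :
    log (ms μ (wn X b e y q p i) / ms μ (wn X b e y (q - 1) (p - 1) i)) ≤
      log (ms μ (wn X b e y 0 p i) / ms μ (wn X b e y 0 (p - 1) i)) +
      log (ms μ (wn X b e y q 0 i) / ms μ (wn X b e y (q - 1) 0 i)) := by
  have pos : ∀ q p, 0 < ms μ (wn X b e y q p i) := fun q p => ms_pos h0 hy (wn_self _ _ _ _ _ _ _)
  have e1 : log (ms μ (wn X b e y q p i) / ms μ (wn X b e y (q - 1) (p - 1) i))
      = log (ms μ (wn X b e y q p i) / ms μ (wn X b e y q (p - 1) i)) +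
        log (ms μ (wn X b e y q (p - 1) i) / ms μ (wn X b e y (q - 1) (p - 1) i)) := by
    rw [log_div (pos _ _).ne' (pos _ _).ne', log_div (pos _ _).ne' (pos _ _).ne',
      log_div (pos _ _).ne' (pos _ _).ne']
    ring
  have e2 : log (ms μ (wn X b e y q p i) / ms μ (wn X b e y q (p - 1) i))
      ≤ log (ms μ (wn X b e y 0 p i) / ms μ (wn X b e y 0 (p - 1) i)) := by
    rw [ms_right μ X b e y q p i hp, ms_right μ X b e y 0 p i hp]
    exact log_ratio_le (pos _ _) (ms_mono h0 fun ω h => wn_wide (by omega) le_rfl h)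
      (ms_nonneg h0 _)
  have e3 : log (ms μ (wn X b e y q (p - 1) i) / ms μ (wn X b e y (q - 1) (p - 1) i))
      ≤ log (ms μ (wn X b e y q 0 i) / ms μ (wn X b e y (q - 1) 0 i)) := by
    rw [ms_left μ X b e y q (p - 1) i hq, ms_left μ X b e y q 0 i hq]
    exact log_ratio_le (pos _ _) (ms_mono h0 fun ω h => wn_wide le_rfl (by omega) h)
      (ms_nonneg h0 _)
  rw [e1]; linarith

/-- the sum over the positions telescopes -/
lemma sum_pos_le {μ : Ω → ℝ} (h0 : ∀ ω, 0 ≤ μ ω) (X : Ω → δ) (b : Ω → ℤ) (e : ℕ) (y : Ω)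
    (hy : 0 < μ y) (g i : ℕ) (hg : 1 ≤ g) :
    ∑ q ∈ Ico 2 (2 ^ g - 2),
      (log (ms μ (wn X b e y 0 (2 ^ g - 1 - q) i) / ms μ (wn X b e y 0 (2 ^ g - 1 - q - 1) i)) +
      log (ms μ (wn X b e y q 0 i) / ms μ (wn X b e y (q - 1) 0 i)))
      ≤ log (ms μ (wn X b e y 0 (2 ^ g - 1) i) / ms μ (wn X b e y 0 1 i)) +
        log (ms μ (wn X b e y (2 ^ g - 1) 0 i) / ms μ (wn X b e y 1 0 i)) := by
  have pos : ∀ q p, 0 < ms μ (wn X b e y q p i) := fun q p => ms_pos h0 hy (wn_self _ _ _ _ _ _ _)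
  set n := 2 ^ g with hn
  have hA : ∀ p p', p ≤ p' → log (ms μ (wn X b e y 0 p i)) ≤ log (ms μ (wn X b e y 0 p' i)) :=
    fun p p' h => log_le_log (pos _ _) (ms_mono h0 fun ω h' => wn_wide le_rfl h h')
  have hB : ∀ p p', p ≤ p' → log (ms μ (wn X b e y p 0 i)) ≤ log (ms μ (wn X b e y p' 0 i)) :=
    fun p p' h => log_le_log (pos _ _) (ms_mono h0 fun ω h' => wn_wide h le_rfl h')
  have telA : ∀ N, ∑ q ∈ Ico 2 (N + 2), log (ms μ (wn X b e y 0 q i) /
      ms μ (wn X b e y 0 (q - 1) i)) = log (ms μ (wn X b e y 0 (N + 1) i)) -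
        log (ms μ (wn X b e y 0 1 i)) := by
    intro N
    induction N with
    | zero => simp
    | succ N ih =>
      rw [show N + 1 + 2 = N + 2 + 1 by omega, sum_Ico_succ_top (by omega), ih,
        log_div (pos _ _).ne' (pos _ _).ne', show N + 2 - 1 = N + 1 by omega,
        show N + 1 + 1 = N + 2 by omega]
      ring
  have telB : ∀ N, ∑ q ∈ Ico 2 (N + 2), log (ms μ (wn X b e y q 0 i) /
      ms μ (wn X b e y (q - 1) 0 i)) = log (ms μ (wn X b e y (N + 1) 0 i)) -
        log (ms μ (wn X b e y 1 0 i)) := by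
    intro N
    induction N with
    | zero => simp
    | succ N ih =>
      rw [show N + 1 + 2 = N + 2 + 1 by omega, sum_Ico_succ_top (by omega), ih,
        log_div (pos _ _).ne' (pos _ _).ne', show N + 2 - 1 = N + 1 by omega,
        show N + 1 + 1 = N + 2 by omega]
      ring
  rw [sum_add_distrib]
  rcases le_or_gt n 4 with h4 | h4
  · rw [Ico_eq_empty (by omega)]
    simp only [sum_empty, add_zero]
    have h2 : 2 ≤ n := by
      rw [hn]
      calc 2 = 2 ^ 1 := rfl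
        _ ≤ 2 ^ g := Nat.pow_le_pow_right (by omega) hg
    exact add_nonneg (log_div_nonneg' (pos _ _) (ms_mono h0 fun ω h' =>
      wn_wide le_rfl (by omega) h')) (log_div_nonneg' (pos _ _) (ms_mono h0 fun ω h' =>
      wn_wide (by omega) le_rfl h'))
  · obtain ⟨N, hN⟩ : ∃ N, n = N + 4 := ⟨n - 4, by omega⟩
    rw [show n - 2 = N + 2 by omega, telB N]
    have hrefl : ∑ q ∈ Ico 2 (N + 2), log (ms μ (wn X b e y 0 (n - 1 - q) i) /
        ms μ (wn X b e y 0 (n - 1 - q - 1) i)) =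
        ∑ q ∈ Ico 2 (N + 2), log (ms μ (wn X b e y 0 q i) / ms μ (wn X b e y 0 (q - 1) i)) := by
      apply sum_nbij' (fun q => n - 1 - q) (fun q => n - 1 - q)
      · intro q hq; rw [mem_Ico] at *; omega
      · intro q hq; rw [mem_Ico] at *; omega
      · intro q hq; rw [mem_Ico] at *; omega
      · intro q hq; rw [mem_Ico] at *; omega
      · intro q hq; rfl
    rw [hrefl, telA N, log_div (pos _ _).ne' (pos _ _).ne', log_div (pos _ _).ne' (pos _ _).ne']
    have a1 := hA (N + 1) (n - 1) (by omega)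
    have a2 := hB (N + 1) (n - 1) (by omega)
    linarith

/-- mass of the middle part of the row of `y` (at least one cell away from both ends) -/
def mid (μ : Ω → ℝ) (X : Ω → δ) (b : Ω → ℤ) (e g i : ℕ) (y : Ω) : ℝ :=
  ms μ (fun ω => X ω = X y ∧ cl b (e + g) i ω = cl b (e + g) i y ∧ 1 ≤ cl b e i ω % 2 ^ g ∧
      cl b e i ω % 2 ^ g + 2 ≤ 2 ^ g)

/-- **Middle part.** If the cell of `y` has distance at least two cells from the ends of its row,
the surprise of the middle part of the row costs `2 s 2^-g` times the last surprise. -/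
theorem mid_content (M g s τ : ℕ) (hg : 1 ≤ g) (m : ℕ → Ω → ℝ) (h0 : ∀ i ω, 0 ≤ m i ω)
    (D : ℕ → Ω → δ) (b : Ω → ℤ) (e : ℕ → ℕ) (y : Ω)
    (hD : ∀ t, t < τ → ∀ ω, D (t + 1) ω = D (t + 1) y → D t ω = D t y)
    (he : ∀ t, t < τ → e (t + 1) ≤ e t) (hes : ∀ t, t + s ≤ τ → e (t + s) + g ≤ e t)
    (heM : ∀ t, t < τ → e t + g ≤ M) (act : ℕ → Prop) [DecidablePred act]
    (hper : ∀ t, t < τ → act t → Per M m (D t) (e t) y) :
    ∑ i ∈ range (2 ^ M), m i y * ∑ t ∈ range τ,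
      (if act t ∧ 2 ≤ cl b (e t) i y % 2 ^ g ∧ cl b (e t) i y % 2 ^ g + 3 ≤ 2 ^ g then
        log (Pr (m i) (fun ω => (D t ω, cl b (e t + g) i ω)) (D t y, cl b (e t + g) i y) /
          mid (m i) (D t) b (e t) g i y) else 0)
      ≤ 2 * s * (2 ^ g : ℝ)⁻¹ * ∑ i ∈ range (2 ^ M), m i y * Lend m D b e τ y i := by
  -- nestedness over several levels
  have hDd : ∀ d t, t + d ≤ τ → ∀ ω, D (t + d) ω = D (t + d) y → D t ω = D t y := by
    intro d
    induction d with
    | zero => intro t _ ω h; simpa using h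
    | succ d ih => intro t ht ω h; exact ih t (by omega) ω (hD (t + d) (by omega) ω (by simpa [add_assoc] using h))
  have hed : ∀ d t, t + d ≤ τ → e (t + d) ≤ e t := by
    intro d
    induction d with
    | zero => intro t _; simp
    | succ d ih => intro t ht; exact (he (t + d) (by omega)).trans (ih t (by omega))
  set W : ℕ → ℕ → ℕ → ℕ → ℝ := fun t i q p => ms (m i) (wn (D t) b (e t) y q p i) with hW
  set φ : ℕ → ℕ → ℕ → ℝ := fun t i q =>
    log (W t i 0 (2 ^ g - 1 - q) / W t i 0 (2 ^ g - 1 - q - 1)) +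
      log (W t i q 0 / W t i (q - 1) 0) with hφ
  set Ψ : ℕ → ℕ → ℝ := fun t i =>
    log (W t i 0 (2 ^ g - 1) / W t i 0 1) + log (W t i (2 ^ g - 1) 0 / W t i 1 0) with hΨ
  have hn2 : 2 ≤ 2 ^ g := by
    calc 2 = 2 ^ 1 := rfl
      _ ≤ 2 ^ g := Nat.pow_le_pow_right (by omega) hg
  -- one level
  have lev : ∀ t, t < τ → ∑ i ∈ range (2 ^ M), m i y *
      (if act t ∧ 2 ≤ cl b (e t) i y % 2 ^ g ∧ cl b (e t) i y % 2 ^ g + 3 ≤ 2 ^ g then
        log (Pr (m i) (fun ω => (D t ω, cl b (e t + g) i ω)) (D t y, cl b (e t + g) i y) /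
          mid (m i) (D t) b (e t) g i y) else 0)
      ≤ (2 ^ g : ℝ)⁻¹ * ∑ i ∈ range (2 ^ M), m i y * Ψ t i := by
    intro t ht
    have hΨ0 : ∀ i, 0 ≤ m i y * Ψ t i := by
      intro i
      rcases (h0 i y).eq_or_lt with hz | hy
      · rw [← hz, zero_mul]
      · apply mul_nonneg hy.le
        have pos : ∀ q p, 0 < W t i q p := fun q p => ms_pos (h0 i) hy (wn_self _ _ _ _ _ _ _)
        exact add_nonneg (log_div_nonneg' (pos _ _) (ms_mono (h0 i) fun ω h' =>
          wn_wide le_rfl (by omega) h')) (log_div_nonneg' (pos _ _) (ms_mono (h0 i) fun ω h' =>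
          wn_wide (by omega) le_rfl h'))
    by_cases hact : act t
    · have hP := hper t ht hact
      have s1 : ∀ i ∈ range (2 ^ M), m i y *
          (if act t ∧ 2 ≤ cl b (e t) i y % 2 ^ g ∧ cl b (e t) i y % 2 ^ g + 3 ≤ 2 ^ g then
            log (Pr (m i) (fun ω => (D t ω, cl b (e t + g) i ω)) (D t y, cl b (e t + g) i y) /
              mid (m i) (D t) b (e t) g i y) else 0)
          ≤ ∑ q ∈ Ico (2 : ℕ) (2 ^ g - 2),
            (if ((b y + (i : ℤ)) / 2 ^ e t) % 2 ^ g = (q : ℤ) then m i y * φ t i q else 0) := by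
        intro i _
        have hterm : ∀ q ∈ Ico (2 : ℕ) (2 ^ g - 2),
            0 ≤ (if ((b y + (i : ℤ)) / 2 ^ e t) % 2 ^ g = (q : ℤ) then m i y * φ t i q else 0) := by
          intro q hq
          rw [mem_Ico] at hq
          split_ifs with h
          · rcases (h0 i y).eq_or_lt with hz | hy
            · rw [← hz, zero_mul]
            · apply mul_nonneg hy.le
              have pos : ∀ q p, 0 < W t i q p :=
                fun q p => ms_pos (h0 i) hy (wn_self _ _ _ _ _ _ _)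
              exact add_nonneg (log_div_nonneg' (pos _ _) (ms_mono (h0 i) fun ω h' =>
                wn_wide le_rfl (by omega) h')) (log_div_nonneg' (pos _ _)
                (ms_mono (h0 i) fun ω h' => wn_wide (by omega) le_rfl h'))
          · exact le_rfl
        by_cases hc : act t ∧ 2 ≤ cl b (e t) i y % 2 ^ g ∧ cl b (e t) i y % 2 ^ g + 3 ≤ 2 ^ g
        · rw [if_pos hc]
          obtain ⟨q, hq⟩ : ∃ q : ℕ, cl b (e t) i y % 2 ^ g = (q : ℤ) :=
            ⟨(cl b (e t) i y % 2 ^ g).toNat, by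
              rw [Int.toNat_of_nonneg (Int.emod_nonneg _ (by positivity))]⟩
          have hq1 : 2 ≤ q := by have := hc.2.1; rw [hq] at this; exact_mod_cast this
          have hq2 : q + 3 ≤ 2 ^ g := by have := hc.2.2; rw [hq] at this; exact_mod_cast this
          have hmem : q ∈ Ico (2 : ℕ) (2 ^ g - 2) := by rw [mem_Ico]; omega
          refine le_trans ?_ (single_le_sum hterm hmem)
          rw [if_pos (by exact hq)]
          rcases (h0 i y).eq_or_lt with hz | hy
          · rw [← hz, zero_mul, zero_mul]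
          apply mul_le_mul_of_nonneg_left _ hy.le
          have r1 : Pr (m i) (fun ω => (D t ω, cl b (e t + g) i ω)) (D t y, cl b (e t + g) i y)
              = W t i q (2 ^ g - 1 - q) := by
            rw [Pr_pair_eq]
            exact ms_congr fun ω => (wn_row (X := D t) (ω := ω) hq (by omega)).symm
          have r2 : mid (m i) (D t) b (e t) g i y = W t i (q - 1) (2 ^ g - 1 - q - 1) :=
            ms_congr fun ω => (wn_mid (X := D t) (ω := ω) hq (by omega) (by omega)).symm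
          rw [r1, r2]
          exact log_mid_le (h0 i) (D t) b (e t) y hy q (2 ^ g - 1 - q) i (by omega) (by omega)
        · rw [if_neg hc, mul_zero]
          exact sum_nonneg hterm
      refine (sum_le_sum s1).trans ?_
      rw [sum_comm]
      have s2 : ∀ q ∈ Ico (2 : ℕ) (2 ^ g - 2), ∑ i ∈ range (2 ^ M),
          (if ((b y + (i : ℤ)) / 2 ^ e t) % 2 ^ g = (q : ℤ) then m i y * φ t i q else 0)
          = (2 ^ g : ℝ)⁻¹ * ∑ i ∈ range (2 ^ M), m i y * φ t i q := by
        intro q hq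
        rw [mem_Ico] at hq
        apply sum_digits (e t) g M (heM t ht) (fun i => m i y * φ t i q) ?_ (b y) q (by positivity)
          (by exact_mod_cast (show q < 2 ^ g by omega))
        intro i j hi hj hij
        have hWW : ∀ q p, W t i q p = W t j q p := fun q p =>
          hP.ms hi hj hij (fun ω h => h.1) (fun ω => wn_per hij)
        simp only [hφ, hWW, hP i j hi hj hij y rfl]
      rw [sum_congr rfl s2, ← mul_sum, sum_comm]
      apply mul_le_mul_of_nonneg_left _ (by positivity)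
      apply sum_le_sum
      intro i _
      rw [← mul_sum]
      rcases (h0 i y).eq_or_lt with hz | hy
      · rw [← hz, zero_mul, zero_mul]
      apply mul_le_mul_of_nonneg_left _ hy.le
      exact sum_pos_le (h0 i) (D t) b (e t) y hy g i hg
    · have : ∀ i ∈ range (2 ^ M), m i y *
          (if act t ∧ 2 ≤ cl b (e t) i y % 2 ^ g ∧ cl b (e t) i y % 2 ^ g + 3 ≤ 2 ^ g then
            log (Pr (m i) (fun ω => (D t ω, cl b (e t + g) i ω)) (D t y, cl b (e t + g) i y) /
              mid (m i) (D t) b (e t) g i y) else 0) = 0 := by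
        intro i _
        rw [if_neg (fun h => hact h.1), mul_zero]
      rw [sum_congr rfl this, sum_const_zero]
      exact mul_nonneg (by positivity) (sum_nonneg fun i _ => hΨ0 i)
  -- sum over the levels
  have e1 : ∑ i ∈ range (2 ^ M), m i y * ∑ t ∈ range τ,
      (if act t ∧ 2 ≤ cl b (e t) i y % 2 ^ g ∧ cl b (e t) i y % 2 ^ g + 3 ≤ 2 ^ g then
        log (Pr (m i) (fun ω => (D t ω, cl b (e t + g) i ω)) (D t y, cl b (e t + g) i y) /
          mid (m i) (D t) b (e t) g i y) else 0)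
      = ∑ t ∈ range τ, ∑ i ∈ range (2 ^ M), m i y *
      (if act t ∧ 2 ≤ cl b (e t) i y % 2 ^ g ∧ cl b (e t) i y % 2 ^ g + 3 ≤ 2 ^ g then
        log (Pr (m i) (fun ω => (D t ω, cl b (e t + g) i ω)) (D t y, cl b (e t + g) i y) /
          mid (m i) (D t) b (e t) g i y) else 0) := by
    rw [sum_comm]
    exact sum_congr rfl fun i _ => mul_sum _ _ _
  rw [e1]
  refine (sum_le_sum fun t ht => lev t (mem_range.1 ht)).trans ?_
  rw [← mul_sum, sum_comm]
  have e2 : ∑ i ∈ range (2 ^ M), ∑ t ∈ range τ, m i y * Ψ t i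
      ≤ 2 * s * ∑ i ∈ range (2 ^ M), m i y * Lend m D b e τ y i := by
    rw [mul_sum]
    apply sum_le_sum
    intro i _
    rw [← mul_sum]
    rcases (h0 i y).eq_or_lt with hz | hy
    · rw [← hz]; simp
    have pos : ∀ t q p, 0 < W t i q p := fun t q p => ms_pos (h0 i) hy (wn_self _ _ _ _ _ _ _)
    have pe : 0 < Pr (m i) (fun ω => (D τ ω, cl b (e τ) i ω)) (D τ y, cl b (e τ) i y) := by
      rw [Pr_pair_eq]; exact ms_pos (h0 i) hy ⟨rfl, rfl⟩
    have pd : 0 < Pr (m i) (D 0) (D 0 y) := by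
      rw [Pr_eq_ms]; exact ms_pos (h0 i) hy rfl
    have hend : ∀ t q p, t ≤ τ → log (Pr (m i) (fun ω => (D τ ω, cl b (e τ) i ω))
        (D τ y, cl b (e τ) i y)) ≤ log (W t i q p) := by
      intro t q p ht
      apply log_le_log pe
      rw [Pr_pair_eq]
      apply ms_mono (h0 i)
      rintro ω ⟨h1, h2⟩
      have hw : wn (D τ) b (e τ) y q p i ω := ⟨h1, by omega, by omega⟩
      obtain ⟨d, rfl⟩ : ∃ d, τ = t + d := ⟨τ - t, by omega⟩
      exact wn_nest (fun h => hDd d t le_rfl ω h) (hed d t le_rfl) hw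
    have tA : ∑ t ∈ range τ, (log (W t i 0 (2 ^ g - 1)) - log (W t i 0 1))
        ≤ s * (log (W 0 i 0 (2 ^ g - 1)) - log (Pr (m i) (fun ω => (D τ ω, cl b (e τ) i ω))
        (D τ y, cl b (e τ) i y))) := by
      apply tele (fun t => log (W t i 0 (2 ^ g - 1))) (fun t => log (W t i 0 1))
      · intro t ht
        exact log_le_log (pos _ _ _) (ms_mono (h0 i) fun ω h => wn_nest (hD t ht ω) (he t ht) h)
      · intro t ht
        apply log_le_log (pos _ _ _)
        apply ms_mono (h0 i)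
        intro ω h
        have := wn_deep (X := D t) (hDd s t ht ω) (hes t ht) (by omega) (by omega) h
        simpa [min_eq_right (show 1 ≤ 2 ^ g - 1 by omega)] using this
      · exact hend τ _ _ le_rfl
      · intro t ht; exact hend t _ _ ht.le
    have tB : ∑ t ∈ range τ, (log (W t i (2 ^ g - 1) 0) - log (W t i 1 0))
        ≤ s * (log (W 0 i (2 ^ g - 1) 0) - log (Pr (m i) (fun ω => (D τ ω, cl b (e τ) i ω))
        (D τ y, cl b (e τ) i y))) := by
      apply tele (fun t => log (W t i (2 ^ g - 1) 0)) (fun t => log (W t i 1 0))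
      · intro t ht
        exact log_le_log (pos _ _ _) (ms_mono (h0 i) fun ω h => wn_nest (hD t ht ω) (he t ht) h)
      · intro t ht
        apply log_le_log (pos _ _ _)
        apply ms_mono (h0 i)
        intro ω h
        have := wn_deep (X := D t) (hDd s t ht ω) (hes t ht) (by omega) (by omega) h
        simpa [min_eq_right (show 1 ≤ 2 ^ g - 1 by omega)] using this
      · exact hend τ _ _ le_rfl
      · intro t ht; exact hend t _ _ ht.le
    have h00 : ∀ q p, log (W 0 i q p) ≤ log (Pr (m i) (D 0) (D 0 y)) := by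
      intro q p
      apply log_le_log (pos _ _ _)
      rw [Pr_eq_ms]
      exact ms_mono (h0 i) fun ω h => h.1
    have hΨs : ∑ t ∈ range τ, Ψ t i = ∑ t ∈ range τ, (log (W t i 0 (2 ^ g - 1)) - log (W t i 0 1))
        + ∑ t ∈ range τ, (log (W t i (2 ^ g - 1) 0) - log (W t i 1 0)) := by
      rw [← sum_add_distrib]
      apply sum_congr rfl
      intro t _
      simp only [hΨ]
      rw [log_div (pos _ _ _).ne' (pos _ _ _).ne', log_div (pos _ _ _).ne' (pos _ _ _).ne']
    have hL : Lend m D b e τ y i = log (Pr (m i) (D 0) (D 0 y)) -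
        log (Pr (m i) (fun ω => (D τ ω, cl b (e τ) i ω)) (D τ y, cl b (e τ) i y)) := by
      unfold Lend
      rw [log_div pd.ne' pe.ne']
    rw [hΨs, hL]
    have hs0 : (0 : ℝ) ≤ s := Nat.cast_nonneg s
    have a1 := mul_le_mul_of_nonneg_left (h00 0 (2 ^ g - 1)) hs0
    have a2 := mul_le_mul_of_nonneg_left (h00 (2 ^ g - 1) 0) hs0
    have goal' : ∑ t ∈ range τ, (log (W t i 0 (2 ^ g - 1)) - log (W t i 0 1))
        + ∑ t ∈ range τ, (log (W t i (2 ^ g - 1) 0) - log (W t i 1 0))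
        ≤ 2 * s * (log (Pr (m i) (D 0) (D 0 y)) -
        log (Pr (m i) (fun ω => (D τ ω, cl b (e τ) i ω)) (D τ y, cl b (e τ) i y))) := by
      nlinarith [tA, tB, a1, a2]
    calc m i y * (∑ t ∈ range τ, (log (W t i 0 (2 ^ g - 1)) - log (W t i 0 1))
        + ∑ t ∈ range τ, (log (W t i (2 ^ g - 1) 0) - log (W t i 1 0)))
        ≤ m i y * (2 * s * (log (Pr (m i) (D 0) (D 0 y)) -
        log (Pr (m i) (fun ω => (D τ ω, cl b (e τ) i ω)) (D τ y, cl b (e τ) i y)))) :=
          mul_le_mul_of_nonneg_left goal' hy.le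
      _ = _ := by ring
  calc (2 ^ g : ℝ)⁻¹ * ∑ i ∈ range (2 ^ M), ∑ t ∈ range τ, m i y * Ψ t i
      ≤ (2 ^ g : ℝ)⁻¹ * (2 * s * ∑ i ∈ range (2 ^ M), m i y * Lend m D b e τ y i) :=
        mul_le_mul_of_nonneg_left e2 (by positivity)
    _ = _ := by ring

/-! ### Small rows in big rows; thick and near -/

/-- for one offset: rows of `2^g1` cells with mass `< d` times the mass of the row of `2^g2`
cells (`g1 <= g2`): at most `(g2 - g1) L / log (1/d)` levels -/
theorem small_in_big {μ : Ω → ℝ} (h0 : ∀ ω, 0 ≤ μ ω) (D : ℕ → Ω → δ) (b : Ω → ℤ) (e : ℕ → ℕ)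
    (y : Ω) (hy : 0 < μ y) (τ g1 s i : ℕ)
    (hD : ∀ t, t < τ → ∀ ω, D (t + 1) ω = D (t + 1) y → D t ω = D t y)
    (hes : ∀ t, t < τ → e t = e (t + 1) + 1) (d : ℝ) (hd : 0 < d) :
    (((range τ).filter (fun t =>
        Pr μ (fun ω => (D t ω, cl b (e t + g1) i ω)) (D t y, cl b (e t + g1) i y) < d *
        Pr μ (fun ω => (D t ω, cl b (e t + g1 + s) i ω)) (D t y, cl b (e t + g1 + s) i y))).card : ℝ)
      * log (1 / d) ≤ s * log (Pr μ (D 0) (D 0 y) /
        Pr μ (fun ω => (D τ ω, cl b (e τ + g1) i ω)) (D τ y, cl b (e τ + g1) i y)) := by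
  classical
  set F : ℕ → ℝ := fun t => log (Pr μ (fun ω => (D t ω, cl b (e t + g1 + s) i ω))
    (D t y, cl b (e t + g1 + s) i y)) with hF
  set G : ℕ → ℝ := fun t => log (Pr μ (fun ω => (D t ω, cl b (e t + g1) i ω))
    (D t y, cl b (e t + g1) i y)) with hG
  have pos : ∀ t a, 0 < Pr μ (fun ω => (D t ω, cl b a i ω)) (D t y, cl b a i y) := by
    intro t a
    rw [Pr_pair_eq]; exact ms_pos h0 hy ⟨rfl, rfl⟩
  have hDd : ∀ d t, t + d ≤ τ → ∀ ω, D (t + d) ω = D (t + d) y → D t ω = D t y := by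
    intro d
    induction d with
    | zero => intro t _ ω h; simpa using h
    | succ d ih => intro t ht ω h; exact ih t (by omega) ω (hD (t + d) (by omega) ω (by simpa [add_assoc] using h))
  have hed : ∀ d t, t + d ≤ τ → e t = e (t + d) + d := by
    intro d
    induction d with
    | zero => intro t _; simp
    | succ d ih =>
      intro t ht
      have h1 := ih t (by omega)
      have h2 := hes (t + d) (by omega)
      rw [show t + (d + 1) = t + d + 1 by omega]
      omega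
  have hmono : ∀ t t' a a', t ≤ t' → t' ≤ τ → a' ≤ a →
      Pr μ (fun ω => (D t' ω, cl b a' i ω)) (D t' y, cl b a' i y)
        ≤ Pr μ (fun ω => (D t ω, cl b a i ω)) (D t y, cl b a i y) := by
    intro t t' a a' h1 h2 h3
    rw [Pr_pair_eq, Pr_pair_eq]
    apply ms_mono h0
    rintro ω ⟨k1, k2⟩
    obtain ⟨u, rfl⟩ : ∃ u, t' = t + u := ⟨t' - t, by omega⟩
    obtain ⟨v, rfl⟩ : ∃ v, a = a' + v := ⟨a - a', by omega⟩
    refine ⟨hDd u t h2 ω k1, ?_⟩
    rw [cl_add, cl_add, k2]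
  have T := tele F G s τ (log (Pr μ (fun ω => (D τ ω, cl b (e τ + g1) i ω))
    (D τ y, cl b (e τ + g1) i y)))
    (fun t ht => log_le_log (pos _ _) (hmono _ _ _ _ (by omega) (by omega)
      (by have := hes t ht; omega)))
    (fun t ht => log_le_log (pos _ _) (hmono _ _ _ _ (by omega) (by omega)
      (by have := hed s t ht; omega)))
    (log_le_log (pos _ _) (hmono _ _ _ _ le_rfl le_rfl (by omega)))
    (fun t ht => log_le_log (pos _ _) (hmono _ _ _ _ ht.le le_rfl
      (by have := hed (τ - t) t (by omega)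
          rw [show t + (τ - t) = τ by omega] at this
          omega)))
  have hFG : ∀ t ∈ range τ, 0 ≤ F t - G t := by
    intro t ht
    have := log_le_log (pos t (e t + g1)) (hmono t t (e t + g1 + s) (e t + g1) le_rfl
      (mem_range.1 ht).le (by omega))
    simp only [hF, hG]; linarith
  have h1 : (((range τ).filter (fun t =>
        Pr μ (fun ω => (D t ω, cl b (e t + g1) i ω)) (D t y, cl b (e t + g1) i y) < d *
        Pr μ (fun ω => (D t ω, cl b (e t + g1 + s) i ω)) (D t y, cl b (e t + g1 + s) i y))).card : ℝ)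
      * log (1 / d) ≤ ∑ t ∈ range τ, (F t - G t) := by
    rw [← nsmul_eq_mul, ← sum_const]
    rw [sum_filter]
    apply sum_le_sum
    intro t ht
    split_ifs with ht2
    swap
    · exact hFG t ht
    have h3 := log_le_log (pos _ _) ht2.le
    rw [log_mul hd.ne' (pos _ _).ne'] at h3
    rw [one_div, log_inv]
    simp only [hF, hG]; linarith
  refine h1.trans (T.trans ?_)
  have pd : 0 < Pr μ (D 0) (D 0 y) := by
    rw [Pr_eq_ms]; exact ms_pos h0 hy rfl
  rw [log_div pd.ne' (pos _ _).ne']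
  apply mul_le_mul_of_nonneg_left _ (Nat.cast_nonneg s)
  have : F 0 ≤ log (Pr μ (D 0) (D 0 y)) := by
    apply log_le_log (pos _ _)
    rw [Pr_pair_eq, Pr_eq_ms]
    exact ms_mono h0 fun ω h => h.1
  linarith

omit [Fintype Ω] in
/-- **Two guards.** `f` (for instance the indicator of thickness in the row of exponent `a`) only
depends on the digits of the offset below `a`; the event that this row is the first or the last
one in the row of exponent `a + c` costs the factor `2^(1-c)`. -/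
theorem thick_near (M a c : ℕ) (hM : a + c ≤ M) (hc : 1 ≤ c) (f : ℕ → ℝ)
    (hf : ∀ i j, i < 2 ^ M → j < 2 ^ M → i % 2 ^ a = j % 2 ^ a → f i = f j)
    (b : Ω → ℤ) (y : Ω) :
    ∑ i ∈ range (2 ^ M), (if cl b a i y % 2 ^ c = 0 ∨ cl b a i y % 2 ^ c = 2 ^ c - 1 then f i
      else 0) = 2 * (2 ^ c : ℝ)⁻¹ * ∑ i ∈ range (2 ^ M), f i := by
  have h2 : (2 : ℤ) ≤ 2 ^ c := by
    calc (2 : ℤ) = 2 ^ 1 := rfl
      _ ≤ 2 ^ c := pow_le_pow_right₀ (by norm_num) hc
  have e0 := sum_digits a c M hM f hf (b y) 0 le_rfl (by positivity)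
  have e1 := sum_digits a c M hM f hf (b y) (2 ^ c - 1) (by omega) (by omega)
  have : ∑ i ∈ range (2 ^ M), (if cl b a i y % 2 ^ c = 0 ∨ cl b a i y % 2 ^ c = 2 ^ c - 1 then f i
      else 0) = ∑ i ∈ range (2 ^ M), (if ((b y + (i : ℤ)) / 2 ^ a) % 2 ^ c = 0 then f i else 0)
      + ∑ i ∈ range (2 ^ M), (if ((b y + (i : ℤ)) / 2 ^ a) % 2 ^ c = 2 ^ c - 1 then f i else 0) := by
    rw [← sum_add_distrib]
    apply sum_congr rfl
    intro i _
    unfold cl
    by_cases h1 : ((b y + (i : ℤ)) / 2 ^ a) % 2 ^ c = 0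
    · have h3 : ¬ ((b y + (i : ℤ)) / 2 ^ a) % 2 ^ c = 2 ^ c - 1 := by omega
      rw [if_pos (Or.inl h1), if_pos h1, if_neg h3, add_zero]
    · by_cases h3 : ((b y + (i : ℤ)) / 2 ^ a) % 2 ^ c = 2 ^ c - 1
      · rw [if_pos (Or.inr h3), if_neg h1, if_pos h3, zero_add]
      · rw [if_neg (by tauto), if_neg h1, if_neg h3, add_zero]
  rw [this, e0, e1]; ring

end win

end Vale.Agent.P065.H279
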